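import Vale.Agent.Lib.P310F.Defs0

/-!
Counter machines with an output list.  A register is a natural number; the machine has a list of
instructions and a program counter.
-/

namespace Vale.Agent.Lib.P310F

/-- Instructions of a counter machine. -/
inductive Instr where
  | inc (j : ℕ)
  | dec (j : ℕ)
  | jz (j L : ℕ)
  | jmp (L : ℕ)
  | out (b : Bool)
  deriving DecidableEq

/-- A configuration of a counter machine. -/
structure CConf where
  pc : ℕ
  regs : ℕ → ℕ
  out : List Bool

namespace CConf

/-- One step of a counter machine. -/
def step (code : List Instr) (c : CConf) : CConf :=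
  match code[c.pc]? with
  | none => c
  | some (Instr.inc j) => ⟨c.pc + 1, Function.update c.regs j (c.regs j + 1), c.out⟩
  | some (Instr.dec j) => ⟨c.pc + 1, Function.update c.regs j (c.regs j - 1), c.out⟩
  | some (Instr.jz j L) => if c.regs j = 0 then ⟨L, c.regs, c.out⟩ else ⟨c.pc + 1, c.regs, c.out⟩
  | some (Instr.jmp L) => ⟨L, c.regs, c.out⟩
  | some (Instr.out b) => ⟨c.pc + 1, c.regs, c.out ++ [b]⟩

end CConf

end Vale.Agent.Lib.P310F
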