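import Vale.Agent.Lib.P310F.XorN

/-!
Codes of the finite types of the clause system: letters of strings, tags, coordinates, clauses and
letters of the system.  A code is a coded list of numbers.
-/

set_option linter.unusedSectionVars false

namespace Vale.Agent.Lib.P310F

open Finset R

lemma ex_fin {n : ℕ} {P : ℕ → Prop} : (∃ x, x < n ∧ P x) ↔ ∃ i : Fin n, P i.val :=
  ⟨fun ⟨x, hx, h⟩ => ⟨⟨x, hx⟩, h⟩, fun ⟨i, h⟩ => ⟨i.val, i.isLt, h⟩⟩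

/-- An upper bound for codes of lists. -/
def tb (W D : ℕ) : ℕ := tup (List.replicate D W)

lemma pair_mono {a a' b b' : ℕ} (h : a ≤ a') (h' : b ≤ b') : Nat.pair a b ≤ Nat.pair a' b' := by
  have h1 : Nat.pair a b ≤ Nat.pair a' b := by
    rcases h.lt_or_eq with h2 | rfl
    · exact (Nat.pair_lt_pair_left b h2).le
    · exact le_rfl
  have h2 : Nat.pair a' b ≤ Nat.pair a' b' := by
    rcases h'.lt_or_eq with h3 | rfl
    · exact (Nat.pair_lt_pair_right a' h3).le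
    · exact le_rfl
  exact h1.trans h2

lemma tup_le_tb {W : ℕ} : ∀ (l : List ℕ) (D : ℕ), (∀ x ∈ l, x ≤ W) → l.length ≤ D → tup l ≤ tb W D
  | [], _, _, _ => Nat.zero_le _
  | _ :: _, 0, _, h' => by simp at h'
  | a :: l, D + 1, h, h' => by
    have h1 := tup_le_tb l D (fun x hx => h x (List.mem_cons_of_mem _ hx))
      (by simpa using h')
    have h2 := h a (List.mem_cons_self)
    simp only [tb, List.replicate_succ, tup_cons]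
    exact Nat.add_le_add_right (pair_mono h2 h1) 1

lemma tup_lt_tb {W D : ℕ} {l : List ℕ} (h : ∀ x ∈ l, x ≤ W) (h' : l.length ≤ D) :
    tup l < tb W D + 1 := Nat.lt_succ_of_le (tup_le_tb l D h h')

/-- A coded type. -/
structure CdT {α : Type} (cd : α → ℕ) (vd : ℕ → Prop) (B : ℕ) : Prop where
  inj : Function.Injective cd
  lt : ∀ a, cd a < B
  iff : ∀ k, vd k ↔ ∃ a, cd a = k

namespace CdT

open Classical

variable {α : Type} [Fintype α] {cd : α → ℕ} {vd : ℕ → Prop} {B : ℕ} (h : CdT cd vd B)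
include h

lemma filter_eq : (range B).filter vd = (univ : Finset α).image cd := by
  ext k
  simp only [mem_filter, mem_range, mem_image, mem_univ, true_and]
  rw [h.iff]
  constructor
  · exact fun h' => h'.2
  · rintro ⟨c, rfl⟩
    exact ⟨h.lt c, c, rfl⟩

lemma cnt_B : cnt vd B = Fintype.card α := by
  unfold cnt
  rw [h.filter_eq, card_image_of_injective _ h.inj, card_univ]

lemma cnt_lt_of_lt {a b : ℕ} (ha : vd a) (hab : a < b) : cnt vd a < cnt vd b := by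
  unfold cnt
  apply Finset.card_lt_card
  rw [Finset.ssubset_iff_of_subset]
  · refine ⟨a, ?_, ?_⟩
    · rw [mem_filter, mem_range]
      exact ⟨hab, ha⟩
    · simp
  · intro j hj
    rw [mem_filter, mem_range] at hj ⊢
    exact ⟨lt_trans hj.1 hab, hj.2⟩

lemma rank_lt (a : α) : cnt vd (cd a) < Fintype.card α := by
  rw [← h.cnt_B]
  exact h.cnt_lt_of_lt ((h.iff _).mpr ⟨a, rfl⟩) (h.lt a)

lemma rank_inj {a b : α} (e : cnt vd (cd a) = cnt vd (cd b)) : a = b := by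
  rcases lt_trichotomy (cd a) (cd b) with h1 | h1 | h1
  · have := h.cnt_lt_of_lt ((h.iff _).mpr ⟨a, rfl⟩) h1
    omega
  · exact h.inj h1
  · have := h.cnt_lt_of_lt ((h.iff _).mpr ⟨b, rfl⟩) h1
    omega

/-- The numbering of a coded type. -/
noncomputable def num : NumE α :=
  ⟨Equiv.ofBijective (fun a => ⟨cnt vd (cd a), h.rank_lt a⟩) (by
    rw [Fintype.bijective_iff_injective_and_card]
    constructor
    · intro a b e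
      exact h.rank_inj (congrArg Fin.val e)
    · simp)⟩

lemma num_val (a : α) : (h.num.e a).val = cnt vd (cd a) := rfl

end CdT

/-- Bits of a number as a function. -/
def encOf {α : Type} (rk : α → ℕ) (b : ℕ) (a : α) : Fin b → Bool :=
  fun i => decide (bt (rk a) i.val = 1)

lemma encOf_inj {α : Type} {rk : α → ℕ} {b : ℕ} (h : Function.Injective rk)
    (hb : ∀ a, rk a < 2 ^ b) : Function.Injective (encOf rk b) := by
  intro a a' e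
  apply h
  apply Nat.eq_of_testBit_eq
  intro i
  by_cases hi : i < b
  · have := congrFun e ⟨i, hi⟩
    simp only [encOf] at this
    rw [Nat.testBit_eq_decide_div_mod_eq, Nat.testBit_eq_decide_div_mod_eq]
    exact this
  · have h1 : rk a < 2 ^ i := lt_of_lt_of_le (hb a) (Nat.pow_le_pow_right (by omega) (by omega))
    have h2 : rk a' < 2 ^ i := lt_of_lt_of_le (hb a') (Nat.pow_le_pow_right (by omega) (by omega))
    rw [Nat.testBit_lt_two_pow h1, Nat.testBit_lt_two_pow h2]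

lemma encOf_eq_iff {α : Type} {rk : α → ℕ} {b : ℕ} (a : α) (i : Fin b) (x : Bool) :
    encOf rk b a i = x ↔ bt (rk a) i.val = x.toNat := by
  have h := bt_lt (rk a) i.val
  simp only [encOf]
  cases x
  · simp only [decide_eq_false_iff_not, Bool.toNat_false]
    omega
  · simp only [decide_eq_true_eq, Bool.toNat_true]

/-- The numeric parameters of the graphs. -/
structure Par where
  σ : ℕ
  L : ℕ
  d : ℕ
  n : ℕ
  C : ℕ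
  T : ℕ
  TA : ℕ
  bl : ℕ
  c0 : ℕ
  c1 : ℕ
  c2 : ℕ

/-- Letters of strings. -/
abbrev LaP (p : Par) : Type := LamC (Fin p.σ) p.n

/-- Tags. -/
abbrev TgP (p : Par) : Type := Tag (Fin p.σ) p.L p.L

/-- Coordinates. -/
abbrev CoP (p : Par) : Type := SCo (tmN p.L) (tmP p.L p.d)

/-- Clauses. -/
abbrev ClP (p : Par) : Type := SCl (tmN p.L) (tmBL (Fin p.σ) p.n) (tmBS (Fin p.σ) p.L)

/-- Letters of the system. -/
abbrev LtP (p : Par) : Type := SLet (LaP p) (TgP p) (tmN p.L) (tmP p.L p.d)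

/-- Base vertices. -/
abbrev RvP (p : Par) : Type := RV (CoP p) (ClP p) (p.d + 2)

lemma bool_toNat_eq {a b : Bool} : a.toNat = b.toNat ↔ a = b := by
  cases a <;> cases b <;> simp

lemma bool_of_lt {f : ℕ} (h : f < 2) : ∃ b : Bool, b.toNat = f := by
  rcases (by omega : f = 0 ∨ f = 1) with rfl | rfl
  · exact ⟨false, rfl⟩
  · exact ⟨true, rfl⟩

section Codes

variable {p : Par}

/-- Code of a head letter. -/
def cdH {σ : ℕ} : Hd (Fin σ) → ℕ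
  | Hd.kap => tup [1]
  | Hd.trap => tup [2]
  | Hd.cell a => tup [3, a.val]
  | Hd.pair a b => tup [4, a.val, b.val]
  | Hd.trip a b c => tup [5, a.val, b.val, c.val]

/-- Code of a letter of a string. -/
def cdL {σ n : ℕ} : LamC (Fin σ) n → ℕ
  | Sum.inl d => tup [0, d.val]
  | Sum.inr h => cdH h

/-- Valid codes of letters of strings. -/
def vL (p : Par) (k : ℕ) : Prop :=
  (∃ d, d < p.n ∧ k = tup [0, d]) ∨ k = tup [1] ∨ k = tup [2] ∨ (∃ a, a < p.σ ∧ k = tup [3, a]) ∨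
    (∃ a, a < p.σ ∧ ∃ b, b < p.σ ∧ k = tup [4, a, b]) ∨
    (∃ a, a < p.σ ∧ ∃ b, b < p.σ ∧ ∃ c, c < p.σ ∧ k = tup [5, a, b, c])

/-- A bound of codes of letters of strings. -/
def BL (p : Par) : ℕ := tb (p.n + p.σ + 6) 4 + 1

lemma cdL_lt (x : LaP p) : cdL x < BL p := by
  unfold BL
  rcases x with d | (_ | _ | a | ⟨a, b⟩ | ⟨a, b, c⟩) <;>
    apply tup_lt_tb <;> simp only [List.mem_cons, List.not_mem_nil, or_false, forall_eq_or_imp,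
      forall_eq, List.length_cons, List.length_nil] <;> omega

lemma cdL_inj {σ n : ℕ} : Function.Injective (cdL (σ := σ) (n := n)) := by
  rintro (d | (_ | _ | a | ⟨a, b⟩ | ⟨a, b, c⟩)) (d' | (_ | _ | a' | ⟨a', b'⟩ | ⟨a', b', c'⟩)) h <;>
    simp_all [cdL, cdH, tup_eq_iff, Fin.ext_iff]

lemma cdT_L (p : Par) : CdT (cdL (σ := p.σ) (n := p.n)) (vL p) (BL p) := by
  refine ⟨cdL_inj, cdL_lt, fun k => ⟨?_, ?_⟩⟩
  · rintro (⟨d, hd, rfl⟩ | rfl | rfl | ⟨a, ha, rfl⟩ | ⟨a, ha, b, hb, rfl⟩ | ⟨a, ha, b, hb, c, hc, rfl⟩)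
    · exact ⟨Sum.inl ⟨d, hd⟩, rfl⟩
    · exact ⟨Sum.inr Hd.kap, rfl⟩
    · exact ⟨Sum.inr Hd.trap, rfl⟩
    · exact ⟨Sum.inr (Hd.cell ⟨a, ha⟩), rfl⟩
    · exact ⟨Sum.inr (Hd.pair ⟨a, ha⟩ ⟨b, hb⟩), rfl⟩
    · exact ⟨Sum.inr (Hd.trip ⟨a, ha⟩ ⟨b, hb⟩ ⟨c, hc⟩), rfl⟩
  · rintro ⟨d | (_ | _ | a | ⟨a, b⟩ | ⟨a, b, c⟩), rfl⟩
    · exact Or.inl ⟨d.val, d.isLt, rfl⟩
    · exact Or.inr (Or.inl rfl)
    · exact Or.inr (Or.inr (Or.inl rfl))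
    · exact Or.inr (Or.inr (Or.inr (Or.inl ⟨a.val, a.isLt, rfl⟩)))
    · exact Or.inr (Or.inr (Or.inr (Or.inr (Or.inl ⟨a.val, a.isLt, b.val, b.isLt, rfl⟩))))
    · exact Or.inr (Or.inr (Or.inr (Or.inr (Or.inr ⟨a.val, a.isLt, b.val, b.isLt, c.val, c.isLt, rfl⟩))))

/-- Code of a tag. -/
def cdT {σ Lt Lq : ℕ} : Tag (Fin σ) Lt Lq → ℕ
  | Tag.kkk => tup [0]
  | Tag.e0 => tup [1]
  | Tag.e1 => tup [2]
  | Tag.e2 => tup [3]
  | Tag.and1 j => tup [4, j.val]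
  | Tag.and2 j => tup [5, j.val]
  | Tag.one i j => tup [6, i.val, j.val]
  | Tag.iin a => tup [7, a.val]
  | Tag.iout j => tup [8, j.val]
  | Tag.fin => tup [9]

/-- Valid codes of tags. -/
def vT (p : Par) (k : ℕ) : Prop :=
  k = tup [0] ∨ k = tup [1] ∨ k = tup [2] ∨ k = tup [3] ∨ (∃ j, j < p.L + 2 ∧ k = tup [4, j]) ∨
    (∃ j, j < p.L + 2 ∧ k = tup [5, j]) ∨ (∃ i, i < p.L ∧ ∃ j, j < p.L + 2 ∧ k = tup [6, i, j]) ∨
    (∃ a, a < p.σ ∧ k = tup [7, a]) ∨ (∃ j, j < p.L + 1 ∧ k = tup [8, j]) ∨ k = tup [9]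

/-- A bound of codes of tags. -/
def BT (p : Par) : ℕ := tb (p.L + p.σ + 10) 3 + 1

lemma cdT_lt (x : TgP p) : cdT x < BT p := by
  unfold BT
  rcases x with _ | _ | _ | _ | j | j | ⟨i, j⟩ | a | j | _ <;>
    apply tup_lt_tb <;> simp only [List.mem_cons, List.not_mem_nil, or_false, forall_eq_or_imp,
      forall_eq, List.length_cons, List.length_nil] <;> omega

lemma cdT_inj {σ Lt Lq : ℕ} : Function.Injective (cdT (σ := σ) (Lt := Lt) (Lq := Lq)) := by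
  rintro (_ | _ | _ | _ | j | j | ⟨i, j⟩ | a | j | _) (_ | _ | _ | _ | j' | j' | ⟨i', j'⟩ | a' | j' | _) h <;>
    simp_all [cdT, tup_eq_iff, Fin.ext_iff]

lemma cdT_T (p : Par) : CdT (cdT (σ := p.σ) (Lt := p.L) (Lq := p.L)) (vT p) (BT p) := by
  refine ⟨cdT_inj, cdT_lt, fun k => ⟨?_, ?_⟩⟩
  · rintro (rfl | rfl | rfl | rfl | ⟨j, hj, rfl⟩ | ⟨j, hj, rfl⟩ | ⟨i, hi, j, hj, rfl⟩ | ⟨a, ha, rfl⟩ | ⟨j, hj, rfl⟩ | rfl)
    · exact ⟨Tag.kkk , rfl⟩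
    · exact ⟨Tag.e0 , rfl⟩
    · exact ⟨Tag.e1 , rfl⟩
    · exact ⟨Tag.e2 , rfl⟩
    · exact ⟨Tag.and1 ⟨j, hj⟩, rfl⟩
    · exact ⟨Tag.and2 ⟨j, hj⟩, rfl⟩
    · exact ⟨Tag.one ⟨i, hi⟩ ⟨j, hj⟩, rfl⟩
    · exact ⟨Tag.iin ⟨a, ha⟩, rfl⟩
    · exact ⟨Tag.iout ⟨j, hj⟩, rfl⟩
    · exact ⟨Tag.fin , rfl⟩
  · rintro ⟨_ | _ | _ | _ | j | j | ⟨i, j⟩ | a | j | _, rfl⟩
    · exact Or.inl rfl
    · exact Or.inr (Or.inl rfl)
    · exact Or.inr (Or.inr (Or.inl rfl))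
    · exact Or.inr (Or.inr (Or.inr (Or.inl rfl)))
    · exact Or.inr (Or.inr (Or.inr (Or.inr (Or.inl ⟨j.val, j.isLt, rfl⟩))))
    · exact Or.inr (Or.inr (Or.inr (Or.inr (Or.inr (Or.inl ⟨j.val, j.isLt, rfl⟩)))))
    · exact Or.inr (Or.inr (Or.inr (Or.inr (Or.inr (Or.inr (Or.inl ⟨i.val, i.isLt, j.val, j.isLt, rfl⟩))))))
    · exact Or.inr (Or.inr (Or.inr (Or.inr (Or.inr (Or.inr (Or.inr (Or.inl ⟨a.val, a.isLt, rfl⟩)))))))
    · exact Or.inr (Or.inr (Or.inr (Or.inr (Or.inr (Or.inr (Or.inr (Or.inr (Or.inl ⟨j.val, j.isLt, rfl⟩))))))))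
    · exact Or.inr (Or.inr (Or.inr (Or.inr (Or.inr (Or.inr (Or.inr (Or.inr (Or.inr (rfl)))))))))

/-- Code of a coordinate. -/
def cdCo {N pad : ℕ} : SCo N pad → ℕ
  | SCo.cf τ j l => tup [0, τ.val, j.val, l.val]
  | SCo.cw j l => tup [1, j.val, l.val]
  | SCo.cp i => tup [2, i.val]

/-- Valid codes of coordinates. -/
def vCo (p : Par) (k : ℕ) : Prop :=
  (∃ τ, τ < 3 ∧ ∃ j, j < 4 ∧ ∃ l, l < tmN p.L + 1 ∧ k = tup [0, τ, j, l]) ∨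
    (∃ j, j < 4 ∧ ∃ l, l < tmN p.L + 1 ∧ k = tup [1, j, l]) ∨
    (∃ i, i < tmP p.L p.d ∧ k = tup [2, i])

/-- A bound of codes of coordinates. -/
def BCo (p : Par) : ℕ := tb (tmN p.L + tmP p.L p.d + 4) 4 + 1

lemma cdCo_lt (x : CoP p) : cdCo x < BCo p := by
  unfold BCo
  rcases x with ⟨τ, j, l⟩ | ⟨j, l⟩ | i <;>
    apply tup_lt_tb <;> simp only [List.mem_cons, List.not_mem_nil, or_false, forall_eq_or_imp,
      forall_eq, List.length_cons, List.length_nil] <;> omega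

lemma cdCo_inj {N pad : ℕ} : Function.Injective (cdCo (N := N) (pad := pad)) := by
  rintro (⟨τ, j, l⟩ | ⟨j, l⟩ | i) (⟨τ', j', l'⟩ | ⟨j', l'⟩ | i') h <;>
    simp_all [cdCo, tup_eq_iff, Fin.ext_iff]

lemma cdT_Co (p : Par) : CdT (cdCo (N := tmN p.L) (pad := tmP p.L p.d)) (vCo p) (BCo p) := by
  refine ⟨cdCo_inj, cdCo_lt, fun k => ⟨?_, ?_⟩⟩
  · rintro (⟨τ, hτ, j, hj, l, hl, rfl⟩ | ⟨j, hj, l, hl, rfl⟩ | ⟨i, hi, rfl⟩)
    · exact ⟨SCo.cf ⟨τ, hτ⟩ ⟨j, hj⟩ ⟨l, hl⟩, rfl⟩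
    · exact ⟨SCo.cw ⟨j, hj⟩ ⟨l, hl⟩, rfl⟩
    · exact ⟨SCo.cp ⟨i, hi⟩, rfl⟩
  · rintro ⟨⟨τ, j, l⟩ | ⟨j, l⟩ | i, rfl⟩
    · exact Or.inl ⟨τ.val, τ.isLt, j.val, j.isLt, l.val, l.isLt, rfl⟩
    · exact Or.inr (Or.inl ⟨j.val, j.isLt, l.val, l.isLt, rfl⟩)
    · exact Or.inr (Or.inr (⟨i.val, i.isLt, rfl⟩))

/-- Code of a clause. -/
def cdCl {N bL bS : ℕ} : SCl N bL bS → ℕ
  | SCl.cq τ j j2 l b x => tup [0, τ.val, j.val, j2.val, l.val, b.val, x.toNat]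
  | SCl.fl τ j l => tup [1, τ.val, j.val, l.val]
  | SCl.rl τ j l b x => tup [2, τ.val, j.val, l.val, b.val, x.toNat]
  | SCl.vl j l => tup [3, j.val, l.val]
  | SCl.ad j l b x => tup [4, j.val, l.val, b.val, x.toNat]
  | SCl.dc j l => tup [5, j.val, l.val]
  | SCl.ec j l => tup [6, j.val, l.val]
  | SCl.zc τ j => tup [7, τ.val, j.val]

/-- Valid codes of clauses. -/
def vCl (p : Par) (k : ℕ) : Prop :=
  (∃ τ, τ < 3 ∧ ∃ j, j < 4 ∧ ∃ j2, j2 < 4 ∧ ∃ l, l < tmN p.L + 1 ∧ ∃ b, b < tmBL (Fin p.σ) p.n ∧ ∃ x, x < 2 ∧ k = tup [0, τ, j, j2, l, b, x]) ∨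
    (∃ τ, τ < 3 ∧ ∃ j, j < 4 ∧ ∃ l, l < tmN p.L + 1 ∧ k = tup [1, τ, j, l]) ∨
    (∃ τ, τ < 3 ∧ ∃ j, j < 4 ∧ ∃ l, l < tmN p.L + 1 ∧ ∃ b, b < tmBL (Fin p.σ) p.n ∧ ∃ x, x < 2 ∧ k = tup [2, τ, j, l, b, x]) ∨
    (∃ j, j < 4 ∧ ∃ l, l < tmN p.L + 1 ∧ k = tup [3, j, l]) ∨
    (∃ j, j < 4 ∧ ∃ l, l < tmN p.L ∧ ∃ b, b < tmBS (Fin p.σ) p.L ∧ ∃ x, x < 2 ∧ k = tup [4, j, l, b, x]) ∨
    (∃ j, j < 4 ∧ ∃ l, l < tmN p.L + 1 ∧ k = tup [5, j, l]) ∨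
    (∃ j, j < 4 ∧ ∃ l, l < tmN p.L + 1 ∧ k = tup [6, j, l]) ∨
    (∃ τ, τ < 3 ∧ ∃ j, j < 4 ∧ k = tup [7, τ, j])

/-- A bound of codes of clauses. -/
noncomputable def BCl (p : Par) : ℕ := tb (tmN p.L + tmBL (Fin p.σ) p.n + tmBS (Fin p.σ) p.L + 8) 7 + 1

lemma cdCl_lt (x : ClP p) : cdCl x < BCl p := by
  unfold BCl
  rcases x with ⟨τ, j, j2, l, b, x⟩ | ⟨τ, j, l⟩ | ⟨τ, j, l, b, x⟩ | ⟨j, l⟩ | ⟨j, l, b, x⟩ | ⟨j, l⟩ | ⟨j, l⟩ | ⟨τ, j⟩ <;>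
    apply tup_lt_tb <;> simp only [List.mem_cons, List.not_mem_nil, or_false, forall_eq_or_imp,
      forall_eq, List.length_cons, List.length_nil] <;> (try have := Bool.toNat_lt x) <;> omega

lemma cdCl_inj {N bL bS : ℕ} : Function.Injective (cdCl (N := N) (bL := bL) (bS := bS)) := by
  rintro (⟨τ, j, j2, l, b, x⟩ | ⟨τ, j, l⟩ | ⟨τ, j, l, b, x⟩ | ⟨j, l⟩ | ⟨j, l, b, x⟩ | ⟨j, l⟩ | ⟨j, l⟩ | ⟨τ, j⟩) (⟨τ', j', j2', l', b', x'⟩ | ⟨τ', j', l'⟩ | ⟨τ', j', l', b', x'⟩ | ⟨j', l'⟩ | ⟨j', l', b', x'⟩ | ⟨j', l'⟩ | ⟨j', l'⟩ | ⟨τ', j'⟩) h <;>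
    simp_all [cdCl, tup_eq_iff, Fin.ext_iff, bool_toNat_eq]

lemma cdT_Cl (p : Par) :
    CdT (cdCl (N := tmN p.L) (bL := tmBL (Fin p.σ) p.n) (bS := tmBS (Fin p.σ) p.L)) (vCl p) (BCl p) := by
  refine ⟨cdCl_inj, cdCl_lt, fun k => ⟨?_, ?_⟩⟩
  · rintro (⟨τ, hτ, j, hj, j2, hj2, l, hl, b, hb, x, hx, rfl⟩ | ⟨τ, hτ, j, hj, l, hl, rfl⟩ | ⟨τ, hτ, j, hj, l, hl, b, hb, x, hx, rfl⟩ | ⟨j, hj, l, hl, rfl⟩ | ⟨j, hj, l, hl, b, hb, x, hx, rfl⟩ | ⟨j, hj, l, hl, rfl⟩ | ⟨j, hj, l, hl, rfl⟩ | ⟨τ, hτ, j, hj, rfl⟩)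
    · obtain ⟨x, rfl⟩ := bool_of_lt hx
      exact ⟨SCl.cq ⟨τ, hτ⟩ ⟨j, hj⟩ ⟨j2, hj2⟩ ⟨l, hl⟩ ⟨b, hb⟩ x, rfl⟩
    · exact ⟨SCl.fl ⟨τ, hτ⟩ ⟨j, hj⟩ ⟨l, hl⟩, rfl⟩
    · obtain ⟨x, rfl⟩ := bool_of_lt hx
      exact ⟨SCl.rl ⟨τ, hτ⟩ ⟨j, hj⟩ ⟨l, hl⟩ ⟨b, hb⟩ x, rfl⟩
    · exact ⟨SCl.vl ⟨j, hj⟩ ⟨l, hl⟩, rfl⟩
    · obtain ⟨x, rfl⟩ := bool_of_lt hx
      exact ⟨SCl.ad ⟨j, hj⟩ ⟨l, hl⟩ ⟨b, hb⟩ x, rfl⟩
    · exact ⟨SCl.dc ⟨j, hj⟩ ⟨l, hl⟩, rfl⟩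
    · exact ⟨SCl.ec ⟨j, hj⟩ ⟨l, hl⟩, rfl⟩
    · exact ⟨SCl.zc ⟨τ, hτ⟩ ⟨j, hj⟩, rfl⟩
  · rintro ⟨⟨τ, j, j2, l, b, x⟩ | ⟨τ, j, l⟩ | ⟨τ, j, l, b, x⟩ | ⟨j, l⟩ | ⟨j, l, b, x⟩ | ⟨j, l⟩ | ⟨j, l⟩ | ⟨τ, j⟩, rfl⟩
    · exact Or.inl ⟨τ.val, τ.isLt, j.val, j.isLt, j2.val, j2.isLt, l.val, l.isLt, b.val, b.isLt, x.toNat, Bool.toNat_lt x, rfl⟩
    · exact Or.inr (Or.inl ⟨τ.val, τ.isLt, j.val, j.isLt, l.val, l.isLt, rfl⟩)
    · exact Or.inr (Or.inr (Or.inl ⟨τ.val, τ.isLt, j.val, j.isLt, l.val, l.isLt, b.val, b.isLt, x.toNat, Bool.toNat_lt x, rfl⟩))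
    · exact Or.inr (Or.inr (Or.inr (Or.inl ⟨j.val, j.isLt, l.val, l.isLt, rfl⟩)))
    · exact Or.inr (Or.inr (Or.inr (Or.inr (Or.inl ⟨j.val, j.isLt, l.val, l.isLt, b.val, b.isLt, x.toNat, Bool.toNat_lt x, rfl⟩))))
    · exact Or.inr (Or.inr (Or.inr (Or.inr (Or.inr (Or.inl ⟨j.val, j.isLt, l.val, l.isLt, rfl⟩)))))
    · exact Or.inr (Or.inr (Or.inr (Or.inr (Or.inr (Or.inr (Or.inl ⟨j.val, j.isLt, l.val, l.isLt, rfl⟩))))))
    · exact Or.inr (Or.inr (Or.inr (Or.inr (Or.inr (Or.inr (Or.inr (⟨τ.val, τ.isLt, j.val, j.isLt, rfl⟩)))))))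

/-- Code of a letter of the system. -/
def cdLt {σ n Lt Lq N pad : ℕ} : SLet (LamC (Fin σ) n) (Tag (Fin σ) Lt Lq) N pad → ℕ
  | SLet.fld τ j l a f => tup [0, τ.val, j.val, l.val, cdL a, f.toNat]
  | SLet.wit j l c u u' m => tup [1, j.val, l.val, cdL (c 0), cdL (c 1), cdL (c 2), cdT u, cdT u', m.val]
  | SLet.pd i => tup [2, i.val]

/-- Valid codes of letters of the system. -/
def vLt (p : Par) (k : ℕ) : Prop :=
  (∃ τ, τ < 3 ∧ ∃ j, j < 4 ∧ ∃ l, l < tmN p.L + 1 ∧ ∃ a, a < BL p ∧ ∃ f, f < 2 ∧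
    vL p a ∧ k = tup [0, τ, j, l, a, f]) ∨
  (∃ j, j < 4 ∧ ∃ l, l < tmN p.L + 1 ∧ ∃ a, a < BL p ∧ ∃ b, b < BL p ∧ ∃ c, c < BL p ∧
    ∃ u, u < BT p ∧ ∃ u', u' < BT p ∧ ∃ m, m < 3 ∧
    vL p a ∧ vL p b ∧ vL p c ∧ vT p u ∧ vT p u' ∧ k = tup [1, j, l, a, b, c, u, u', m]) ∨
  (∃ i, i < tmP p.L p.d ∧ k = tup [2, i])

/-- A bound of codes of letters of the system. -/
def BLt (p : Par) : ℕ := tb (tmN p.L + tmP p.L p.d + BL p + BT p + 4) 9 + 1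

lemma cdLt_lt (x : LtP p) : cdLt x < BLt p := by
  unfold BLt
  have h1 := fun a : LaP p => cdL_lt a
  have h2 := fun a : TgP p => cdT_lt a
  rcases x with ⟨τ, j, l, a, f⟩ | ⟨j, l, c, u, u', m⟩ | i <;>
    apply tup_lt_tb <;> simp only [List.mem_cons, List.not_mem_nil, or_false, forall_eq_or_imp,
      forall_eq, List.length_cons, List.length_nil]
  · have := Bool.toNat_lt f
    have := h1 a
    omega
  · omega
  · have := h1 (c 0)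
    have := h1 (c 1)
    have := h1 (c 2)
    have := h2 u
    have := h2 u'
    omega
  · omega
  · omega
  · omega

lemma cdLt_inj {σ n Lt Lq N pad : ℕ} :
    Function.Injective (cdLt (σ := σ) (n := n) (Lt := Lt) (Lq := Lq) (N := N) (pad := pad)) := by
  rintro (⟨τ, j, l, a, f⟩ | ⟨j, l, c, u, u', m⟩ | i) (⟨τ', j', l', a', f'⟩ | ⟨j', l', c', u2, u2', m'⟩ | i') h <;>
    simp only [cdLt, tup_eq_iff, List.cons.injEq, and_true, true_and, Nat.succ_ne_self,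
      OfNat.ofNat_ne_zero, OfNat.zero_ne_ofNat, OfNat.ofNat_ne_one, OfNat.one_ne_ofNat,
      zero_ne_one, one_ne_zero, false_and, Nat.reduceEqDiff] at h
  · obtain ⟨h1, h2, h3, h4, h5⟩ := h
    have h6 := cdL_inj h4
    have h7 := bool_toNat_eq.mp h5
    simp only [Fin.val_inj] at h1 h2 h3
    subst h1 h2 h3 h6 h7
    rfl
  · obtain ⟨h1, h2, h3, h4, h5, h6, h7, h8⟩ := h
    simp only [Fin.val_inj] at h1 h2 h8
    have h9 := cdL_inj h3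
    have h10 := cdL_inj h4
    have h11 := cdL_inj h5
    have h12 := cdT_inj h6
    have h13 := cdT_inj h7
    have h14 : c = c' := by
      funext z
      fin_cases z
      · exact h9
      · exact h10
      · exact h11
    subst h1 h2 h8 h12 h13 h14
    rfl
  · have := Fin.ext h
    subst this
    rfl

lemma cdT_Lt (p : Par) : CdT (cdLt (σ := p.σ) (n := p.n) (Lt := p.L) (Lq := p.L) (N := tmN p.L)
    (pad := tmP p.L p.d)) (vLt p) (BLt p) := by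
  refine ⟨cdLt_inj, cdLt_lt, fun k => ⟨?_, ?_⟩⟩
  · rintro (⟨τ, hτ, j, hj, l, hl, a, -, f, hf, ha, rfl⟩ |
      ⟨j, hj, l, hl, a, -, b, -, c, -, u, -, u', -, m, hm, ha, hb, hc, hu, hu', rfl⟩ | ⟨i, hi, rfl⟩)
    · obtain ⟨f, rfl⟩ := bool_of_lt hf
      obtain ⟨a, rfl⟩ := ((cdT_L p).iff a).mp ha
      exact ⟨SLet.fld ⟨τ, hτ⟩ ⟨j, hj⟩ ⟨l, hl⟩ a f, rfl⟩
    · obtain ⟨a, rfl⟩ := ((cdT_L p).iff a).mp ha
      obtain ⟨b, rfl⟩ := ((cdT_L p).iff b).mp hb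
      obtain ⟨c, rfl⟩ := ((cdT_L p).iff c).mp hc
      obtain ⟨u, rfl⟩ := ((cdT_T p).iff u).mp hu
      obtain ⟨u', rfl⟩ := ((cdT_T p).iff u').mp hu'
      exact ⟨SLet.wit ⟨j, hj⟩ ⟨l, hl⟩ ![a, b, c] u u' ⟨m, hm⟩, rfl⟩
    · exact ⟨SLet.pd ⟨i, hi⟩, rfl⟩
  · rintro ⟨⟨τ, j, l, a, f⟩ | ⟨j, l, c, u, u', m⟩ | i, rfl⟩
    · exact Or.inl ⟨τ.val, τ.isLt, j.val, j.isLt, l.val, l.isLt, cdL a, cdL_lt a, f.toNat,
        Bool.toNat_lt f, ((cdT_L p).iff _).mpr ⟨a, rfl⟩, rfl⟩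
    · exact Or.inr (Or.inl ⟨j.val, j.isLt, l.val, l.isLt, cdL (c 0), cdL_lt _, cdL (c 1), cdL_lt _,
        cdL (c 2), cdL_lt _, cdT u, cdT_lt u, cdT u', cdT_lt u', m.val, m.isLt,
        ((cdT_L p).iff _).mpr ⟨_, rfl⟩, ((cdT_L p).iff _).mpr ⟨_, rfl⟩,
        ((cdT_L p).iff _).mpr ⟨_, rfl⟩, ((cdT_T p).iff _).mpr ⟨_, rfl⟩,
        ((cdT_T p).iff _).mpr ⟨_, rfl⟩, rfl⟩)
    · exact Or.inr (Or.inr ⟨i.val, i.isLt, rfl⟩)

/-- Code of a door group. -/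
def cdG : Gr → ℕ
  | Sum.inl ρ => ρ.val
  | Sum.inr τ => 3 + τ.val

lemma cdG_lt (G : Gr) : cdG G < 6 := by
  rcases G with ρ | τ <;> simp only [cdG] <;> omega

lemma cdG_inj : Function.Injective cdG := by
  rintro (ρ | τ) (ρ' | τ') h <;> simp only [cdG] at h <;> first
    | omega
    | (congr 1; apply Fin.ext; omega)

lemma exists_cdG {g : ℕ} (h : g < 6) : ∃ G, cdG G = g := by
  by_cases h1 : g < 3
  · exact ⟨Sum.inl ⟨g, h1⟩, rfl⟩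
  · exact ⟨Sum.inr ⟨g - 3, by omega⟩, by simp only [cdG]; omega⟩

/-- Code of a pair of a door group and a coordinate. -/
def cdGI {I : Type} (cd : I → ℕ) (x : Gr × I) : ℕ := tup [cdG x.1, cd x.2]

/-- Valid codes of pairs of door groups and coordinates. -/
def vGI (p : Par) (k : ℕ) : Prop := ∃ g, g < 6 ∧ ∃ i, i < BCo p ∧ vCo p i ∧ k = tup [g, i]

/-- A bound of codes of pairs of door groups and coordinates. -/
def BGI (p : Par) : ℕ := tb (BCo p + 6) 2 + 1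

lemma cdT_GI (p : Par) : CdT (cdGI (cdCo (N := tmN p.L) (pad := tmP p.L p.d))) (vGI p) (BGI p) := by
  refine ⟨?_, ?_, fun k => ⟨?_, ?_⟩⟩
  · rintro ⟨G, i⟩ ⟨G', i'⟩ h
    simp only [cdGI, tup_eq_iff, List.cons.injEq, and_true] at h
    rw [cdG_inj h.1, cdCo_inj h.2]
  · rintro ⟨G, i⟩
    apply tup_lt_tb <;> simp only [List.mem_cons, List.not_mem_nil, or_false, forall_eq_or_imp,
      forall_eq, List.length_cons, List.length_nil]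
    · have := cdG_lt G
      have := cdCo_lt i
      omega
    · omega
  · rintro ⟨g, hg, i, -, hi, rfl⟩
    obtain ⟨G, rfl⟩ := exists_cdG hg
    obtain ⟨i, rfl⟩ := ((cdT_Co p).iff i).mp hi
    exact ⟨(G, i), rfl⟩
  · rintro ⟨⟨G, i⟩, rfl⟩
    exact ⟨cdG G, cdG_lt G, cdCo i, cdCo_lt i, ((cdT_Co p).iff _).mpr ⟨i, rfl⟩, rfl⟩

/-- Code of a room. -/
def cdRoom (r : Room) : ℕ := r.1.val * 2 + r.2.toNat

lemma cdRoom_lt (r : Room) : cdRoom r < 6 := by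
  have := Bool.toNat_lt r.2
  simp only [cdRoom]
  omega

lemma cdRoom_inj : Function.Injective cdRoom := by
  rintro ⟨a, b⟩ ⟨a', b'⟩ h
  have h1 := Bool.toNat_lt b
  have h2 := Bool.toNat_lt b'
  simp only [cdRoom] at h
  have h3 : a = a' := Fin.ext (by omega)
  have h4 : b = b' := bool_toNat_eq.mp (by omega)
  rw [h3, h4]

lemma exists_cdRoom {r : ℕ} (h : r < 6) : ∃ R, cdRoom R = r := by
  refine ⟨(⟨r / 2, by omega⟩, decide (r % 2 = 1)), ?_⟩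
  simp only [cdRoom]
  rcases Nat.mod_two_eq_zero_or_one r with h1 | h1 <;> simp [h1] <;> omega

/-- Code of a base vertex. -/
def cdV {I Cl : Type} [Fintype I] [Fintype Cl] {g : ℕ} (v : RV I Cl g) : ℕ :=
  tup [cdRoom v.1, v.2.1.val, v.2.2.toNat]

lemma cdV_inj {I Cl : Type} [Fintype I] [Fintype Cl] {g : ℕ} :
    Function.Injective (cdV (I := I) (Cl := Cl) (g := g)) := by
  rintro ⟨r, c, l⟩ ⟨r', c', l'⟩ h
  simp only [cdV, tup_eq_iff, List.cons.injEq, and_true] at h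
  rw [cdRoom_inj h.1, Fin.ext h.2.1, bool_toNat_eq.mp h.2.2]

/-- The number of columns. -/
noncomputable def Wc (p : Par) : ℕ := (p.d + 2) * Fintype.card (Gr × CoP p) + 4 * Fintype.card (ClP p)

/-- Valid codes of base vertices. -/
noncomputable def vV (p : Par) (k : ℕ) : Prop :=
  ∃ r, r < 6 ∧ ∃ c, c < Wc p ∧ ∃ l, l < 2 ∧ k = tup [r, c, l]

/-- A bound of codes of base vertices. -/
noncomputable def BV (p : Par) : ℕ := tb (Wc p + 6) 3 + 1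

lemma cdT_V (p : Par) : CdT (cdV (I := CoP p) (Cl := ClP p) (g := p.d + 2)) (vV p) (BV p) := by
  refine ⟨cdV_inj, ?_, fun k => ⟨?_, ?_⟩⟩
  · rintro ⟨r, c, l⟩
    apply tup_lt_tb <;> simp only [List.mem_cons, List.not_mem_nil, or_false, forall_eq_or_imp,
      forall_eq, List.length_cons, List.length_nil]
    have h1 := cdRoom_lt r
    have h2 := Bool.toNat_lt l
    have h3 : c.val < Wc p := c.isLt
    omega
    omega
  · rintro ⟨r, hr, c, hc, l, hl, rfl⟩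
    obtain ⟨R, rfl⟩ := exists_cdRoom hr
    obtain ⟨l, rfl⟩ := bool_of_lt hl
    exact ⟨(R, ⟨c, hc⟩, l), rfl⟩
  · rintro ⟨⟨r, c, l⟩, rfl⟩
    exact ⟨cdRoom r, cdRoom_lt r, c.val, c.isLt, l.toNat, Bool.toNat_lt l, rfl⟩

/-- Code of a class. -/
def cdC {BV' Lt' : Type} (c1 : BV' → ℕ) (c2 : Lt' → ℕ) : BV' ⊕ Lt' → ℕ
  | Sum.inl v => tup [0, c1 v]
  | Sum.inr l => tup [1, c2 l]

/-- Valid codes of classes. -/
noncomputable def vC (p : Par) (k : ℕ) : Prop :=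
  (∃ v, v < BV p ∧ vV p v ∧ k = tup [0, v]) ∨ (∃ l, l < BLt p ∧ vLt p l ∧ k = tup [1, l])

/-- A bound of codes of classes. -/
noncomputable def BC (p : Par) : ℕ := tb (BV p + BLt p + 1) 2 + 1

/-- Codes of classes of the system. -/
noncomputable abbrev cdCP (p : Par) : RvP p ⊕ LtP p → ℕ := cdC cdV cdLt

lemma cdT_C (p : Par) : CdT (cdCP p) (vC p) (BC p) := by
  refine ⟨?_, ?_, fun k => ⟨?_, ?_⟩⟩
  · rintro (v | l) (v' | l') h <;> simp only [cdC, tup_eq_iff, List.cons.injEq, and_true,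
      OfNat.ofNat_ne_zero, OfNat.zero_ne_ofNat, one_ne_zero, zero_ne_one, false_and, true_and] at h
    · rw [(cdT_V p).inj h]
    · rw [(cdT_Lt p).inj h]
  · rintro (v | l) <;> apply tup_lt_tb <;> simp only [List.mem_cons, List.not_mem_nil, or_false,
      forall_eq_or_imp, forall_eq, List.length_cons, List.length_nil]
    · have := (cdT_V p).lt v
      omega
    · omega
    · have := (cdT_Lt p).lt l
      omega
    · omega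
  · rintro (⟨v, -, hv, rfl⟩ | ⟨l, -, hl, rfl⟩)
    · obtain ⟨v, rfl⟩ := ((cdT_V p).iff v).mp hv
      exact ⟨Sum.inl v, rfl⟩
    · obtain ⟨l, rfl⟩ := ((cdT_Lt p).iff l).mp hl
      exact ⟨Sum.inr l, rfl⟩
  · rintro ⟨v | l, rfl⟩
    · exact Or.inl ⟨_, (cdT_V p).lt v, ((cdT_V p).iff _).mpr ⟨v, rfl⟩, rfl⟩
    · exact Or.inr ⟨_, (cdT_Lt p).lt l, ((cdT_Lt p).iff _).mpr ⟨l, rfl⟩, rfl⟩

end Codes

end Vale.Agent.Lib.P310F
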