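import Vale.Agent.Lib.P310F.ClA

/-!
Numeric versions of the local relation and of the coverage relation of the string system.
-/

set_option linter.unusedSectionVars false

namespace Vale.Agent.Lib.P310F

open Finset R

section Num

variable (p : Par)

/-- The numeric input row. -/
def xinN (d : ℕ) : ℕ := if d = 0 then p.c0 else if d < p.C then p.c1 else p.c2

/-- The numeric increment relation. -/
def incN (n j0 j d d' : ℕ) : Prop :=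
  (j < j0 ∧ d + 1 = n ∧ d' = 0) ∨ (j = j0 ∧ d' = d + 1) ∨ (j0 < j ∧ d' = d)

/-- The numeric digit condition. -/
def DigN (j l x0 x1 x2 : ℕ) : Prop :=
  if l ≤ p.L then ∃ d, d < p.n ∧ x0 = tup [0, d] ∧ x1 = tup [0, d] ∧ x2 = tup [0, d]
  else ∃ d, d < p.n ∧ ∃ d', d' < p.n ∧ x0 = tup [0, d] ∧ x1 = tup [0, d'] ∧ x2 = tup [0, d] ∧
    incN p.n j (l - 1 - p.L) d d'

/-- The numeric requirement of a tag. -/
def BodyN (u l x0 x1 x2 : ℕ) : Prop :=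
  (fd 0 u = 0 ∧ (l = 0 → x0 = tup [1] ∧ x1 = tup [1] ∧ x2 = tup [1])) ∨
  (fd 0 u = 1 ∧ x1 = x2 ∧ (l = 0 → x0 = tup [1] ∧ x1 ≠ tup [2])) ∨
  (fd 0 u = 2 ∧ x0 = x2 ∧ (l = 0 → x1 = tup [1] ∧ x0 ≠ tup [2])) ∨
  (fd 0 u = 3 ∧ x0 = x1 ∧ (l = 0 → x2 = tup [1] ∧ x0 ≠ tup [2])) ∨
  (fd 0 u = 4 ∧ if l = 0 then ∃ a, a < p.σ ∧ ∃ b, b < p.σ ∧
      x0 = tup [3, a] ∧ x1 = tup [3, b] ∧ x2 = tup [4, a, b]
    else DigN p (fd 1 u) l x0 x1 x2) ∨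
  (fd 0 u = 5 ∧ if l = 0 then ∃ a, a < p.σ ∧ ∃ b, b < p.σ ∧ ∃ c, c < p.σ ∧
      x0 = tup [3, a] ∧ x1 = tup [4, b, c] ∧ x2 = tup [5, a, b, c]
    else DigN p (fd 1 u) l x0 x1 x2) ∨
  (fd 0 u = 6 ∧ if l = 0 then ∃ a, a < p.σ ∧ ∃ b, b < p.σ ∧ ∃ c, c < p.σ ∧ ∃ r, r < p.σ ∧
      x0 = tup [5, a, b, c] ∧ x1 = tup [5, a, b, c] ∧ x2 = tup [3, r] ∧ bt p.T (tup [a, b, c, r]) = 1
    else if l ≤ p.L then ∃ d, d < p.n ∧ ∃ d', d' < p.n ∧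
      x0 = tup [0, d] ∧ x1 = tup [0, d] ∧ x2 = tup [0, d'] ∧ incN p.n (fd 1 u) (l - 1) d d'
    else ∃ d, d < p.n ∧ ∃ d', d' < p.n ∧
      x0 = tup [0, d] ∧ x1 = tup [0, d] ∧ x2 = tup [0, d'] ∧ incN p.n (fd 2 u) (l - 1 - p.L) d d') ∨
  (fd 0 u = 7 ∧ if l = 0 then x0 = tup [1] ∧ x1 = tup [1] ∧ x2 = tup [3, fd 1 u]
    else if l = p.L + 1 then ∃ d, d < p.n ∧ x2 = tup [0, d] ∧ xinN p d = fd 1 u
    else ∃ d, d < p.n ∧ x2 = tup [0, d] ∧ d = 0) ∨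
  (fd 0 u = 8 ∧ if l = 0 then x0 = tup [1] ∧ x1 = tup [1] ∧ x2 = tup [3, p.bl] ∧ fd 1 u ≠ 0
    else ∃ d, d < p.n ∧ x2 = tup [0, d] ∧ (l ≤ p.L → d = 0) ∧ (l = p.L + 1 + fd 1 u → d ≠ 0)) ∨
  (fd 0 u = 9 ∧ x1 = x2 ∧ (l = 0 → x0 = tup [2] ∧ ∃ a, a < p.σ ∧ x1 = tup [3, a] ∧ bt p.TA a = 1))

/-- The numeric local relation. -/
def LocN (l x0 x1 x2 u u' : ℕ) : Prop := u' = u ∧ BodyN p u l x0 x1 x2

/-- The numeric good heads. -/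
def isOKN (τ x : ℕ) : Prop := if τ = 0 then x = tup [2] else x = tup [1]

/-- The bit of a letter of a string. -/
noncomputable def encN (a b : ℕ) : ℕ := bt (cnt (vL p) a) b

/-- The bit of a tag. -/
noncomputable def encSN (a b : ℕ) : ℕ := bt (cnt (vT p) a) b

/-- Which clauses a field letter covers. -/
def covFN (τ₁ j₁ l₁ a f κ : ℕ) : Prop :=
  (fd 0 κ = 0 ∧ τ₁ = fd 1 κ ∧ l₁ = fd 4 κ ∧ ((j₁ = fd 2 κ ∧ (f = 1 ∨ encN p a (fd 5 κ) = fd 6 κ)) ∨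
    (j₁ = fd 3 κ ∧ (f = 1 ∨ encN p a (fd 5 κ) ≠ fd 6 κ)))) ∨
  (fd 0 κ = 1 ∧ τ₁ = fd 1 κ ∧ j₁ = fd 2 κ ∧ l₁ = fd 3 κ ∧ f = 0) ∨
  (fd 0 κ = 2 ∧ τ₁ = fd 1 κ ∧ j₁ = fd 2 κ ∧ l₁ = fd 3 κ ∧ encN p a (fd 4 κ) ≠ fd 5 κ) ∨
  (fd 0 κ = 7 ∧ τ₁ = fd 1 κ ∧ j₁ = fd 2 κ ∧ l₁ = 0 ∧ isOKN (fd 1 κ) a)

/-- Selection of one of three numbers. -/
def sel3 (τ a b c : ℕ) : ℕ := if τ = 0 then a else if τ = 1 then b else c

/-- Which clauses a witness letter covers. -/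
def covWN (j₁ l₁ c0 c1 c2 u u' m κ : ℕ) : Prop :=
  (fd 0 κ = 2 ∧ j₁ = fd 2 κ ∧ l₁ = fd 3 κ ∧
    (m ≠ 2 ∨ encN p (sel3 (fd 1 κ) c0 c1 c2) (fd 4 κ) = fd 5 κ)) ∨
  (fd 0 κ = 3 ∧ j₁ = fd 1 κ ∧ l₁ = fd 2 κ ∧ (m ≠ 2 ∨ LocN p (fd 2 κ) c0 c1 c2 u u')) ∨
  (fd 0 κ = 4 ∧ j₁ = fd 1 κ ∧ ((l₁ = fd 2 κ ∧ (m ≠ 2 ∨ encSN p u' (fd 3 κ) = fd 4 κ)) ∨
    (l₁ = fd 2 κ + 1 ∧ (m ≠ 2 ∨ encSN p u (fd 3 κ) ≠ fd 4 κ)))) ∨
  (fd 0 κ = 5 ∧ j₁ = fd 1 κ ∧ l₁ = fd 2 κ ∧ m ≠ 1) ∨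
  (fd 0 κ = 6 ∧ j₁ = fd 1 κ ∧ l₁ = fd 2 κ ∧ m ≠ 0)

/-- The numeric coverage relation. -/
def covN (κ l : ℕ) : Prop :=
  (fd 0 l = 0 ∧ covFN p (fd 1 l) (fd 2 l) (fd 3 l) (fd 4 l) (fd 5 l) κ) ∨
  (fd 0 l = 1 ∧ covWN p (fd 1 l) (fd 2 l) (fd 3 l) (fd 4 l) (fd 5 l) (fd 6 l) (fd 7 l) (fd 8 l) κ)

end Num

section Bridge

variable {p : Par}

lemma cdL_eq_dig {x : LaP p} {d : Fin p.n} : cdL x = tup [0, d.val] ↔ x = Sum.inl d :=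
  cdL_inj.eq_iff' rfl

lemma cdL_eq_kap {x : LaP p} : cdL x = tup [1] ↔ x = Sum.inr Hd.kap := cdL_inj.eq_iff' rfl

lemma cdL_eq_trap {x : LaP p} : cdL x = tup [2] ↔ x = Sum.inr Hd.trap := cdL_inj.eq_iff' rfl

lemma cdL_eq_cell {x : LaP p} {a : Fin p.σ} : cdL x = tup [3, a.val] ↔ x = Sum.inr (Hd.cell a) :=
  cdL_inj.eq_iff' rfl

lemma cdL_eq_pair {x : LaP p} {a b : Fin p.σ} :
    cdL x = tup [4, a.val, b.val] ↔ x = Sum.inr (Hd.pair a b) := cdL_inj.eq_iff' rfl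

lemma cdL_eq_trip {x : LaP p} {a b c : Fin p.σ} :
    cdL x = tup [5, a.val, b.val, c.val] ↔ x = Sum.inr (Hd.trip a b c) := cdL_inj.eq_iff' rfl

lemma cdL_eq_cdL {x y : LaP p} : cdL x = cdL y ↔ x = y := cdL_inj.eq_iff

lemma incN_iff {n j0 j : ℕ} {d d' : Fin n} : incN n j0 j d.val d'.val ↔ incAt j0 j d d' := by
  unfold incN incAt
  simp only [Fin.ext_iff]

lemma DigN_iff {j : Fin (p.L + 2)} {l : ℕ} {x0 x1 x2 : LaP p} :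
    DigN p j.val l (cdL x0) (cdL x1) (cdL x2) ↔ DigA (Lt := p.L) j l x0 x1 x2 := by
  unfold DigN DigA
  simp only [ex_fin, cdL_eq_dig, incN_iff]

variable {Δ : Fin p.σ → Fin p.σ → Fin p.σ → Fin p.σ} {xin : Fin p.n → Fin p.σ} {bl : Fin p.σ}
  {acc : Fin p.σ → Prop}

/-- The numeric parameters describe the automaton. -/
structure CAok (p : Par) (Δ : Fin p.σ → Fin p.σ → Fin p.σ → Fin p.σ) (xin : Fin p.n → Fin p.σ)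
    (bl : Fin p.σ) (acc : Fin p.σ → Prop) : Prop where
  T_iff : ∀ a b c r : Fin p.σ, bt p.T (tup [a.val, b.val, c.val, r.val]) = 1 ↔ Δ a b c = r
  TA_iff : ∀ a : Fin p.σ, bt p.TA a.val = 1 ↔ acc a
  bl_eq : bl.val = p.bl
  xin_eq : ∀ d : Fin p.n, xinN p d.val = (xin d).val

lemma BodyN_iff (h : CAok p Δ xin bl acc) (u : TgP p) (l : ℕ) (x0 x1 x2 : LaP p) :
    BodyN p (cdT u) l (cdL x0) (cdL x1) (cdL x2) ↔ BodyC Δ xin bl acc u l x0 x1 x2 := by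
  cases u with
  | kkk =>
    simp [BodyN, BodyC, cdT, fd_tup, cdL_eq_kap]
  | e0 =>
    simp [BodyN, BodyC, cdT, fd_tup, cdL_eq_kap, cdL_eq_trap, cdL_eq_cdL]
  | e1 =>
    simp [BodyN, BodyC, cdT, fd_tup, cdL_eq_kap, cdL_eq_trap, cdL_eq_cdL]
  | e2 =>
    simp [BodyN, BodyC, cdT, fd_tup, cdL_eq_kap, cdL_eq_trap, cdL_eq_cdL]
  | and1 j =>
    simp [BodyN, BodyC, cdT, fd_tup, ex_fin, cdL_eq_cell, cdL_eq_pair, DigN_iff]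
  | and2 j =>
    simp [BodyN, BodyC, cdT, fd_tup, ex_fin, cdL_eq_cell, cdL_eq_pair, cdL_eq_trip, DigN_iff]
  | one i j =>
    have e : ∀ (a b c r : Fin p.σ), bt p.T (tup [a.val, b.val, c.val, r.val]) = 1 ↔ Δ a b c = r :=
      h.T_iff
    simp [BodyN, BodyC, cdT, fd_tup, ex_fin, cdL_eq_cell, cdL_eq_trip, cdL_eq_dig, incN_iff, e]
  | iin a =>
    simp only [BodyN, BodyC, cdT, ex_fin, cdL_eq_dig]
    simp [fd_tup, cdL_eq_kap, cdL_eq_cell, h.xin_eq, Fin.val_inj]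
  | iout j =>
    simp [BodyN, BodyC, cdT, fd_tup, ex_fin, cdL_eq_kap, cdL_eq_cell, cdL_eq_dig, ← h.bl_eq]
  | fin =>
    simp [BodyN, BodyC, cdT, fd_tup, ex_fin, cdL_eq_trap, cdL_eq_cell, cdL_eq_cdL, h.TA_iff]

lemma LocN_iff (h : CAok p Δ xin bl acc) (l : Fin (tmN p.L + 1)) (x0 x1 x2 : LaP p)
    (u u' : TgP p) :
    LocN p l.val (cdL x0) (cdL x1) (cdL x2) (cdT u) (cdT u') ↔ LocC Δ xin bl acc l x0 x1 x2 u u' := by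
  unfold LocN LocC
  rw [BodyN_iff h, cdT_inj.eq_iff]

lemma isOKN_iff (τ : Fin 3) (x : LaP p) : isOKN τ.val (cdL x) ↔ isOKC τ x := by
  unfold isOKN isOKC
  by_cases h : τ = 0
  · have h' : τ.val = 0 := by rw [h]; rfl
    rw [if_pos h, if_pos h', cdL_eq_trap]
  · have h' : τ.val ≠ 0 := fun e => h (Fin.ext e)
    rw [if_neg h, if_neg h', cdL_eq_kap]

/-- The binary encoding of letters of strings. -/
noncomputable def encP (p : Par) : LaP p → Fin (tmBL (Fin p.σ) p.n) → Bool :=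
  encOf (fun a => cnt (vL p) (cdL a)) _

/-- The binary encoding of tags. -/
noncomputable def encSP (p : Par) : TgP p → Fin (tmBS (Fin p.σ) p.L) → Bool :=
  encOf (fun a => cnt (vT p) (cdT a)) _

lemma encP_inj (p : Par) : Function.Injective (encP p) :=
  encOf_inj (fun _ _ e => (cdT_L p).rank_inj e) fun a =>
    lt_of_lt_of_le ((cdT_L p).rank_lt a) (Nat.le_pow_clog (by omega) _)

lemma encSP_inj (p : Par) : Function.Injective (encSP p) :=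
  encOf_inj (fun _ _ e => (cdT_T p).rank_inj e) fun a =>
    lt_of_lt_of_le ((cdT_T p).rank_lt a) (Nat.le_pow_clog (by omega) _)

lemma encP_eq (a : LaP p) (i : Fin (tmBL (Fin p.σ) p.n)) (x : Bool) :
    encP p a i = x ↔ encN p (cdL a) i.val = x.toNat :=
  encOf_eq_iff a i x

lemma encSP_eq (a : TgP p) (i : Fin (tmBS (Fin p.σ) p.L)) (x : Bool) :
    encSP p a i = x ↔ encSN p (cdT a) i.val = x.toNat :=
  encOf_eq_iff a i x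

lemma sel3_val (c : Fin 3 → LaP p) (τ : Fin 3) :
    sel3 τ.val (cdL (c 0)) (cdL (c 1)) (cdL (c 2)) = cdL (c τ) := by
  fin_cases τ <;> rfl

lemma bool_one {f : Bool} : f.toNat = 1 ↔ f = true := by
  cases f <;> simp

lemma bool_zero {f : Bool} : f.toNat = 0 ↔ f = false := by
  cases f <;> simp

/-- The coverage relation of the system. -/
noncomputable abbrev covP (p : Par) (Δ : Fin p.σ → Fin p.σ → Fin p.σ → Fin p.σ)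
    (xin : Fin p.n → Fin p.σ) (bl : Fin p.σ) (acc : Fin p.σ → Prop) : ClP p → LtP p → Prop :=
  covS (pad := tmP p.L p.d) (encP p) (encSP p) (LocC Δ xin bl acc) isOKC

lemma val3_two (m : Fin 3) : m.val = 2 ↔ m = 2 := by fin_cases m <;> simp

lemma val3_one (m : Fin 3) : m.val = 1 ↔ m = 1 := by fin_cases m <;> simp

lemma val3_zero (m : Fin 3) : m.val = 0 ↔ m = 0 := by fin_cases m <;> simp

lemma val_castSucc {N : ℕ} (a : Fin (N + 1)) (b : Fin N) : a.val = b.val ↔ a = b.castSucc := by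
  rw [Fin.ext_iff, Fin.val_castSucc]

lemma val_succ {N : ℕ} (a : Fin (N + 1)) (b : Fin N) : a.val = b.val + 1 ↔ a = b.succ := by
  rw [Fin.ext_iff, Fin.val_succ]

lemma covN_iff (h : CAok p Δ xin bl acc) (κ : ClP p) (l : LtP p) :
    covN p (cdCl κ) (cdLt l) ↔ covP p Δ xin bl acc κ l := by
  rcases l with ⟨τ₁, j₁, l₁, a, f⟩ | ⟨j₁, l₁, c, u, u', m⟩ | i
  · rcases κ with ⟨τ, j, j', l, bit, x⟩ | ⟨τ, j, l⟩ | ⟨τ, j, l, bit, x⟩ | ⟨j, l⟩ |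
      ⟨j, l, bit, x⟩ | ⟨j, l⟩ | ⟨j, l⟩ | ⟨τ, j⟩ <;>
    simp [covN, covFN, covS, covF, cdCl, cdLt, fd_tup, encP_eq, isOKN_iff, Fin.val_inj]
  · rcases κ with ⟨τ, j, j', l, bit, x⟩ | ⟨τ, j, l⟩ | ⟨τ, j, l, bit, x⟩ | ⟨j, l⟩ |
      ⟨j, l, bit, x⟩ | ⟨j, l⟩ | ⟨j, l⟩ | ⟨τ, j⟩ <;>
    simp [covN, covWN, covS, covW, cdCl, cdLt, fd_tup, encP_eq, encSP_eq, sel3_val,
      val3_two, val3_one, val3_zero, LocN_iff h, val_castSucc, val_succ, Fin.val_inj]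
  · simp [covN, covS, cdLt, fd_tup]

end Bridge

end Vale.Agent.Lib.P310F
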