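import Vale.Agent.Lib.P310F.ClB

/-!
Numeric version of the base graph and of the edge sets of the letters.
-/

set_option linter.unusedSectionVars false

namespace Vale.Agent.Lib.P310F

open Finset R

noncomputable instance numGI (p : Par) : NumE (Gr × CoP p) := (cdT_GI p).num

noncomputable instance numCl (p : Par) : NumE (ClP p) := (cdT_Cl p).num

noncomputable instance numC (p : Par) : NumE (RvP p ⊕ LtP p) := (cdT_C p).num

section Num

/-- The door group of a clause code. -/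
def grN (κ : ℕ) : ℕ :=
  if fd 0 κ = 0 then (if fd 1 κ = 2 then 1 else 2)
  else if fd 0 κ = 1 then (if fd 1 κ = 0 then 1 else 0)
  else if fd 0 κ = 2 then 2
  else if fd 0 κ = 3 then 2
  else if fd 0 κ = 4 then 2
  else if fd 0 κ = 5 then 1
  else if fd 0 κ = 6 then 0
  else 3 + fd 1 κ

/-- The first end room of a door group code. -/
def grAN (G : ℕ) : ℕ := if G < 3 then (G + 1) % 3 * 2 else (G - 3) * 2

/-- The second end room of a door group code. -/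
def grBN (G : ℕ) : ℕ := if G < 3 then (G + 2) % 3 * 2 else (G - 3) * 2 + 1

variable (p : Par)

/-- The number of pairs of door groups and coordinates. -/
noncomputable def cGI : ℕ := Fintype.card (Gr × CoP p)

/-- The number of clauses. -/
noncomputable def cCl : ℕ := Fintype.card (ClP p)

/-- The column of a pair in a chunk. -/
noncomputable def colFN (a x : ℕ) : ℕ := a * cGI p + cnt (vGI p) x

/-- The column of a clause in a period. -/
noncomputable def colCN (P κ : ℕ) : ℕ := (p.d + 2) * cGI p + P * cCl p + cnt (vCl p) κ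

/-- First end of a clause door. -/
noncomputable def dAC (κ P : ℕ) : ℕ := tup [grAN (grN κ), colCN p P κ, 0]

/-- Second end of a clause door. -/
noncomputable def dBC (κ P : ℕ) : ℕ := tup [grBN (grN κ), colCN p P κ, 0]

/-- First end of a forcing door. -/
noncomputable def dAF (x a : ℕ) : ℕ := tup [grAN (fd 0 x), colFN p a x, 0]

/-- Second end of a forcing door. -/
noncomputable def dBF (x b : ℕ) : ℕ := tup [grBN (fd 0 x), colFN p b x, 0]

/-- There is a door from `u` to `w`. -/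
def doorN (u w : ℕ) : Prop :=
  (∃ κ, κ < BCl p ∧ vCl p κ ∧ ∃ P, P < 4 ∧ u = dAC p κ P ∧ w = dBC p κ P) ∨
  (∃ x, x < BGI p ∧ vGI p x ∧ ∃ a, a < p.d + 2 ∧ ∃ b, b < p.d + 2 ∧ u = dAF p x a ∧ w = dBF p x b)

/-- Numeric adjacency of the base graph. -/
def adjN (u w : ℕ) : Prop :=
  (fd 0 u = fd 0 w ∧ ((fd 1 u = fd 1 w ∧ fd 2 u ≠ fd 2 w) ∨
    (fd 2 u = fd 2 w ∧ (fd 1 u + 1 = fd 1 w ∨ fd 1 w + 1 = fd 1 u)))) ∨
  doorN p u w ∨ doorN p w u

/-- The code of an edge. -/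
def edN (u w : ℕ) : ℕ := tup [min u w, max u w]

/-- The coordinate of a letter code. -/
def coN (l : ℕ) : ℕ :=
  if fd 0 l = 0 then tup [0, fd 1 l, fd 2 l, fd 3 l]
  else if fd 0 l = 1 then tup [1, fd 1 l, fd 2 l] else tup [2, fd 1 l]

/-- The edge `j` is read by the letter `l`. -/
def frN (l j : ℕ) : Prop :=
  (∃ κ, κ < BCl p ∧ vCl p κ ∧ covN p κ l ∧ ∃ P, P < 4 ∧ j = edN (dAC p κ P) (dBC p κ P)) ∨
  (∃ g, g < 6 ∧ ∃ a, a < p.d + 2 ∧ ∃ b, b < p.d + 2 ∧
    j = edN (dAF p (tup [g, coN l]) a) (dBF p (tup [g, coN l]) b))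

/-- The edge `j` is an edge at the base vertex `v`. -/
def inEB (v j : ℕ) : Prop :=
  vV p (fd 0 j) ∧ vV p (fd 1 j) ∧ j = tup [fd 0 j, fd 1 j] ∧ fd 0 j < fd 1 j ∧
    (v = fd 0 j ∨ v = fd 1 j) ∧ adjN p (fd 0 j) (fd 1 j)

/-- The edge `j` belongs to the class `k`. -/
def inEN (k j : ℕ) : Prop := (fd 0 k = 0 ∧ inEB p (fd 1 k) j) ∨ (fd 0 k = 1 ∧ frN p (fd 1 k) j)

/-- The parity requirement of a class: `tw = 1` for the twisted graph. -/
def parN (tw k : ℕ) : ℕ :=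
  if fd 0 k = 0 then
    (if tw = 1 ∧ fd 0 (fd 1 k) = 0 ∧ fd 1 (fd 1 k) = 0 ∧ fd 2 (fd 1 k) = 0 then 1 else 0)
  else 2

/-- The cap of the node numbers. -/
def capA : ℕ := (p.n + 1) ^ 154

/-- The numeric data of the graph. -/
noncomputable def XP (tw : ℕ) : XD where
  Bc := BC p
  Be := tb (BV p) 2 + 1
  A := capA p
  vc := vC p
  inE := inEN p
  par := parN tw

end Num

section Bridge

variable {p : Par}

lemma cdG_grS (κ : ClP p) : cdG (grS κ) = grN (cdCl κ) := by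
  rcases κ with ⟨τ, j, j', l, bit, x⟩ | ⟨τ, j, l⟩ | ⟨τ, j, l, bit, x⟩ | ⟨j, l⟩ |
      ⟨j, l, bit, x⟩ | ⟨j, l⟩ | ⟨j, l⟩ | ⟨τ, j⟩
  · simp only [grS, grN, cdCl, fd_tup]
    fin_cases τ <;> simp [cdG]
  · simp only [grS, grN, cdCl, fd_tup]
    fin_cases τ <;> simp [cdG]
  all_goals simp [grS, grN, cdCl, fd_tup, cdG]

lemma cdRoom_grA (G : Gr) : cdRoom (grA G) = grAN (cdG G) := by
  rcases G with ρ | τ
  · revert ρ
    decide
  · revert τ
    decide

lemma cdRoom_grB (G : Gr) : cdRoom (grB G) = grBN (cdG G) := by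
  rcases G with ρ | τ
  · revert ρ
    decide
  · revert τ
    decide

/-- The door ends on codes. -/
lemma cdV_dA_inl (q : ClP p × Fin 4) :
    cdV (dA (I := CoP p) (g := p.d + 2) grS (Sum.inl q)) = dAC p (cdCl q.1) q.2.val := by
  show tup [cdRoom (grA (grS q.1)), _, _] = _
  rw [cdRoom_grA, cdG_grS]
  rfl

lemma cdV_dB_inl (q : ClP p × Fin 4) :
    cdV (dB (I := CoP p) (g := p.d + 2) grS (Sum.inl q)) = dBC p (cdCl q.1) q.2.val := by
  show tup [cdRoom (grB (grS q.1)), _, _] = _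
  rw [cdRoom_grB, cdG_grS]
  rfl

lemma cdV_dA_inr (q : (Gr × CoP p) × Fin (p.d + 2) × Fin (p.d + 2)) :
    cdV (dA (I := CoP p) (g := p.d + 2) (grS (N := tmN p.L) (bL := tmBL (Fin p.σ) p.n)
      (bS := tmBS (Fin p.σ) p.L)) (Sum.inr q)) = dAF p (cdGI cdCo q.1) q.2.1.val := by
  show tup [cdRoom (grA q.1.1), _, _] = _
  rw [cdRoom_grA]
  simp only [dAF, cdGI, fd_tup, List.getD_cons_zero]
  rfl

lemma cdV_dB_inr (q : (Gr × CoP p) × Fin (p.d + 2) × Fin (p.d + 2)) :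
    cdV (dB (I := CoP p) (g := p.d + 2) (grS (N := tmN p.L) (bL := tmBL (Fin p.σ) p.n)
      (bS := tmBS (Fin p.σ) p.L)) (Sum.inr q)) = dBF p (cdGI cdCo q.1) q.2.2.val := by
  show tup [cdRoom (grB q.1.1), _, _] = _
  rw [cdRoom_grB]
  simp only [dBF, cdGI, fd_tup, List.getD_cons_zero]
  rfl

/-- The base graph of the system. -/
noncomputable abbrev rbP (p : Par) : SimpleGraph (RvP p) := sBase (Fin p.σ) p.n p.L p.d

lemma doorN_iff (u w : RvP p) : doorN p (cdV u) (cdV w) ↔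
    ∃ d : Door (CoP p) (ClP p) (p.d + 2), u = dA grS d ∧ w = dB grS d := by
  constructor
  · rintro (⟨κ, -, hκ, P, hP, h1, h2⟩ | ⟨x, -, hx, a, ha, b, hb, h1, h2⟩)
    · obtain ⟨κ, rfl⟩ := ((cdT_Cl p).iff κ).mp hκ
      refine ⟨Sum.inl (κ, ⟨P, hP⟩), cdV_inj ?_, cdV_inj ?_⟩
      · rw [cdV_dA_inl]
        exact h1
      · rw [cdV_dB_inl]
        exact h2
    · obtain ⟨x, rfl⟩ := ((cdT_GI p).iff x).mp hx
      refine ⟨Sum.inr (x, ⟨a, ha⟩, ⟨b, hb⟩), cdV_inj ?_, cdV_inj ?_⟩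
      · rw [cdV_dA_inr]
        exact h1
      · rw [cdV_dB_inr]
        exact h2
  · rintro ⟨q | q, rfl, rfl⟩
    · refine Or.inl ⟨cdCl q.1, (cdT_Cl p).lt _, ((cdT_Cl p).iff _).mpr ⟨_, rfl⟩, q.2.val, q.2.isLt,
        cdV_dA_inl q, cdV_dB_inl q⟩
    · refine Or.inr ⟨cdGI cdCo q.1, (cdT_GI p).lt _, ((cdT_GI p).iff _).mpr ⟨_, rfl⟩, q.2.1.val,
        q.2.1.isLt, q.2.2.val, q.2.2.isLt, cdV_dA_inr q, cdV_dB_inr q⟩

lemma adjN_iff (u w : RvP p) : adjN p (cdV u) (cdV w) ↔ (rbP p).Adj u w := by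
  obtain ⟨r, c, l⟩ := u
  obtain ⟨r', c', l'⟩ := w
  unfold adjN
  rw [doorN_iff, doorN_iff]
  show _ ↔ (r = r' ∧ ((c = c' ∧ l ≠ l') ∨ (l = l' ∧ (c.val + 1 = c'.val ∨ c'.val + 1 = c.val)))) ∨
    ∃ d : Door (CoP p) (ClP p) (p.d + 2), ((r, c, l) = dA grS d ∧ (r', c', l') = dB grS d) ∨
      ((r, c, l) = dB grS d ∧ (r', c', l') = dA grS d)
  have e1 : fd 0 (cdV (I := CoP p) (Cl := ClP p) (g := p.d + 2) (r, c, l)) =
      fd 0 (cdV (I := CoP p) (Cl := ClP p) (g := p.d + 2) (r', c', l')) ↔ r = r' := by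
    simp only [cdV, fd_tup, List.getD_cons_zero]
    exact cdRoom_inj.eq_iff
  have e2 : fd 1 (cdV (I := CoP p) (Cl := ClP p) (g := p.d + 2) (r, c, l)) = c.val := by
    simp [cdV, fd_tup]
  have e3 : fd 1 (cdV (I := CoP p) (Cl := ClP p) (g := p.d + 2) (r', c', l')) = c'.val := by
    simp [cdV, fd_tup]
  have e4 : fd 2 (cdV (I := CoP p) (Cl := ClP p) (g := p.d + 2) (r, c, l)) = l.toNat := by
    simp [cdV, fd_tup]
  have e5 : fd 2 (cdV (I := CoP p) (Cl := ClP p) (g := p.d + 2) (r', c', l')) = l'.toNat := by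
    simp [cdV, fd_tup]
  rw [e1, e2, e3, e4, e5, Fin.val_inj]
  simp only [ne_eq, bool_toNat_eq]
  refine or_congr Iff.rfl ?_
  constructor
  · rintro (⟨d, h1, h2⟩ | ⟨d, h1, h2⟩)
    · exact ⟨d, Or.inl ⟨h1, h2⟩⟩
    · exact ⟨d, Or.inr ⟨h2, h1⟩⟩
  · rintro ⟨d, ⟨h1, h2⟩ | ⟨h1, h2⟩⟩
    · exact Or.inl ⟨d, h1, h2⟩
    · exact Or.inr ⟨d, h2, h1⟩

lemma edN_comm (u w : ℕ) : edN u w = edN w u := by
  unfold edN
  rw [min_comm, max_comm]

/-- The code of an edge of the base graph. -/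
noncomputable def cdE (p : Par) : Sym2 (RvP p) → ℕ :=
  Sym2.lift ⟨fun a b => edN (cdV a) (cdV b), fun a b => edN_comm _ _⟩

lemma cdE_mk (a b : RvP p) : cdE p s(a, b) = edN (cdV a) (cdV b) := rfl

lemma edN_inj {a b a' b' : ℕ} (h : edN a b = edN a' b') : (a = a' ∧ b = b') ∨ (a = b' ∧ b = a') := by
  simp only [edN, tup_eq_iff, List.cons.injEq, and_true] at h
  omega

lemma cdE_inj : Function.Injective (cdE p) := by
  intro e e'
  induction e using Sym2.ind with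
  | _ a b =>
    induction e' using Sym2.ind with
    | _ a' b' =>
      intro h
      rw [cdE_mk, cdE_mk] at h
      rcases edN_inj h with ⟨h1, h2⟩ | ⟨h1, h2⟩
      · rw [cdV_inj h1, cdV_inj h2]
      · rw [cdV_inj h1, cdV_inj h2, Sym2.eq_swap]

lemma cdE_lt (e : Sym2 (RvP p)) : cdE p e < tb (BV p) 2 + 1 := by
  induction e using Sym2.ind with
  | _ a b =>
    rw [cdE_mk]
    have h1 := (cdT_V p).lt a
    have h2 := (cdT_V p).lt b
    apply tup_lt_tb <;> simp only [List.mem_cons, List.not_mem_nil, or_false, forall_eq_or_imp,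
      forall_eq, List.length_cons, List.length_nil]
    · omega
    · omega

lemma coN_eq (l : LtP p) : coN (cdLt l) = cdCo (coS l) := by
  rcases l with ⟨τ, j, l, a, f⟩ | ⟨j, l, c, u, u', m⟩ | i <;> simp [coN, cdLt, coS, cdCo, fd_tup]

section Edges

variable {Δ : Fin p.σ → Fin p.σ → Fin p.σ → Fin p.σ} {xin : Fin p.n → Fin p.σ} {bl : Fin p.σ}
  {acc : Fin p.σ → Prop}

/-- The edge sets of the letters of the system. -/
noncomputable abbrev frP (p : Par) (Δ : Fin p.σ → Fin p.σ → Fin p.σ → Fin p.σ)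
    (xin : Fin p.n → Fin p.σ) (bl : Fin p.σ) (acc : Fin p.σ → Prop) :
    LtP p → Finset (Sym2 (RvP p)) :=
  sFr (d := p.d) (encP p) (encSP p) (LocC Δ xin bl acc) isOKC

lemma cdE_edge_inl (q : ClP p × Fin 4) :
    cdE p (edge (I := CoP p) (g := p.d + 2) grS (Sum.inl q)) =
      edN (dAC p (cdCl q.1) q.2.val) (dBC p (cdCl q.1) q.2.val) := by
  unfold edge
  rw [cdE_mk, cdV_dA_inl, cdV_dB_inl]

lemma cdE_edge_inr (q : (Gr × CoP p) × Fin (p.d + 2) × Fin (p.d + 2)) :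
    cdE p (edge (I := CoP p) (g := p.d + 2) (grS (N := tmN p.L) (bL := tmBL (Fin p.σ) p.n)
      (bS := tmBS (Fin p.σ) p.L)) (Sum.inr q)) =
      edN (dAF p (cdGI cdCo q.1) q.2.1.val) (dBF p (cdGI cdCo q.1) q.2.2.val) := by
  unfold edge
  rw [cdE_mk, cdV_dA_inr, cdV_dB_inr]

lemma frN_iff (h : CAok p Δ xin bl acc) (l : LtP p) (j : ℕ) :
    frN p (cdLt l) j ↔ ∃ e ∈ frP p Δ xin bl acc l, cdE p e = j := by
  classical
  unfold frN
  constructor
  · rintro (⟨κ, -, hκ, hc, P, hP, rfl⟩ | ⟨g, hg, a, ha, b, hb, rfl⟩)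
    · obtain ⟨κ, rfl⟩ := ((cdT_Cl p).iff κ).mp hκ
      refine ⟨edge grS (Sum.inl (κ, ⟨P, hP⟩)), ?_, cdE_edge_inl _⟩
      refine mem_image_of_mem _ ?_
      rw [mem_filter]
      exact ⟨mem_univ _, (covN_iff h κ l).mp hc⟩
    · obtain ⟨G, rfl⟩ := exists_cdG hg
      refine ⟨edge grS (Sum.inr ((G, coS l), ⟨a, ha⟩, ⟨b, hb⟩)), ?_, ?_⟩
      · refine mem_image_of_mem _ ?_
        rw [mem_filter]
        exact ⟨mem_univ _, rfl⟩
      · rw [cdE_edge_inr, coN_eq]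
        rfl
  · rintro ⟨e, he, rfl⟩
    obtain ⟨d, hd, rfl⟩ := mem_image.mp he
    have hd' := (mem_filter.mp hd).2
    rcases d with q | q
    · exact Or.inl ⟨cdCl q.1, (cdT_Cl p).lt _, ((cdT_Cl p).iff _).mpr ⟨_, rfl⟩,
        (covN_iff h q.1 l).mpr hd', q.2.val, q.2.isLt, cdE_edge_inl q⟩
    · have hc : coS l = q.1.2 := hd'
      refine Or.inr ⟨cdG q.1.1, cdG_lt _, q.2.1.val, q.2.1.isLt, q.2.2.val, q.2.2.isLt, ?_⟩
      rw [cdE_edge_inr, coN_eq, hc]
      rfl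

lemma fd_edN (x y : ℕ) : fd 0 (edN x y) = min x y ∧ fd 1 (edN x y) = max x y := by
  simp [edN, fd_tup]

lemma inEB_iff (v : RvP p) (j : ℕ) : inEB p (cdV v) j ↔
    ∃ e ∈ edgesOf (rbP p) (frP p Δ xin bl acc) (Sum.inl v), cdE p e = j := by
  constructor
  · rintro ⟨h1, h2, h3, h4, h5, h6⟩
    obtain ⟨a, ha⟩ := ((cdT_V p).iff _).mp h1
    obtain ⟨b, hb⟩ := ((cdT_V p).iff _).mp h2
    rw [← ha, ← hb] at h4 h5 h6
    rw [← ha, ← hb] at h3
    have hab := (adjN_iff a b).mp h6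
    have he : edN (cdV a) (cdV b) = j := by
      rw [h3]
      simp only [edN]
      rw [min_eq_left h4.le, max_eq_right h4.le]
    rcases h5 with h5 | h5
    · have := cdV_inj h5
      subst this
      exact ⟨s(v, b), mem_edges_inl hab, he⟩
    · have := cdV_inj h5
      subst this
      exact ⟨s(v, a), mem_edges_inl hab.symm, by rw [cdE_mk, edN_comm]; exact he⟩
  · rintro ⟨e, he, rfl⟩
    obtain ⟨u, hu, rfl⟩ := mem_image.mp he
    have hadj : (rbP p).Adj v u := (SimpleGraph.mem_neighborFinset _ _ _).mp hu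
    have hne : cdV v ≠ cdV u := fun e => hadj.ne (cdV_inj e)
    have hv := ((cdT_V p).iff _).mpr ⟨v, rfl⟩
    have hu' := ((cdT_V p).iff _).mpr ⟨u, rfl⟩
    rw [cdE_mk]
    obtain ⟨e0, e1⟩ := fd_edN (cdV v) (cdV u)
    unfold inEB
    rw [e0, e1]
    rcases lt_or_gt_of_ne hne with hlt | hlt
    · rw [min_eq_left hlt.le, max_eq_right hlt.le]
      refine ⟨hv, hu', ?_, hlt, Or.inl rfl, (adjN_iff v u).mpr hadj⟩
      simp only [edN]
      rw [min_eq_left hlt.le, max_eq_right hlt.le]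
    · rw [min_eq_right hlt.le, max_eq_left hlt.le]
      refine ⟨hu', hv, ?_, hlt, Or.inr rfl, (adjN_iff u v).mpr hadj.symm⟩
      simp only [edN]
      rw [min_eq_right hlt.le, max_eq_left hlt.le]

lemma inEN_iff (h : CAok p Δ xin bl acc) (c : RvP p ⊕ LtP p) (j : ℕ) :
    inEN p (cdCP p c) j ↔ ∃ e ∈ edgesOf (rbP p) (frP p Δ xin bl acc) c, cdE p e = j := by
  rcases c with v | l
  · rw [← inEB_iff]
    simp [inEN, cdCP, cdC, fd_tup]
  · have e0 : fd 0 (cdCP p (Sum.inr l)) = 1 := by simp [cdCP, cdC, fd_tup]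
    have e1 : fd 1 (cdCP p (Sum.inr l)) = cdLt l := by simp [cdCP, cdC, fd_tup]
    unfold inEN
    rw [e0, e1]
    constructor
    · rintro (⟨h0, -⟩ | ⟨-, h1⟩)
      · omega
      · exact (frN_iff h l j).mp h1
    · intro h1
      exact Or.inr ⟨rfl, (frN_iff h l j).mpr h1⟩

/-- The numeric data present the graph with parity function `t`. -/
theorem presP (h : CAok p Δ xin bl acc)
    (hcap : ∀ c, 2 ^ (edgesOf (rbP p) (frP p Δ xin bl acc) c).card ≤ capA p)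
    (tw : ℕ) (t : RvP p → ZMod 2) (ht : ∀ v, parN tw (tup [0, cdV v]) = (t v).val) :
    Pres (rbP p) (frP p Δ xin bl acc) t (XP p tw) (cdCP p) (cdE p) where
  cd_inj := (cdT_C p).inj
  cd_lt := (cdT_C p).lt
  vc_iff := (cdT_C p).iff
  ed_inj := cdE_inj
  ed_lt := cdE_lt
  inE_iff := inEN_iff h
  par_inl := ht
  par_inr := fun l => by simp [XP, parN, cdCP, cdC, fd_tup]
  num := fun c => (cdT_C p).num_val c
  cap := hcap

lemma parN_zero (v : RvP p) : parN 0 (tup [0, cdV v]) = ((fun _ => 0 : RvP p → ZMod 2) v).val := by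
  simp [parN, fd_tup]

lemma parN_twist (v : RvP p) : parN 1 (tup [0, cdV v]) = (twistR v).val := by
  obtain ⟨r, c, l⟩ := v
  have e1 : cdRoom r = 0 ↔ r = (0, false) := cdRoom_inj.eq_iff' rfl
  have e2 : fd 1 (tup [0, cdV (I := CoP p) (Cl := ClP p) (g := p.d + 2) (r, c, l)]) =
      tup [cdRoom r, c.val, l.toNat] := by
    simp [fd_tup, cdV]
  have e3 : fd 0 (tup [cdRoom r, c.val, l.toNat]) = cdRoom r := by simp [fd_tup]
  have e4 : fd 1 (tup [cdRoom r, c.val, l.toNat]) = c.val := by simp [fd_tup]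
  have e5 : fd 2 (tup [cdRoom r, c.val, l.toNat]) = l.toNat := by simp [fd_tup]
  have e6 : fd 0 (tup [0, cdV (I := CoP p) (Cl := ClP p) (g := p.d + 2) (r, c, l)]) = 0 := by
    simp [fd_tup]
  simp only [parN, twistR, e2, e3, e4, e5, e6, if_true, true_and, e1, bool_zero]
  split_ifs <;> rfl

end Edges

end Bridge

end Vale.Agent.Lib.P310F
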