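import Vale.Agent.Lib.P310F.ClC

/-!
The numeric functions of the graph are computed with polynomially many steps.
-/

set_option linter.unusedSectionVars false
set_option linter.unusedVariables false

namespace Vale.Agent.Lib.P310F

open Finset R

/-- Parameters computed with polynomially many steps. -/
structure PP (q : List ℕ → Par) : Prop where
  σ : PT fun e => (q e).σ
  L : PT fun e => (q e).L
  d : PT fun e => (q e).d
  n : PT fun e => (q e).n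
  C : PT fun e => (q e).C
  T : PT fun e => (q e).T
  TA : PT fun e => (q e).TA
  bl : PT fun e => (q e).bl
  c0 : PT fun e => (q e).c0
  c1 : PT fun e => (q e).c1
  c2 : PT fun e => (q e).c2

lemma PP.tl {q : List ℕ → Par} (h : PP q) : PP fun e => q e.tail :=
  ⟨h.σ.drop, h.L.drop, h.d.drop, h.n.drop, h.C.drop, h.T.drop, h.TA.drop, h.bl.drop, h.c0.drop,
    h.c1.drop, h.c2.drop⟩

lemma PD.ite {c A B : List ℕ → Prop} [∀ e, Decidable (c e)] (hc : PD c) (hA : PD A) (hB : PD B) :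
    PD fun e => if c e then A e else B e :=
  ((hc.imp hA).and (hc.not.imp hB)).of_iff fun e => by
    by_cases h : c e <;> simp [h]

lemma PT.tb {W : List ℕ → ℕ} (D : ℕ) (hW : PT W) : PT fun e => tb (W e) D := by
  induction D with
  | zero => exact PT.tupNil
  | succ D ih => exact PT.tupCons hW ih

lemma cnt_clog (x : ℕ) : cnt (fun i => min x (2 ^ i) < x) x = Nat.clog 2 x := by
  have h1 : (fun i => min x (2 ^ i) < x) = fun i => i < Nat.clog 2 x := by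
    funext i
    apply propext
    rw [Nat.lt_clog_iff_pow_lt (by omega)]
    rw [min_lt_iff]
    omega
  rw [h1, PT.cnt_lt_aux (Nat.clog_le_of_le_pow (Nat.lt_two_pow_self).le)]

lemma PT.clog2 {a : List ℕ → ℕ} (ha : PT a) : PT fun e => Nat.clog 2 (a e) := by
  refine (PT.cnt ha (P := fun e i => min (a e) (2 ^ i) < a e)
    (PD.lt (PT.powCap ha.tl (PT.const 2) (PT.var 0)) ha.tl)).of_eq fun e => ?_
  exact (cnt_clog _).symm

section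

variable {q : List ℕ → Par}

lemma card_Hd (σ : ℕ) : Fintype.card (Hd (Fin σ)) = 1 + (1 + (σ + (σ * σ + σ * (σ * σ)))) := by
  rw [Fintype.card_congr (Hd.equiv (Fin σ))]
  simp [Fintype.card_sum, Fintype.card_prod]

lemma card_Tag (σ Lt Lq : ℕ) : Fintype.card (Tag (Fin σ) Lt Lq) =
    5 + ((Lq + 2) + ((Lq + 2) + (Lt * (Lq + 2) + (σ + (Lq + 1))))) := by
  rw [Fintype.card_congr (Tag.equiv (Fin σ) Lt Lq)]
  simp [Fintype.card_sum, Fintype.card_prod]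

lemma pp_BLn (hq : PP q) : PT fun e => tmBL (Fin (q e).σ) (q e).n := by
  have h : PT fun e => Nat.clog 2 ((q e).n + (1 + (1 + ((q e).σ + ((q e).σ * (q e).σ +
      (q e).σ * ((q e).σ * (q e).σ)))))) :=
    PT.clog2 (hq.n.add ((PT.const 1).add ((PT.const 1).add (hq.σ.add ((hq.σ.mul hq.σ).add
      (hq.σ.mul (hq.σ.mul hq.σ)))))))
  refine h.of_eq fun e => ?_
  unfold tmBL
  simp only [Fintype.card_sum, Fintype.card_fin, card_Hd]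

lemma pp_BSn (hq : PP q) : PT fun e => tmBS (Fin (q e).σ) (q e).L := by
  have h : PT fun e => Nat.clog 2 (5 + (((q e).L + 2) + (((q e).L + 2) + ((q e).L * ((q e).L + 2) +
      ((q e).σ + ((q e).L + 1)))))) :=
    PT.clog2 ((PT.const 5).add ((hq.L.add (PT.const 2)).add ((hq.L.add (PT.const 2)).add
      ((hq.L.mul (hq.L.add (PT.const 2))).add (hq.σ.add (hq.L.add (PT.const 1)))))))
  refine h.of_eq fun e => ?_
  unfold tmBS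
  rw [card_Tag]

lemma pp_tmN (hq : PP q) : PT fun e => tmN (q e).L := (hq.L.add hq.L).add (PT.const 1)

lemma pp_tmP (hq : PP q) : PT fun e => tmP (q e).L (q e).d :=
  hq.d.sub (((PT.const 32).mul hq.L).add (PT.const 34))

lemma pp_cGI (hq : PP q) : PT fun e => cGI (q e) := by
  have h : PT fun e => 6 * (16 * (tmN (q e).L + 1) + tmP (q e).L (q e).d) :=
    (PT.const 6).mul (((PT.const 16).mul ((pp_tmN hq).add (PT.const 1))).add (pp_tmP hq))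
  refine h.of_eq fun e => ?_
  unfold cGI
  rw [Fintype.card_prod, card_SCo]
  simp [Gr]

lemma pp_cCl (hq : PP q) : PT fun e => cCl (q e) := by
  have hN := pp_tmN hq
  have hL := pp_BLn hq
  have hS := pp_BSn hq
  have hN1 := hN.add (PT.const 1)
  have c3 := PT.const 3
  have c4 := PT.const 4
  have c2 := PT.const 2
  have h : PT fun e => 3 * 4 * 4 * (tmN (q e).L + 1) * tmBL (Fin (q e).σ) (q e).n * 2 +
      3 * 4 * (tmN (q e).L + 1) + 3 * 4 * (tmN (q e).L + 1) * tmBL (Fin (q e).σ) (q e).n * 2 +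
      4 * (tmN (q e).L + 1) + 4 * tmN (q e).L * tmBS (Fin (q e).σ) (q e).L * 2 +
      4 * (tmN (q e).L + 1) + 4 * (tmN (q e).L + 1) + 3 * 4 :=
    ((((((((((((c3.mul c4).mul c4).mul hN1).mul hL).mul c2).add ((c3.mul c4).mul hN1)).add
      ((((c3.mul c4).mul hN1).mul hL).mul c2)).add (c4.mul hN1)).add (((c4.mul hN).mul hS).mul c2)).add
      (c4.mul hN1)).add (c4.mul hN1)).add (c3.mul c4))
  refine h.of_eq fun e => ?_
  unfold cCl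
  rw [card_SCl]

lemma pp_Wc (hq : PP q) : PT fun e => Wc (q e) :=
  ((hq.d.add (PT.const 2)).mul (pp_cGI hq)).add ((PT.const 4).mul (pp_cCl hq))


lemma pd_vL {k : List ℕ → ℕ} {q : List ℕ → Par} (hq : PP q) (h_k : PT k) :
    PD fun e => vL (q e) (k e) := by
  unfold vL
  exact (PD.or (PD.bex hq.n (PD.eq h_k.tl (PT.tupCons (PT.const 0) (PT.tupCons (PT.var 0) PT.tupNil)))) (PD.or (PD.eq h_k (PT.tupCons (PT.const 1) PT.tupNil)) (PD.or (PD.eq h_k (PT.tupCons (PT.const 2) PT.tupNil)) (PD.or (PD.bex hq.σ (PD.eq h_k.tl (PT.tupCons (PT.const 3) (PT.tupCons (PT.var 0) PT.tupNil)))) (PD.or (PD.bex hq.σ (PD.bex hq.tl.σ (PD.eq h_k.tl.tl (PT.tupCons (PT.const 4) (PT.tupCons ((PT.var 0)).tl (PT.tupCons (PT.var 0) PT.tupNil)))))) (PD.bex hq.σ (PD.bex hq.tl.σ (PD.bex hq.tl.tl.σ (PD.eq h_k.tl.tl.tl (PT.tupCons (PT.const 5) (PT.tupCons ((PT.var 0)).tl.tl (PT.tupCons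 ((PT.var 0)).tl (PT.tupCons (PT.var 0) PT.tupNil)))))))))))))

lemma pp_BL {q : List ℕ → Par} (hq : PP q) :
    PT fun e => BL (q e) := by
  unfold BL
  exact (PT.add (PT.tb 4 (PT.add (PT.add hq.n hq.σ) (PT.const 6))) (PT.const 1))

lemma pd_vT {k : List ℕ → ℕ} {q : List ℕ → Par} (hq : PP q) (h_k : PT k) :
    PD fun e => vT (q e) (k e) := by
  unfold vT
  exact (PD.or (PD.eq h_k (PT.tupCons (PT.const 0) PT.tupNil)) (PD.or (PD.eq h_k (PT.tupCons (PT.const 1) PT.tupNil)) (PD.or (PD.eq h_k (PT.tupCons (PT.const 2) PT.tupNil)) (PD.or (PD.eq h_k (PT.tupCons (PT.const 3) PT.tupNil)) (PD.or (PD.bex (PT.add hq.L (PT.const 2)) (PD.eq h_k.tl (PT.tupCons (PT.const 4) (PT.tupCons (PT.var 0) PT.tupNil)))) (PD.or (PD.bex (PT.add hq.L (PT.const 2)) (PD.eq h_k.tl (PT.tupCons (PT.const 5) (PT.tupCons (PT.var 0) PT.tupNil)))) (PD.or (PD.bex hq.L (PD.bex (PT.add hq.tl.L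 (PT.const 2)) (PD.eq h_k.tl.tl (PT.tupCons (PT.const 6) (PT.tupCons ((PT.var 0)).tl (PT.tupCons (PT.var 0) PT.tupNil)))))) (PD.or (PD.bex hq.σ (PD.eq h_k.tl (PT.tupCons (PT.const 7) (PT.tupCons (PT.var 0) PT.tupNil)))) (PD.or (PD.bex (PT.add hq.L (PT.const 1)) (PD.eq h_k.tl (PT.tupCons (PT.const 8) (PT.tupCons (PT.var 0) PT.tupNil)))) (PD.eq h_k (PT.tupCons (PT.const 9) PT.tupNil)))))))))))

lemma pp_BT {q : List ℕ → Par} (hq : PP q) :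
    PT fun e => BT (q e) := by
  unfold BT
  exact (PT.add (PT.tb 3 (PT.add (PT.add hq.L hq.σ) (PT.const 10))) (PT.const 1))

lemma pd_vCo {k : List ℕ → ℕ} {q : List ℕ → Par} (hq : PP q) (h_k : PT k) :
    PD fun e => vCo (q e) (k e) := by
  unfold vCo
  exact (PD.or (PD.bex (PT.const 3) (PD.bex (PT.const 4) (PD.bex (PT.add (pp_tmN hq.tl.tl) (PT.const 1)) (PD.eq h_k.tl.tl.tl (PT.tupCons (PT.const 0) (PT.tupCons ((PT.var 0)).tl.tl (PT.tupCons ((PT.var 0)).tl (PT.tupCons (PT.var 0) PT.tupNil)))))))) (PD.or (PD.bex (PT.const 4) (PD.bex (PT.add (pp_tmN hq.tl) (PT.const 1)) (PD.eq h_k.tl.tl (PT.tupCons (PT.const 1) (PT.tupCons ((PT.var 0)).tl (PT.tupCons (PT.var 0) PT.tupNil)))))) (PD.bex (pp_tmP hq) (PD.eq h_k.tl (PT.tupCons (PT.const 2) (PT.tupCons (PT.var 0) PT.tupNil))))))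

lemma pp_BCo {q : List ℕ → Par} (hq : PP q) :
    PT fun e => BCo (q e) := by
  unfold BCo
  exact (PT.add (PT.tb 4 (PT.add (PT.add (pp_tmN hq) (pp_tmP hq)) (PT.const 4))) (PT.const 1))

lemma pd_vCl {k : List ℕ → ℕ} {q : List ℕ → Par} (hq : PP q) (h_k : PT k) :
    PD fun e => vCl (q e) (k e) := by
  unfold vCl
  exact (PD.or (PD.bex (PT.const 3) (PD.bex (PT.const 4) (PD.bex (PT.const 4) (PD.bex (PT.add (pp_tmN hq.tl.tl.tl) (PT.const 1)) (PD.bex (pp_BLn hq.tl.tl.tl.tl) (PD.bex (PT.const 2) (PD.eq h_k.tl.tl.tl.tl.tl.tl (PT.tupCons (PT.const 0) (PT.tupCons ((PT.var 0)).tl.tl.tl.tl.tl (PT.tupCons ((PT.var 0)).tl.tl.tl.tl (PT.tupCons ((PT.var 0)).tl.tl.tl (PT.tupCons ((PT.var 0)).tl.tl (PT.tupCons ((PT.var 0)).tl (PT.tupCons (PT.var 0) PT.tupNil)))))))))))))) (PD.or (PD.bex (PT.const 3) (PD.bex (PT.const 4) (PD.bex (PT.add (pp_tmN hq.tl.tl) (PT.const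 1)) (PD.eq h_k.tl.tl.tl (PT.tupCons (PT.const 1) (PT.tupCons ((PT.var 0)).tl.tl (PT.tupCons ((PT.var 0)).tl (PT.tupCons (PT.var 0) PT.tupNil)))))))) (PD.or (PD.bex (PT.const 3) (PD.bex (PT.const 4) (PD.bex (PT.add (pp_tmN hq.tl.tl) (PT.const 1)) (PD.bex (pp_BLn hq.tl.tl.tl) (PD.bex (PT.const 2) (PD.eq h_k.tl.tl.tl.tl.tl (PT.tupCons (PT.const 2) (PT.tupCons ((PT.var 0)).tl.tl.tl.tl (PT.tupCons ((PT.var 0)).tl.tl.tl (PT.tupCons ((PT.var 0)).tl.tl (PT.tupCons ((PT.var 0)).tl (PT.tupCons (PT.var 0) PT.tupNil)))))))))))) (PD.or (PD.bex (PT.const 4) (PD.bex (PT.add (pp_tmN hq.tl) (PT.const 1)) (PD.eq h_k.tl.tl (PT.tupCons (PT.const 3) (PT.tupCons ((PT.var 0)).tl (PT.tupCons (PT.var 0) PT.tupNil)))))) (PD.or (PD.bex (PT.const 4) (PD.bex (pp_tmN hq.tl) (PD.bex (pp_BSn hq.tl.tl) (PD.bex (PT.const 2) (PD.eq h_k.tl.tl.tl.tl (PT.tupCons (PT.const 4) (PT.tupCons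 ((PT.var 0)).tl.tl.tl (PT.tupCons ((PT.var 0)).tl.tl (PT.tupCons ((PT.var 0)).tl (PT.tupCons (PT.var 0) PT.tupNil)))))))))) (PD.or (PD.bex (PT.const 4) (PD.bex (PT.add (pp_tmN hq.tl) (PT.const 1)) (PD.eq h_k.tl.tl (PT.tupCons (PT.const 5) (PT.tupCons ((PT.var 0)).tl (PT.tupCons (PT.var 0) PT.tupNil)))))) (PD.or (PD.bex (PT.const 4) (PD.bex (PT.add (pp_tmN hq.tl) (PT.const 1)) (PD.eq h_k.tl.tl (PT.tupCons (PT.const 6) (PT.tupCons ((PT.var 0)).tl (PT.tupCons (PT.var 0) PT.tupNil)))))) (PD.bex (PT.const 3) (PD.bex (PT.const 4) (PD.eq h_k.tl.tl (PT.tupCons (PT.const 7) (PT.tupCons ((PT.var 0)).tl (PT.tupCons (PT.var 0) PT.tupNil)))))))))))))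

lemma pp_BCl {q : List ℕ → Par} (hq : PP q) :
    PT fun e => BCl (q e) := by
  unfold BCl
  exact (PT.add (PT.tb 7 (PT.add (PT.add (PT.add (pp_tmN hq) (pp_BLn hq)) (pp_BSn hq)) (PT.const 8))) (PT.const 1))

lemma pd_vLt {k : List ℕ → ℕ} {q : List ℕ → Par} (hq : PP q) (h_k : PT k) :
    PD fun e => vLt (q e) (k e) := by
  unfold vLt
  exact (PD.or (PD.bex (PT.const 3) (PD.bex (PT.const 4) (PD.bex (PT.add (pp_tmN hq.tl.tl) (PT.const 1)) (PD.bex (pp_BL hq.tl.tl.tl) (PD.bex (PT.const 2) (PD.and (pd_vL hq.tl.tl.tl.tl.tl ((PT.var 0)).tl) (PD.eq h_k.tl.tl.tl.tl.tl (PT.tupCons (PT.const 0) (PT.tupCons ((PT.var 0)).tl.tl.tl.tl (PT.tupCons ((PT.var 0)).tl.tl.tl (PT.tupCons ((PT.var 0)).tl.tl (PT.tupCons ((PT.var 0)).tl (PT.tupCons (PT.var 0) PT.tupNil))))))))))))) (PD.or (PD.bex (PT.const 4) (PD.bex (PT.add (pp_tmN hq.tl) (PT.const 1)) (PD.bex (pp_BL hq.tl.tl)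 (PD.bex (pp_BL hq.tl.tl.tl) (PD.bex (pp_BL hq.tl.tl.tl.tl) (PD.bex (pp_BT hq.tl.tl.tl.tl.tl) (PD.bex (pp_BT hq.tl.tl.tl.tl.tl.tl) (PD.bex (PT.const 3) (PD.and (pd_vL hq.tl.tl.tl.tl.tl.tl.tl.tl ((PT.var 0)).tl.tl.tl.tl.tl) (PD.and (pd_vL hq.tl.tl.tl.tl.tl.tl.tl.tl ((PT.var 0)).tl.tl.tl.tl) (PD.and (pd_vL hq.tl.tl.tl.tl.tl.tl.tl.tl ((PT.var 0)).tl.tl.tl) (PD.and (pd_vT hq.tl.tl.tl.tl.tl.tl.tl.tl ((PT.var 0)).tl.tl) (PD.and (pd_vT hq.tl.tl.tl.tl.tl.tl.tl.tl ((PT.var 0)).tl) (PD.eq h_k.tl.tl.tl.tl.tl.tl.tl.tl (PT.tupCons (PT.const 1) (PT.tupCons ((PT.var 0)).tl.tl.tl.tl.tl.tl.tl (PT.tupCons ((PT.var 0)).tl.tl.tl.tl.tl.tl (PT.tupCons ((PT.var 0)).tl.tl.tl.tl.tl (PT.tupCons ((PT.var 0)).tl.tl.tl.tl (PT.tupCons ((PT.var 0)).tl.tl.tl (PT.tupCons ((PT.var 0)).tl.tl (PT.tupCons ((PT.var 0)).tl (PT.tupCons (PT.var 0) PT.tupNil))))))))))))))))))))))) (PD.bex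 (pp_tmP hq) (PD.eq h_k.tl (PT.tupCons (PT.const 2) (PT.tupCons (PT.var 0) PT.tupNil))))))

lemma pp_BLt {q : List ℕ → Par} (hq : PP q) :
    PT fun e => BLt (q e) := by
  unfold BLt
  exact (PT.add (PT.tb 9 (PT.add (PT.add (PT.add (PT.add (pp_tmN hq) (pp_tmP hq)) (pp_BL hq)) (pp_BT hq)) (PT.const 4))) (PT.const 1))

lemma pd_vGI {k : List ℕ → ℕ} {q : List ℕ → Par} (hq : PP q) (h_k : PT k) :
    PD fun e => vGI (q e) (k e) := by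
  unfold vGI
  exact (PD.bex (PT.const 6) (PD.bex (pp_BCo hq.tl) (PD.and (pd_vCo hq.tl.tl (PT.var 0)) (PD.eq h_k.tl.tl (PT.tupCons ((PT.var 0)).tl (PT.tupCons (PT.var 0) PT.tupNil))))))

lemma pp_BGI {q : List ℕ → Par} (hq : PP q) :
    PT fun e => BGI (q e) := by
  unfold BGI
  exact (PT.add (PT.tb 2 (PT.add (pp_BCo hq) (PT.const 6))) (PT.const 1))

lemma pd_vV {k : List ℕ → ℕ} {q : List ℕ → Par} (hq : PP q) (h_k : PT k) :
    PD fun e => vV (q e) (k e) := by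
  unfold vV
  exact (PD.bex (PT.const 6) (PD.bex (pp_Wc hq.tl) (PD.bex (PT.const 2) (PD.eq h_k.tl.tl.tl (PT.tupCons ((PT.var 0)).tl.tl (PT.tupCons ((PT.var 0)).tl (PT.tupCons (PT.var 0) PT.tupNil)))))))

lemma pp_BV {q : List ℕ → Par} (hq : PP q) :
    PT fun e => BV (q e) := by
  unfold BV
  exact (PT.add (PT.tb 3 (PT.add (pp_Wc hq) (PT.const 6))) (PT.const 1))

lemma pd_vC {k : List ℕ → ℕ} {q : List ℕ → Par} (hq : PP q) (h_k : PT k) :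
    PD fun e => vC (q e) (k e) := by
  unfold vC
  exact (PD.or (PD.bex (pp_BV hq) (PD.and (pd_vV hq.tl (PT.var 0)) (PD.eq h_k.tl (PT.tupCons (PT.const 0) (PT.tupCons (PT.var 0) PT.tupNil))))) (PD.bex (pp_BLt hq) (PD.and (pd_vLt hq.tl (PT.var 0)) (PD.eq h_k.tl (PT.tupCons (PT.const 1) (PT.tupCons (PT.var 0) PT.tupNil))))))

lemma pp_BC {q : List ℕ → Par} (hq : PP q) :
    PT fun e => BC (q e) := by
  unfold BC
  exact (PT.add (PT.tb 2 (PT.add (PT.add (pp_BV hq) (pp_BLt hq)) (PT.const 1))) (PT.const 1))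

lemma pp_xinN {d : List ℕ → ℕ} {q : List ℕ → Par} (hq : PP q) (h_d : PT d) :
    PT fun e => xinN (q e) (d e) := by
  unfold xinN
  exact (PT.ite (PD.eq h_d (PT.const 0)) hq.c0 (PT.ite (PD.lt h_d hq.C) hq.c1 hq.c2))

lemma pd_incN {n j0 j d d' : List ℕ → ℕ} (h_n : PT n) (h_j0 : PT j0) (h_j : PT j) (h_d : PT d) (h_d' : PT d') :
    PD fun e => incN (n e) (j0 e) (j e) (d e) (d' e) := by
  unfold incN
  exact (PD.or (PD.and (PD.lt h_j h_j0) (PD.and (PD.eq (PT.add h_d (PT.const 1)) h_n) (PD.eq h_d' (PT.const 0)))) (PD.or (PD.and (PD.eq h_j h_j0) (PD.eq h_d' (PT.add h_d (PT.const 1)))) (PD.and (PD.lt h_j0 h_j) (PD.eq h_d' h_d))))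

lemma pd_DigN {j l x0 x1 x2 : List ℕ → ℕ} {q : List ℕ → Par} (hq : PP q) (h_j : PT j) (h_l : PT l) (h_x0 : PT x0) (h_x1 : PT x1) (h_x2 : PT x2) :
    PD fun e => DigN (q e) (j e) (l e) (x0 e) (x1 e) (x2 e) := by
  unfold DigN
  exact (PD.ite (PD.le h_l hq.L) (PD.bex hq.n (PD.and (PD.eq h_x0.tl (PT.tupCons (PT.const 0) (PT.tupCons (PT.var 0) PT.tupNil))) (PD.and (PD.eq h_x1.tl (PT.tupCons (PT.const 0) (PT.tupCons (PT.var 0) PT.tupNil))) (PD.eq h_x2.tl (PT.tupCons (PT.const 0) (PT.tupCons (PT.var 0) PT.tupNil)))))) (PD.bex hq.n (PD.bex hq.tl.n (PD.and (PD.eq h_x0.tl.tl (PT.tupCons (PT.const 0) (PT.tupCons ((PT.var 0)).tl PT.tupNil))) (PD.and (PD.eq h_x1.tl.tl (PT.tupCons (PT.const 0) (PT.tupCons (PT.var 0) PT.tupNil))) (PD.and (PD.eq h_x2.tl.tl (PT.tupCons (PT.const 0) (PT.tupCons ((PT.var 0)).tl PT.tupNil))) (pd_incN hq.tl.tl.n h_j.tl.tl (PT.sub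 (PT.sub h_l.tl.tl (PT.const 1)) hq.tl.tl.L) ((PT.var 0)).tl (PT.var 0))))))))

lemma pd_BodyN {u l x0 x1 x2 : List ℕ → ℕ} {q : List ℕ → Par} (hq : PP q) (h_u : PT u) (h_l : PT l) (h_x0 : PT x0) (h_x1 : PT x1) (h_x2 : PT x2) :
    PD fun e => BodyN (q e) (u e) (l e) (x0 e) (x1 e) (x2 e) := by
  unfold BodyN
  exact (PD.or (PD.and (PD.eq (PT.fd 0 h_u) (PT.const 0)) (PD.imp (PD.eq h_l (PT.const 0)) (PD.and (PD.eq h_x0 (PT.tupCons (PT.const 1) PT.tupNil)) (PD.and (PD.eq h_x1 (PT.tupCons (PT.const 1) PT.tupNil)) (PD.eq h_x2 (PT.tupCons (PT.const 1) PT.tupNil)))))) (PD.or (PD.and (PD.eq (PT.fd 0 h_u) (PT.const 1)) (PD.and (PD.eq h_x1 h_x2) (PD.imp (PD.eq h_l (PT.const 0)) (PD.and (PD.eq h_x0 (PT.tupCons (PT.const 1) PT.tupNil)) (PD.ne h_x1 (PT.tupCons (PT.const 2) PT.tupNil)))))) (PD.or (PD.and (PD.eq (PT.fd 0 h_u) (PT.const 2)) (PD.and (PD.eq h_x0 h_x2)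 (PD.imp (PD.eq h_l (PT.const 0)) (PD.and (PD.eq h_x1 (PT.tupCons (PT.const 1) PT.tupNil)) (PD.ne h_x0 (PT.tupCons (PT.const 2) PT.tupNil)))))) (PD.or (PD.and (PD.eq (PT.fd 0 h_u) (PT.const 3)) (PD.and (PD.eq h_x0 h_x1) (PD.imp (PD.eq h_l (PT.const 0)) (PD.and (PD.eq h_x2 (PT.tupCons (PT.const 1) PT.tupNil)) (PD.ne h_x0 (PT.tupCons (PT.const 2) PT.tupNil)))))) (PD.or (PD.and (PD.eq (PT.fd 0 h_u) (PT.const 4)) (PD.ite (PD.eq h_l (PT.const 0)) (PD.bex hq.σ (PD.bex hq.tl.σ (PD.and (PD.eq h_x0.tl.tl (PT.tupCons (PT.const 3) (PT.tupCons ((PT.var 0)).tl PT.tupNil))) (PD.and (PD.eq h_x1.tl.tl (PT.tupCons (PT.const 3) (PT.tupCons (PT.var 0) PT.tupNil))) (PD.eq h_x2.tl.tl (PT.tupCons (PT.const 4) (PT.tupCons ((PT.var 0)).tl (PT.tupCons (PT.var 0) PT.tupNil)))))))) (pd_DigN hq (PT.fd 1 h_u) h_l h_x0 h_x1 h_x2))) (PD.or (PD.and (PD.eq (PT.fd 0 h_u) (PT.const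 5)) (PD.ite (PD.eq h_l (PT.const 0)) (PD.bex hq.σ (PD.bex hq.tl.σ (PD.bex hq.tl.tl.σ (PD.and (PD.eq h_x0.tl.tl.tl (PT.tupCons (PT.const 3) (PT.tupCons ((PT.var 0)).tl.tl PT.tupNil))) (PD.and (PD.eq h_x1.tl.tl.tl (PT.tupCons (PT.const 4) (PT.tupCons ((PT.var 0)).tl (PT.tupCons (PT.var 0) PT.tupNil)))) (PD.eq h_x2.tl.tl.tl (PT.tupCons (PT.const 5) (PT.tupCons ((PT.var 0)).tl.tl (PT.tupCons ((PT.var 0)).tl (PT.tupCons (PT.var 0) PT.tupNil)))))))))) (pd_DigN hq (PT.fd 1 h_u) h_l h_x0 h_x1 h_x2))) (PD.or (PD.and (PD.eq (PT.fd 0 h_u) (PT.const 6)) (PD.ite (PD.eq h_l (PT.const 0)) (PD.bex hq.σ (PD.bex hq.tl.σ (PD.bex hq.tl.tl.σ (PD.bex hq.tl.tl.tl.σ (PD.and (PD.eq h_x0.tl.tl.tl.tl (PT.tupCons (PT.const 5) (PT.tupCons ((PT.var 0)).tl.tl.tl (PT.tupCons ((PT.var 0)).tl.tl (PT.tupCons ((PT.var 0)).tl PT.tupNil))))) (PD.and (PD.eq h_x1.tl.tl.tl.tl (PT.tupCons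 (PT.const 5) (PT.tupCons ((PT.var 0)).tl.tl.tl (PT.tupCons ((PT.var 0)).tl.tl (PT.tupCons ((PT.var 0)).tl PT.tupNil))))) (PD.and (PD.eq h_x2.tl.tl.tl.tl (PT.tupCons (PT.const 3) (PT.tupCons (PT.var 0) PT.tupNil))) (PD.eq (PT.bt hq.tl.tl.tl.tl.T (PT.tupCons ((PT.var 0)).tl.tl.tl (PT.tupCons ((PT.var 0)).tl.tl (PT.tupCons ((PT.var 0)).tl (PT.tupCons (PT.var 0) PT.tupNil))))) (PT.const 1))))))))) (PD.ite (PD.le h_l hq.L) (PD.bex hq.n (PD.bex hq.tl.n (PD.and (PD.eq h_x0.tl.tl (PT.tupCons (PT.const 0) (PT.tupCons ((PT.var 0)).tl PT.tupNil))) (PD.and (PD.eq h_x1.tl.tl (PT.tupCons (PT.const 0) (PT.tupCons ((PT.var 0)).tl PT.tupNil))) (PD.and (PD.eq h_x2.tl.tl (PT.tupCons (PT.const 0) (PT.tupCons (PT.var 0) PT.tupNil))) (pd_incN hq.tl.tl.n (PT.fd 1 h_u.tl.tl) (PT.sub h_l.tl.tl (PT.const 1)) ((PT.var 0)).tl (PT.var 0))))))) (PD.bex hq.n (PD.bex hq.tl.n (PD.and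 (PD.eq h_x0.tl.tl (PT.tupCons (PT.const 0) (PT.tupCons ((PT.var 0)).tl PT.tupNil))) (PD.and (PD.eq h_x1.tl.tl (PT.tupCons (PT.const 0) (PT.tupCons ((PT.var 0)).tl PT.tupNil))) (PD.and (PD.eq h_x2.tl.tl (PT.tupCons (PT.const 0) (PT.tupCons (PT.var 0) PT.tupNil))) (pd_incN hq.tl.tl.n (PT.fd 2 h_u.tl.tl) (PT.sub (PT.sub h_l.tl.tl (PT.const 1)) hq.tl.tl.L) ((PT.var 0)).tl (PT.var 0)))))))))) (PD.or (PD.and (PD.eq (PT.fd 0 h_u) (PT.const 7)) (PD.ite (PD.eq h_l (PT.const 0)) (PD.and (PD.eq h_x0 (PT.tupCons (PT.const 1) PT.tupNil)) (PD.and (PD.eq h_x1 (PT.tupCons (PT.const 1) PT.tupNil)) (PD.eq h_x2 (PT.tupCons (PT.const 3) (PT.tupCons (PT.fd 1 h_u) PT.tupNil))))) (PD.ite (PD.eq h_l (PT.add hq.L (PT.const 1))) (PD.bex hq.n (PD.and (PD.eq h_x2.tl (PT.tupCons (PT.const 0) (PT.tupCons (PT.var 0) PT.tupNil))) (PD.eq (pp_xinN hq.tl (PT.var 0)) (PT.fd 1 h_u.tl))))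 (PD.bex hq.n (PD.and (PD.eq h_x2.tl (PT.tupCons (PT.const 0) (PT.tupCons (PT.var 0) PT.tupNil))) (PD.eq (PT.var 0) (PT.const 0))))))) (PD.or (PD.and (PD.eq (PT.fd 0 h_u) (PT.const 8)) (PD.ite (PD.eq h_l (PT.const 0)) (PD.and (PD.eq h_x0 (PT.tupCons (PT.const 1) PT.tupNil)) (PD.and (PD.eq h_x1 (PT.tupCons (PT.const 1) PT.tupNil)) (PD.and (PD.eq h_x2 (PT.tupCons (PT.const 3) (PT.tupCons hq.bl PT.tupNil))) (PD.ne (PT.fd 1 h_u) (PT.const 0))))) (PD.bex hq.n (PD.and (PD.eq h_x2.tl (PT.tupCons (PT.const 0) (PT.tupCons (PT.var 0) PT.tupNil))) (PD.and (PD.imp (PD.le h_l.tl hq.tl.L) (PD.eq (PT.var 0) (PT.const 0))) (PD.imp (PD.eq h_l.tl (PT.add (PT.add hq.tl.L (PT.const 1)) (PT.fd 1 h_u.tl))) (PD.ne (PT.var 0) (PT.const 0)))))))) (PD.and (PD.eq (PT.fd 0 h_u) (PT.const 9)) (PD.and (PD.eq h_x1 h_x2) (PD.imp (PD.eq h_l (PT.const 0)) (PD.and (PD.eq h_x0 (PT.tupCons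 (PT.const 2) PT.tupNil)) (PD.bex hq.σ (PD.and (PD.eq h_x1.tl (PT.tupCons (PT.const 3) (PT.tupCons (PT.var 0) PT.tupNil))) (PD.eq (PT.bt hq.tl.TA (PT.var 0)) (PT.const 1)))))))))))))))))

lemma pd_LocN {l x0 x1 x2 u u' : List ℕ → ℕ} {q : List ℕ → Par} (hq : PP q) (h_l : PT l) (h_x0 : PT x0) (h_x1 : PT x1) (h_x2 : PT x2) (h_u : PT u) (h_u' : PT u') :
    PD fun e => LocN (q e) (l e) (x0 e) (x1 e) (x2 e) (u e) (u' e) := by
  unfold LocN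
  exact (PD.and (PD.eq h_u' h_u) (pd_BodyN hq h_u h_l h_x0 h_x1 h_x2))

lemma pd_isOKN {τ x : List ℕ → ℕ} (h_τ : PT τ) (h_x : PT x) :
    PD fun e => isOKN (τ e) (x e) := by
  unfold isOKN
  exact (PD.ite (PD.eq h_τ (PT.const 0)) (PD.eq h_x (PT.tupCons (PT.const 2) PT.tupNil)) (PD.eq h_x (PT.tupCons (PT.const 1) PT.tupNil)))

lemma pp_encN {a b : List ℕ → ℕ} {q : List ℕ → Par} (hq : PP q) (h_a : PT a) (h_b : PT b) :
    PT fun e => encN (q e) (a e) (b e) := by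
  unfold encN
  exact (PT.bt (PT.cnt h_a (pd_vL hq.tl (PT.var 0))) h_b)

lemma pp_encSN {a b : List ℕ → ℕ} {q : List ℕ → Par} (hq : PP q) (h_a : PT a) (h_b : PT b) :
    PT fun e => encSN (q e) (a e) (b e) := by
  unfold encSN
  exact (PT.bt (PT.cnt h_a (pd_vT hq.tl (PT.var 0))) h_b)

lemma pd_covFN {τ₁ j₁ l₁ a f κ : List ℕ → ℕ} {q : List ℕ → Par} (hq : PP q) (h_τ₁ : PT τ₁) (h_j₁ : PT j₁) (h_l₁ : PT l₁) (h_a : PT a) (h_f : PT f) (h_κ : PT κ) :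
    PD fun e => covFN (q e) (τ₁ e) (j₁ e) (l₁ e) (a e) (f e) (κ e) := by
  unfold covFN
  exact (PD.or (PD.and (PD.eq (PT.fd 0 h_κ) (PT.const 0)) (PD.and (PD.eq h_τ₁ (PT.fd 1 h_κ)) (PD.and (PD.eq h_l₁ (PT.fd 4 h_κ)) (PD.or (PD.and (PD.eq h_j₁ (PT.fd 2 h_κ)) (PD.or (PD.eq h_f (PT.const 1)) (PD.eq (pp_encN hq h_a (PT.fd 5 h_κ)) (PT.fd 6 h_κ)))) (PD.and (PD.eq h_j₁ (PT.fd 3 h_κ)) (PD.or (PD.eq h_f (PT.const 1)) (PD.ne (pp_encN hq h_a (PT.fd 5 h_κ)) (PT.fd 6 h_κ)))))))) (PD.or (PD.and (PD.eq (PT.fd 0 h_κ) (PT.const 1)) (PD.and (PD.eq h_τ₁ (PT.fd 1 h_κ)) (PD.and (PD.eq h_j₁ (PT.fd 2 h_κ)) (PD.and (PD.eq h_l₁ (PT.fd 3 h_κ)) (PD.eq h_f (PT.const 0)))))) (PD.or (PD.and (PD.eq (PT.fd 0 h_κ) (PT.const 2)) (PD.and (PD.eq h_τ₁ (PT.fd 1 h_κ)) (PD.and (PD.eq h_j₁ (PT.fd 2 h_κ)) (PD.and (PD.eq h_l₁ (PT.fd 3 h_κ)) (PD.ne (pp_encN hq h_a (PT.fd 4 h_κ)) (PT.fd 5 h_κ))))))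 (PD.and (PD.eq (PT.fd 0 h_κ) (PT.const 7)) (PD.and (PD.eq h_τ₁ (PT.fd 1 h_κ)) (PD.and (PD.eq h_j₁ (PT.fd 2 h_κ)) (PD.and (PD.eq h_l₁ (PT.const 0)) (pd_isOKN (PT.fd 1 h_κ) h_a))))))))

lemma pp_sel3 {τ a b c : List ℕ → ℕ} (h_τ : PT τ) (h_a : PT a) (h_b : PT b) (h_c : PT c) :
    PT fun e => sel3 (τ e) (a e) (b e) (c e) := by
  unfold sel3
  exact (PT.ite (PD.eq h_τ (PT.const 0)) h_a (PT.ite (PD.eq h_τ (PT.const 1)) h_b h_c))

lemma pd_covWN {j₁ l₁ c0 c1 c2 u u' m κ : List ℕ → ℕ} {q : List ℕ → Par} (hq : PP q) (h_j₁ : PT j₁) (h_l₁ : PT l₁) (h_c0 : PT c0) (h_c1 : PT c1) (h_c2 : PT c2) (h_u : PT u) (h_u' : PT u') (h_m : PT m) (h_κ : PT κ) :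
    PD fun e => covWN (q e) (j₁ e) (l₁ e) (c0 e) (c1 e) (c2 e) (u e) (u' e) (m e) (κ e) := by
  unfold covWN
  exact (PD.or (PD.and (PD.eq (PT.fd 0 h_κ) (PT.const 2)) (PD.and (PD.eq h_j₁ (PT.fd 2 h_κ)) (PD.and (PD.eq h_l₁ (PT.fd 3 h_κ)) (PD.or (PD.ne h_m (PT.const 2)) (PD.eq (pp_encN hq (pp_sel3 (PT.fd 1 h_κ) h_c0 h_c1 h_c2) (PT.fd 4 h_κ)) (PT.fd 5 h_κ)))))) (PD.or (PD.and (PD.eq (PT.fd 0 h_κ) (PT.const 3)) (PD.and (PD.eq h_j₁ (PT.fd 1 h_κ)) (PD.and (PD.eq h_l₁ (PT.fd 2 h_κ)) (PD.or (PD.ne h_m (PT.const 2)) (pd_LocN hq (PT.fd 2 h_κ) h_c0 h_c1 h_c2 h_u h_u'))))) (PD.or (PD.and (PD.eq (PT.fd 0 h_κ) (PT.const 4)) (PD.and (PD.eq h_j₁ (PT.fd 1 h_κ)) (PD.or (PD.and (PD.eq h_l₁ (PT.fd 2 h_κ)) (PD.or (PD.ne h_m (PT.const 2)) (PD.eq (pp_encSN hq h_u' (PT.fd 3 h_κ)) (PT.fd 4 h_κ)))) (PD.and (PD.eq h_l₁ (PT.add (PT.fd 2 h_κ) (PT.const 1))) (PD.or (PD.ne h_m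 (PT.const 2)) (PD.ne (pp_encSN hq h_u (PT.fd 3 h_κ)) (PT.fd 4 h_κ))))))) (PD.or (PD.and (PD.eq (PT.fd 0 h_κ) (PT.const 5)) (PD.and (PD.eq h_j₁ (PT.fd 1 h_κ)) (PD.and (PD.eq h_l₁ (PT.fd 2 h_κ)) (PD.ne h_m (PT.const 1))))) (PD.and (PD.eq (PT.fd 0 h_κ) (PT.const 6)) (PD.and (PD.eq h_j₁ (PT.fd 1 h_κ)) (PD.and (PD.eq h_l₁ (PT.fd 2 h_κ)) (PD.ne h_m (PT.const 0)))))))))

lemma pd_covN {κ l : List ℕ → ℕ} {q : List ℕ → Par} (hq : PP q) (h_κ : PT κ) (h_l : PT l) :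
    PD fun e => covN (q e) (κ e) (l e) := by
  unfold covN
  exact (PD.or (PD.and (PD.eq (PT.fd 0 h_l) (PT.const 0)) (pd_covFN hq (PT.fd 1 h_l) (PT.fd 2 h_l) (PT.fd 3 h_l) (PT.fd 4 h_l) (PT.fd 5 h_l) h_κ)) (PD.and (PD.eq (PT.fd 0 h_l) (PT.const 1)) (pd_covWN hq (PT.fd 1 h_l) (PT.fd 2 h_l) (PT.fd 3 h_l) (PT.fd 4 h_l) (PT.fd 5 h_l) (PT.fd 6 h_l) (PT.fd 7 h_l) (PT.fd 8 h_l) h_κ)))

lemma pp_grN {κ : List ℕ → ℕ} (h_κ : PT κ) :
    PT fun e => grN (κ e) := by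
  unfold grN
  exact (PT.ite (PD.eq (PT.fd 0 h_κ) (PT.const 0)) (PT.ite (PD.eq (PT.fd 1 h_κ) (PT.const 2)) (PT.const 1) (PT.const 2)) (PT.ite (PD.eq (PT.fd 0 h_κ) (PT.const 1)) (PT.ite (PD.eq (PT.fd 1 h_κ) (PT.const 0)) (PT.const 1) (PT.const 0)) (PT.ite (PD.eq (PT.fd 0 h_κ) (PT.const 2)) (PT.const 2) (PT.ite (PD.eq (PT.fd 0 h_κ) (PT.const 3)) (PT.const 2) (PT.ite (PD.eq (PT.fd 0 h_κ) (PT.const 4)) (PT.const 2) (PT.ite (PD.eq (PT.fd 0 h_κ) (PT.const 5)) (PT.const 1) (PT.ite (PD.eq (PT.fd 0 h_κ) (PT.const 6)) (PT.const 0) (PT.add (PT.const 3) (PT.fd 1 h_κ)))))))))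

lemma pp_grAN {G : List ℕ → ℕ} (h_G : PT G) :
    PT fun e => grAN (G e) := by
  unfold grAN
  exact (PT.ite (PD.lt h_G (PT.const 3)) (PT.mul (PT.mod (PT.add h_G (PT.const 1)) (PT.const 3)) (PT.const 2)) (PT.mul (PT.sub h_G (PT.const 3)) (PT.const 2)))

lemma pp_grBN {G : List ℕ → ℕ} (h_G : PT G) :
    PT fun e => grBN (G e) := by
  unfold grBN
  exact (PT.ite (PD.lt h_G (PT.const 3)) (PT.mul (PT.mod (PT.add h_G (PT.const 2)) (PT.const 3)) (PT.const 2)) (PT.add (PT.mul (PT.sub h_G (PT.const 3)) (PT.const 2)) (PT.const 1)))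

lemma pp_colFN {a x : List ℕ → ℕ} {q : List ℕ → Par} (hq : PP q) (h_a : PT a) (h_x : PT x) :
    PT fun e => colFN (q e) (a e) (x e) := by
  unfold colFN
  exact (PT.add (PT.mul h_a (pp_cGI hq)) (PT.cnt h_x (pd_vGI hq.tl (PT.var 0))))

lemma pp_colCN {P κ : List ℕ → ℕ} {q : List ℕ → Par} (hq : PP q) (h_P : PT P) (h_κ : PT κ) :
    PT fun e => colCN (q e) (P e) (κ e) := by
  unfold colCN
  exact (PT.add (PT.add (PT.mul (PT.add hq.d (PT.const 2)) (pp_cGI hq)) (PT.mul h_P (pp_cCl hq))) (PT.cnt h_κ (pd_vCl hq.tl (PT.var 0))))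

lemma pp_dAC {κ P : List ℕ → ℕ} {q : List ℕ → Par} (hq : PP q) (h_κ : PT κ) (h_P : PT P) :
    PT fun e => dAC (q e) (κ e) (P e) := by
  unfold dAC
  exact (PT.tupCons (pp_grAN (pp_grN h_κ)) (PT.tupCons (pp_colCN hq h_P h_κ) (PT.tupCons (PT.const 0) PT.tupNil)))

lemma pp_dBC {κ P : List ℕ → ℕ} {q : List ℕ → Par} (hq : PP q) (h_κ : PT κ) (h_P : PT P) :
    PT fun e => dBC (q e) (κ e) (P e) := by
  unfold dBC
  exact (PT.tupCons (pp_grBN (pp_grN h_κ)) (PT.tupCons (pp_colCN hq h_P h_κ) (PT.tupCons (PT.const 0) PT.tupNil)))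

lemma pp_dAF {x a : List ℕ → ℕ} {q : List ℕ → Par} (hq : PP q) (h_x : PT x) (h_a : PT a) :
    PT fun e => dAF (q e) (x e) (a e) := by
  unfold dAF
  exact (PT.tupCons (pp_grAN (PT.fd 0 h_x)) (PT.tupCons (pp_colFN hq h_a h_x) (PT.tupCons (PT.const 0) PT.tupNil)))

lemma pp_dBF {x b : List ℕ → ℕ} {q : List ℕ → Par} (hq : PP q) (h_x : PT x) (h_b : PT b) :
    PT fun e => dBF (q e) (x e) (b e) := by
  unfold dBF
  exact (PT.tupCons (pp_grBN (PT.fd 0 h_x)) (PT.tupCons (pp_colFN hq h_b h_x) (PT.tupCons (PT.const 0) PT.tupNil)))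

lemma pd_doorN {u w : List ℕ → ℕ} {q : List ℕ → Par} (hq : PP q) (h_u : PT u) (h_w : PT w) :
    PD fun e => doorN (q e) (u e) (w e) := by
  unfold doorN
  exact (PD.or (PD.bex (pp_BCl hq) (PD.and (pd_vCl hq.tl (PT.var 0)) (PD.bex (PT.const 4) (PD.and (PD.eq h_u.tl.tl (pp_dAC hq.tl.tl ((PT.var 0)).tl (PT.var 0))) (PD.eq h_w.tl.tl (pp_dBC hq.tl.tl ((PT.var 0)).tl (PT.var 0))))))) (PD.bex (pp_BGI hq) (PD.and (pd_vGI hq.tl (PT.var 0)) (PD.bex (PT.add hq.tl.d (PT.const 2)) (PD.bex (PT.add hq.tl.tl.d (PT.const 2)) (PD.and (PD.eq h_u.tl.tl.tl (pp_dAF hq.tl.tl.tl ((PT.var 0)).tl.tl ((PT.var 0)).tl)) (PD.eq h_w.tl.tl.tl (pp_dBF hq.tl.tl.tl ((PT.var 0)).tl.tl (PT.var 0)))))))))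

lemma pd_adjN {u w : List ℕ → ℕ} {q : List ℕ → Par} (hq : PP q) (h_u : PT u) (h_w : PT w) :
    PD fun e => adjN (q e) (u e) (w e) := by
  unfold adjN
  exact (PD.or (PD.and (PD.eq (PT.fd 0 h_u) (PT.fd 0 h_w)) (PD.or (PD.and (PD.eq (PT.fd 1 h_u) (PT.fd 1 h_w)) (PD.ne (PT.fd 2 h_u) (PT.fd 2 h_w))) (PD.and (PD.eq (PT.fd 2 h_u) (PT.fd 2 h_w)) (PD.or (PD.eq (PT.add (PT.fd 1 h_u) (PT.const 1)) (PT.fd 1 h_w)) (PD.eq (PT.add (PT.fd 1 h_w) (PT.const 1)) (PT.fd 1 h_u)))))) (PD.or (pd_doorN hq h_u h_w) (pd_doorN hq h_w h_u)))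

lemma pp_edN {u w : List ℕ → ℕ} (h_u : PT u) (h_w : PT w) :
    PT fun e => edN (u e) (w e) := by
  unfold edN
  exact (PT.tupCons (PT.minN h_u h_w) (PT.tupCons (PT.maxN h_u h_w) PT.tupNil))

lemma pp_coN {l : List ℕ → ℕ} (h_l : PT l) :
    PT fun e => coN (l e) := by
  unfold coN
  exact (PT.ite (PD.eq (PT.fd 0 h_l) (PT.const 0)) (PT.tupCons (PT.const 0) (PT.tupCons (PT.fd 1 h_l) (PT.tupCons (PT.fd 2 h_l) (PT.tupCons (PT.fd 3 h_l) PT.tupNil)))) (PT.ite (PD.eq (PT.fd 0 h_l) (PT.const 1)) (PT.tupCons (PT.const 1) (PT.tupCons (PT.fd 1 h_l) (PT.tupCons (PT.fd 2 h_l) PT.tupNil))) (PT.tupCons (PT.const 2) (PT.tupCons (PT.fd 1 h_l) PT.tupNil))))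

lemma pd_frN {l j : List ℕ → ℕ} {q : List ℕ → Par} (hq : PP q) (h_l : PT l) (h_j : PT j) :
    PD fun e => frN (q e) (l e) (j e) := by
  unfold frN
  exact (PD.or (PD.bex (pp_BCl hq) (PD.and (pd_vCl hq.tl (PT.var 0)) (PD.and (pd_covN hq.tl (PT.var 0) h_l.tl) (PD.bex (PT.const 4) (PD.eq h_j.tl.tl (pp_edN (pp_dAC hq.tl.tl ((PT.var 0)).tl (PT.var 0)) (pp_dBC hq.tl.tl ((PT.var 0)).tl (PT.var 0)))))))) (PD.bex (PT.const 6) (PD.bex (PT.add hq.tl.d (PT.const 2)) (PD.bex (PT.add hq.tl.tl.d (PT.const 2)) (PD.eq h_j.tl.tl.tl (pp_edN (pp_dAF hq.tl.tl.tl (PT.tupCons ((PT.var 0)).tl.tl (PT.tupCons (pp_coN h_l.tl.tl.tl) PT.tupNil)) ((PT.var 0)).tl) (pp_dBF hq.tl.tl.tl (PT.tupCons ((PT.var 0)).tl.tl (PT.tupCons (pp_coN h_l.tl.tl.tl) PT.tupNil)) (PT.var 0))))))))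

lemma pd_inEB {v j : List ℕ → ℕ} {q : List ℕ → Par} (hq : PP q) (h_v : PT v) (h_j : PT j) :
    PD fun e => inEB (q e) (v e) (j e) := by
  unfold inEB
  exact (PD.and (pd_vV hq (PT.fd 0 h_j)) (PD.and (pd_vV hq (PT.fd 1 h_j)) (PD.and (PD.eq h_j (PT.tupCons (PT.fd 0 h_j) (PT.tupCons (PT.fd 1 h_j) PT.tupNil))) (PD.and (PD.lt (PT.fd 0 h_j) (PT.fd 1 h_j)) (PD.and (PD.or (PD.eq h_v (PT.fd 0 h_j)) (PD.eq h_v (PT.fd 1 h_j))) (pd_adjN hq (PT.fd 0 h_j) (PT.fd 1 h_j)))))))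

lemma pd_inEN {k j : List ℕ → ℕ} {q : List ℕ → Par} (hq : PP q) (h_k : PT k) (h_j : PT j) :
    PD fun e => inEN (q e) (k e) (j e) := by
  unfold inEN
  exact (PD.or (PD.and (PD.eq (PT.fd 0 h_k) (PT.const 0)) (pd_inEB hq (PT.fd 1 h_k) h_j)) (PD.and (PD.eq (PT.fd 0 h_k) (PT.const 1)) (pd_frN hq (PT.fd 1 h_k) h_j)))

lemma pp_parN {tw k : List ℕ → ℕ} (h_tw : PT tw) (h_k : PT k) :
    PT fun e => parN (tw e) (k e) := by
  unfold parN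
  exact (PT.ite (PD.eq (PT.fd 0 h_k) (PT.const 0)) (PT.ite (PD.and (PD.eq h_tw (PT.const 1)) (PD.and (PD.eq (PT.fd 0 (PT.fd 1 h_k)) (PT.const 0)) (PD.and (PD.eq (PT.fd 1 (PT.fd 1 h_k)) (PT.const 0)) (PD.eq (PT.fd 2 (PT.fd 1 h_k)) (PT.const 0))))) (PT.const 1) (PT.const 0)) (PT.const 2))

lemma pp_capA {q : List ℕ → Par} (hq : PP q) :
    PT fun e => capA (q e) := by
  unfold capA
  exact (PT.pow (PT.add hq.n (PT.const 1)) 154)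

end

section XDP

variable {q : List ℕ → Par} {tw : ℕ} {a b c d₁ : List ℕ → ℕ}

lemma pp_xBc (hq : PP q) : PT fun e => (XP (q e) tw).Bc := pp_BC hq

lemma pp_xBe (hq : PP q) : PT fun e => (XP (q e) tw).Be := (PT.tb 2 (pp_BV hq)).add (PT.const 1)

lemma pp_xA (hq : PP q) : PT fun e => (XP (q e) tw).A := pp_capA hq

lemma pd_xvc (hq : PP q) (ha : PT a) : PD fun e => (XP (q e) tw).vc (a e) := pd_vC hq ha

lemma pd_xinE (hq : PP q) (ha : PT a) (hb : PT b) : PD fun e => (XP (q e) tw).inE (a e) (b e) :=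
  pd_inEN hq ha hb

lemma pp_xpar (ha : PT a) : PT fun e => (XP (q e) tw).par (a e) := pp_parN (PT.const tw) ha

lemma pp_deg (hq : PP q) (ha : PT a) : PT fun e => (XP (q e) tw).deg (a e) := by
  unfold XD.deg
  exact PT.cnt (pp_xBe hq) (pd_xinE hq.tl ha.tl (PT.var 0))

lemma pp_rkE (hq : PP q) (ha : PT a) (hb : PT b) : PT fun e => (XP (q e) tw).rkE (a e) (b e) := by
  unfold XD.rkE
  exact PT.cnt hb (pd_xinE hq.tl ha.tl (PT.var 0))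

lemma pp_nS (hq : PP q) (ha : PT a) : PT fun e => (XP (q e) tw).nS (a e) := by
  unfold XD.nS
  exact PT.powCap (pp_xA hq) (PT.const 2) (pp_deg hq ha)

lemma pp_bitE (hq : PP q) (ha : PT a) (hb : PT b) (hc : PT c) :
    PT fun e => (XP (q e) tw).bitE (a e) (b e) (c e) := by
  unfold XD.bitE
  exact PT.bt hb (pp_rkE hq ha hc)

lemma pp_parSum (hq : PP q) (ha : PT a) (hb : PT b) :
    PT fun e => (XP (q e) tw).parSum (a e) (b e) := by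
  unfold XD.parSum
  exact PT.sumIf (pp_xBe hq) (pd_xinE hq.tl ha.tl (PT.var 0)) (pp_bitE hq.tl ha.tl hb.tl (PT.var 0))

lemma pd_parOK (hq : PP q) (ha : PT a) (hb : PT b) :
    PD fun e => (XP (q e) tw).parOK (a e) (b e) := by
  unfold XD.parOK
  exact PD.or (PD.eq (pp_xpar ha) (PT.const 2))
    (PD.eq ((pp_parSum hq ha hb).mod (PT.const 2)) (pp_xpar ha))

lemma pd_nAdj (hq : PP q) (ha : PT a) (hb : PT b) (hc : PT c) (hd : PT d₁) :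
    PD fun e => (XP (q e) tw).nAdj (a e) (b e) (c e) (d₁ e) := by
  unfold XD.nAdj
  exact PD.and (PD.ne ha hc) (PD.and
    (PD.bex (pp_xBe hq) (PD.and (pd_xinE hq.tl ha.tl (PT.var 0)) (pd_xinE hq.tl hc.tl (PT.var 0))))
    (PD.ball (pp_xBe hq) (PD.imp (PD.and (pd_xinE hq.tl ha.tl (PT.var 0))
      (pd_xinE hq.tl hc.tl (PT.var 0)))
      (PD.eq (pp_bitE hq.tl ha.tl hb.tl (PT.var 0)) (pp_bitE hq.tl hc.tl hd.tl (PT.var 0))))))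

lemma pp_rkC (hq : PP q) (ha : PT a) : PT fun e => (XP (q e) tw).rkC (a e) := by
  unfold XD.rkC
  exact PT.cnt ha (pd_xvc hq.tl (PT.var 0))

lemma pp_cN (hq : PP q) : PT fun e => (XP (q e) tw).cN := by
  unfold XD.cN
  exact PT.sumIf (pp_xBc hq) (pd_xvc hq.tl (PT.var 0)) (pp_nS hq.tl (PT.var 0))

lemma pp_pN (hq : PP q) (ha : PT a) : PT fun e => (XP (q e) tw).pN (a e) := by
  unfold XD.pN
  exact ((pp_rkC hq ha).add (PT.const 1)).mul ((pp_cN hq).add (PT.const 2))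

lemma pp_md (hq : PP q) : PT fun e => (XP (q e) tw).md := by
  unfold XD.md
  exact ((pp_rkC hq (pp_xBc hq)).mul ((pp_cN hq).add (PT.const 2))).add (PT.const 1)

lemma pp_vK (hq : PP q) (ha : PT a) : PT fun e => (XP (q e) tw).vK (a e) := by
  unfold XD.vK
  exact (ha.div (pp_md hq)).div (pp_xA hq)

lemma pp_vS (hq : PP q) (ha : PT a) : PT fun e => (XP (q e) tw).vS (a e) := by
  unfold XD.vS
  exact (ha.div (pp_md hq)).mod (pp_xA hq)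

lemma pp_vI (hq : PP q) (ha : PT a) : PT fun e => (XP (q e) tw).vI (a e) := by
  unfold XD.vI
  exact ha.mod (pp_md hq)

lemma pd_good (hq : PP q) (ha : PT a) : PD fun e => (XP (q e) tw).good (a e) := by
  unfold XD.good
  have hK := pp_vK (tw := tw) hq ha
  have hS := pp_vS (tw := tw) hq ha
  exact PD.and (pd_xvc hq hK) (PD.and (PD.lt hS (pp_nS hq hK)) (PD.and (pd_parOK hq hK hS)
    (PD.le (pp_vI hq ha) (pp_pN hq hK))))

lemma pp_xL (hq : PP q) : PT fun e => (XP (q e) tw).L := by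
  unfold XD.L
  exact (((pp_xBc hq).mul (pp_xA hq)).add (pp_xA hq)).mul (pp_md hq)

lemma pd_adjV (hq : PP q) (ha : PT a) (hb : PT b) :
    PD fun e => (XP (q e) tw).adjV (a e) (b e) := by
  unfold XD.adjV
  have h1 := pp_vI (tw := tw) hq ha
  have h2 := pp_vI (tw := tw) hq hb
  exact PD.or (PD.and (PD.eq h1 (PT.const 0)) (PD.and (PD.eq h2 (PT.const 0))
      (pd_nAdj hq (pp_vK hq ha) (pp_vS hq ha) (pp_vK hq hb) (pp_vS hq hb))))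
    (PD.and (PD.eq (ha.div (pp_md hq)) (hb.div (pp_md hq)))
      (PD.or (PD.and (PD.eq h1 (PT.const 0)) (PD.ne h2 (PT.const 0)))
        (PD.and (PD.ne h1 (PT.const 0)) (PD.eq h2 (PT.const 0)))))

open Classical in
/-- The adjacency matrix of the numeric graph is produced by a program. -/
theorem word_ps (hq : PP q) (tw : ℕ) :
    PS fun e => wordOf (XP (q e) tw).L (XP (q e) tw).good (XP (q e) tw).adjV := by
  have hL := pp_xL (tw := tw) hq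
  have h := PS.flat hL (PS.ifS (pd_good (tw := tw) hq.tl (PT.var 0))
    (PS.flat hL.tl (PS.ifS (pd_good (tw := tw) hq.tl.tl (PT.var 0))
      (PS.emit (pd_adjV (tw := tw) hq.tl.tl (PT.var 0).tl (PT.var 0))))))
  exact h.of_eq fun e => rfl

end XDP

/-- The parameters computed from the two input numbers. -/
def parOf (a n : ℕ) : Par where
  σ := fd 0 a
  L := fd 1 a
  d := fd 2 a
  n := n
  C := a
  T := fd 3 a
  TA := fd 4 a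
  bl := fd 5 a
  c0 := fd 6 a
  c1 := fd 7 a
  c2 := fd 8 a

section

attribute [local irreducible] fd

lemma pp_parOf : PP fun e => parOf (v 0 e) (v 1 e) where
  σ := show PT fun e => fd 0 (v 0 e) from PT.fd 0 (PT.var 0)
  L := show PT fun e => fd 1 (v 0 e) from PT.fd 1 (PT.var 0)
  d := show PT fun e => fd 2 (v 0 e) from PT.fd 2 (PT.var 0)
  n := show PT fun e => v 1 e from PT.var 1
  C := show PT fun e => v 0 e from PT.var 0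
  T := show PT fun e => fd 3 (v 0 e) from PT.fd 3 (PT.var 0)
  TA := show PT fun e => fd 4 (v 0 e) from PT.fd 4 (PT.var 0)
  bl := show PT fun e => fd 5 (v 0 e) from PT.fd 5 (PT.var 0)
  c0 := show PT fun e => fd 6 (v 0 e) from PT.fd 6 (PT.var 0)
  c1 := show PT fun e => fd 7 (v 0 e) from PT.fd 7 (PT.var 0)
  c2 := show PT fun e => fd 8 (v 0 e) from PT.fd 8 (PT.var 0)

end

/-- The two adjacency matrices for the parameters. -/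
noncomputable def wordPar (p : Par) : List Bool :=
  wordOf (XP p 0).L (XP p 0).good (XP p 0).adjV ++ wordOf (XP p 1).L (XP p 1).good (XP p 1).adjV

/-- The builder: a fixed program with polynomially many steps that computes the two adjacency
matrices from the two input numbers. -/
theorem exists_builder : ∃ (P : St) (c₁ : ℕ), (∀ a n, P.out [a, n] = wordPar (parOf a n)) ∧
    ∀ a n, P.cost [a, n] ≤ (a + n + 2) ^ c₁ := by
  obtain ⟨P, h1, c₁, h2⟩ := (word_ps pp_parOf 0).append (word_ps pp_parOf 1)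
  refine ⟨P, c₁, fun a n => h1 _, fun a n => ?_⟩
  have := h2 [a, n]
  simpa using this

end Vale.Agent.Lib.P310F
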