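import Vale.Agent.Lib.P310F.Ex

/-!
Compilation of expressions to structured counter programs.
-/

namespace Vale.Agent.Lib.P310F

open Finset SP

namespace Ex

/-- The program of an expression: `ρ` gives the registers of the environment, the value is added to
register `T`, and the registers from `F` on are free. -/
def comp : List ℕ → Ex → ℕ → ℕ → SP
  | ρ, var i, T, F =>
    match ρ[i]? with
    | none => skip
    | some R => seq (move2 R T F) (move F R)
  | _, const c, T, _ => incs T c
  | ρ, add a b, T, F => seq (comp ρ a T F) (comp ρ b T F)
  | ρ, sub a b, T, F =>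
    seq (comp ρ a F (F + 2)) (seq (comp ρ b (F + 1) (F + 2))
      (seq (wh (F + 1) (seq (dec (F + 1)) (dec F))) (move F T)))
  | ρ, ifz c a b, T, F =>
    seq (comp ρ c F (F + 2)) (seq (inc (F + 1))
      (seq (wh F (seq (clear F) (seq (dec (F + 1)) (comp ρ b T (F + 2)))))
        (wh (F + 1) (seq (dec (F + 1)) (comp ρ a T (F + 2))))))
  | ρ, sum b s, T, F =>
    seq (comp ρ b F (F + 2))
      (seq (wh F (seq (dec F) (seq (comp ((F + 1) :: ρ) s T (F + 2)) (inc (F + 1)))))
        (clear (F + 1)))
  | ρ, drop a, T, F => comp ρ.tail a T F
  | ρ, letE a b, T, F => seq (comp ρ a F (F + 1)) (seq (comp (F :: ρ) b T (F + 1)) (clear F))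
  | ρ, iter n a s, T, F =>
    seq (comp ρ n F (F + 4)) (seq (comp ρ a (F + 1) (F + 4))
      (seq (wh F (seq (dec F) (seq (comp ((F + 2) :: (F + 1) :: ρ) s (F + 3) (F + 4))
        (seq (clear (F + 1)) (seq (move (F + 3) (F + 1)) (inc (F + 2)))))))
        (seq (clear (F + 2)) (move (F + 1) T))))

/-- The conditions under which the program of an expression runs correctly. -/
structure Good (ρ env : List ℕ) (T F : ℕ) (s : ℕ → ℕ) : Prop where
  agree : List.Forall₂ (fun R x => s R = x) ρ env
  lt : ∀ R ∈ ρ, R < F
  tne : ∀ R ∈ ρ, R ≠ T
  tlt : T < F
  zero : ∀ j, F ≤ j → s j = 0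

lemma agree_congr {ρ env : List ℕ} {s s' : ℕ → ℕ} (h : List.Forall₂ (fun R x => s R = x) ρ env)
    (h' : ∀ R ∈ ρ, s' R = s R) : List.Forall₂ (fun R x => s' R = x) ρ env := by
  induction h with
  | nil => exact List.Forall₂.nil
  | cons h1 _ ih =>
    refine List.Forall₂.cons ?_ (ih fun R hR => h' R (List.mem_cons_of_mem _ hR))
    rw [h' _ List.mem_cons_self, h1]

lemma agree_some {ρ env : List ℕ} {s : ℕ → ℕ} (h : List.Forall₂ (fun R x => s R = x) ρ env)
    {i R : ℕ} (hi : ρ[i]? = some R) : s R = v i env := by
  induction h generalizing i with
  | nil => simp at hi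
  | cons h1 _ ih =>
    cases i with
    | zero =>
      simp only [List.getElem?_cons_zero, Option.some.injEq] at hi
      subst hi
      exact h1
    | succ i =>
      simp only [List.getElem?_cons_succ] at hi
      exact ih hi

lemma agree_none {ρ env : List ℕ} {s : ℕ → ℕ} (h : List.Forall₂ (fun R x => s R = x) ρ env)
    {i : ℕ} (hi : ρ[i]? = none) : v i env = 0 := by
  induction h generalizing i with
  | nil => cases i <;> rfl
  | cons h1 _ ih =>
    cases i with
    | zero => simp at hi
    | succ i =>
      simp only [List.getElem?_cons_succ] at hi
      exact ih hi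

lemma Good.sub_call {ρ env : List ℕ} {T F : ℕ} {s : ℕ → ℕ} (h : Good ρ env T F s) {T' F' : ℕ}
    {s' : ℕ → ℕ} (hT : F ≤ T' ∨ T' = T) (hT' : T' < F') (hF : F ≤ F')
    (hs : ∀ j, j < F → s' j = s j ∨ j = T) (hz : ∀ j, F' ≤ j → s' j = 0) : Good ρ env T' F' s' := by
  refine ⟨agree_congr h.agree fun R hR => ?_, fun R hR => lt_of_lt_of_le (h.lt R hR) hF,
    fun R hR he => ?_, hT', hz⟩
  · rcases hs R (h.lt R hR) with e | e
    · exact e
    · exact absurd e (h.tne R hR)
  · have h1 := h.lt R hR
    have h2 := h.tne R hR
    rcases hT with e | e <;> omega

/-- The program of an expression adds its value to register `T` and changes nothing else. -/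
theorem comp_run (e : Ex) : ∀ (ρ env : List ℕ) (T F : ℕ) (s : ℕ → ℕ) (o : List Bool),
    Good ρ env T F s → ∃ t, t ≤ cost e env ∧
      SP.Run (comp ρ e T F) s o (Function.update s T (s T + eval e env)) o t := by
  induction e with
  | var i =>
    intro ρ env T F s o h
    simp only [comp, eval, cost]
    rcases hi : ρ[i]? with _ | R
    · simp only
      refine ⟨0, by omega, (Run.skip s o).eq ?_ rfl rfl⟩
      rw [agree_none h.agree hi]
      simp
    · simp only
      have hm : R ∈ ρ := List.mem_of_getElem? hi
      have h1 := h.lt R hm
      have h2 := h.tne R hm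
      have h3 := h.tlt
      have h4 := h.zero F le_rfl
      have hv := agree_some h.agree hi
      have r1 := run_move2 (R := R) (A := T) (B := F) h2 (by omega) (by omega) (s R) s o rfl
      have r2 := run_move (R := F) (A := R) (by omega) (s R) _ o
        (by simp [Function.update_apply, h4] :
          (Function.update (Function.update (Function.update s R 0) T (s T + s R)) F (s F + s R)) F
            = s R)
      refine ⟨_, ?_, (Run.seq r1 r2).eq ?_ rfl rfl⟩
      · rw [← hv]
        omega
      · rw [← hv]
        funext j
        simp only [Function.update_apply]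
        have e1 : ¬ R = T := h2
        have e2 : ¬ F = R := by omega
        have e3 : ¬ R = F := by omega
        simp only [e1, e2, e3, if_false, if_true]
        split_ifs <;> simp_all <;> omega
  | const c =>
    intro ρ env T F s o h
    exact ⟨c, le_rfl, run_incs T c s o⟩
  | add a b iha ihb =>
    intro ρ env T F s o h
    obtain ⟨t1, h1, r1⟩ := iha ρ env T F s o h
    obtain ⟨t2, h2, r2⟩ := ihb ρ env T F _ o (h.sub_call (s' := Function.update s T (s T + eval a env))
      (Or.inr rfl) h.tlt le_rfl (fun j _ => by
        by_cases e : j = T
        · exact Or.inr e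
        · exact Or.inl (Function.update_of_ne e _ _)) (fun j hj => by
        rw [Function.update_of_ne (by have := h.tlt; omega)]
        exact h.zero j hj))
    refine ⟨t1 + t2, Nat.add_le_add h1 h2, (Run.seq r1 r2).eq ?_ rfl rfl⟩
    simp only [Function.update_self, Function.update_idem, eval]
    congr 1
    omega
  | sub a b iha ihb =>
    intro ρ env T F s o h
    have hF0 := h.zero F le_rfl
    have hF1 := h.zero (F + 1) (by omega)
    have hTF := h.tlt
    obtain ⟨t1, h1, r1⟩ := iha ρ env F (F + 2) s o (h.sub_call (Or.inl le_rfl) (by omega) (by omega)
      (fun j _ => Or.inl rfl) (fun j hj => h.zero j (by omega)))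
    set s1 := Function.update s F (s F + eval a env) with hs1
    obtain ⟨t2, h2, r2⟩ := ihb ρ env (F + 1) (F + 2) s1 o (h.sub_call (Or.inl (by omega)) (by omega)
      (by omega) (fun j hj => Or.inl (Function.update_of_ne (by omega) _ _))
      (fun j hj => by
        rw [hs1, Function.update_of_ne (by omega)]
        exact h.zero j (by omega)))
    set s2 := Function.update s1 (F + 1) (s1 (F + 1) + eval b env) with hs2
    have loop : ∀ (k : ℕ) (u : ℕ → ℕ), u (F + 1) = k →
        SP.Run (wh (F + 1) (seq (dec (F + 1)) (dec F))) u o
          (Function.update (Function.update u (F + 1) 0) F (u F - k)) o (4 * k + 1) := by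
      intro k
      induction k with
      | zero =>
        intro u hu
        refine (Run.wh0 hu).eq ?_ rfl (by omega)
        funext j
        simp only [Function.update_apply]
        split_ifs <;> simp_all
      | succ k ih =>
        intro u hu
        have e1 := Run.seq (Run.dec (F + 1) u o) (Run.dec F (Function.update u (F + 1) (u (F + 1) - 1)) o)
        have e2 := ih (Function.update (Function.update u (F + 1) (u (F + 1) - 1)) F
          (Function.update u (F + 1) (u (F + 1) - 1) F - 1)) (by
            simp [Function.update_apply, hu])
        refine (Run.whS (by omega) e1 e2).eq ?_ rfl (by omega)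
        funext j
        simp only [Function.update_apply]
        have e3 : ¬ F = F + 1 := by omega
        simp only [e3, if_false, if_true]
        split_ifs <;> omega
    have hs2a : s2 (F + 1) = eval b env := by
      simp [hs2, hs1, Function.update_apply, hF1]
    have r3 := loop (eval b env) s2 hs2a
    set s3 := Function.update (Function.update s2 (F + 1) 0) F (s2 F - eval b env) with hs3
    have hs3F : s3 F = eval a env - eval b env := by
      simp [hs3, hs2, hs1, Function.update_apply, hF0]
    have r4 := run_move (R := F) (A := T) (by omega) (eval a env - eval b env) s3 o hs3F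
    refine ⟨_, ?_, (Run.seq r1 (Run.seq r2 (Run.seq r3 r4))).eq ?_ rfl rfl⟩
    · simp only [cost]
      omega
    · funext j
      simp only [hs3, hs2, hs1, Function.update_apply, eval]
      have e1 : ¬ F = F + 1 := by omega
      have e2 : ¬ T = F := by omega
      have e3 : ¬ T = F + 1 := by omega
      simp only [e1, e2, e3, if_false, if_true]
      split_ifs <;> simp_all <;> omega
  | ifz c a b ihc iha ihb =>
    intro ρ env T F s o h
    have hF0 := h.zero F le_rfl
    have hF1 := h.zero (F + 1) (by omega)
    have hTF := h.tlt
    obtain ⟨t1, h1, r1⟩ := ihc ρ env F (F + 2) s o (h.sub_call (Or.inl le_rfl) (by omega) (by omega)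
      (fun j _ => Or.inl rfl) (fun j hj => h.zero j (by omega)))
    set s1 := Function.update s F (s F + eval c env) with hs1
    have hz1 : ∀ j, F + 2 ≤ j → s1 j = 0 := fun j hj => by
      rw [hs1, Function.update_of_ne (by omega)]
      exact h.zero j (by omega)
    have r2 := Run.inc (F + 1) s1 o
    set s2 := Function.update s1 (F + 1) (s1 (F + 1) + 1) with hs2
    have hs2F : s2 F = eval c env := by
      simp [hs2, hs1, Function.update_apply, hF0]
    have hs2F1 : s2 (F + 1) = 1 := by
      simp [hs2, hs1, Function.update_apply, hF1]
    have hz2 : ∀ j, F + 2 ≤ j → s2 j = 0 := fun j hj => by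
      rw [hs2, Function.update_of_ne (by omega)]
      exact hz1 j hj
    by_cases hc : eval c env = 0
    · have r3 : SP.Run (wh F (seq (clear F) (seq (dec (F + 1)) (comp ρ b T (F + 2))))) s2 o s2 o 1 :=
        Run.wh0 (by rw [hs2F, hc])
      have r4 := Run.dec (F + 1) s2 o
      set s3 := Function.update s2 (F + 1) (s2 (F + 1) - 1) with hs3
      obtain ⟨t5, h5, r5⟩ := iha ρ env T (F + 2) s3 o (h.sub_call (Or.inr rfl) (by omega) (by omega)
        (fun j hj => Or.inl (by
          rw [hs3, Function.update_of_ne (by omega), hs2, Function.update_of_ne (by omega), hs1,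
            Function.update_of_ne (by omega)]))
        (fun j hj => by
          rw [hs3, Function.update_of_ne (by omega)]
          exact hz2 j hj))
      set s4 := Function.update s3 T (s3 T + eval a env) with hs4
      have r6 : SP.Run (wh (F + 1) (seq (dec (F + 1)) (comp ρ a T (F + 2)))) s4 o s4 o 1 :=
        Run.wh0 (by
          rw [hs4, Function.update_of_ne (by omega), hs3]
          simp [hs2F1])
      have r7 := Run.whS (by omega) (Run.seq r4 r5) r6
      refine ⟨_, ?_, (Run.seq r1 (Run.seq r2 (Run.seq r3 r7))).eq ?_ rfl rfl⟩
      · simp only [cost]
        omega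
      · funext j
        simp only [hs4, hs3, hs2, hs1, Function.update_apply, eval, hc, if_true]
        have e1 : ¬ F = F + 1 := by omega
        have e2 : ¬ T = F := by omega
        have e3 : ¬ T = F + 1 := by omega
        simp only [e1, e2, e3, if_false, if_true]
        split_ifs <;> simp_all
    · have r3 := run_clear F (eval c env) s2 o hs2F
      have r4 := Run.dec (F + 1) (Function.update s2 F 0) o
      set s3 := Function.update (Function.update s2 F 0) (F + 1)
        (Function.update s2 F 0 (F + 1) - 1) with hs3
      obtain ⟨t5, h5, r5⟩ := ihb ρ env T (F + 2) s3 o (h.sub_call (Or.inr rfl) (by omega) (by omega)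
        (fun j hj => Or.inl (by
          rw [hs3, Function.update_of_ne (by omega), Function.update_of_ne (by omega), hs2,
            Function.update_of_ne (by omega), hs1, Function.update_of_ne (by omega)]))
        (fun j hj => by
          rw [hs3, Function.update_of_ne (by omega), Function.update_of_ne (by omega)]
          exact hz2 j hj))
      set s4 := Function.update s3 T (s3 T + eval b env) with hs4
      have hs4F : s4 F = 0 := by
        rw [hs4, Function.update_of_ne (by omega), hs3, Function.update_of_ne (by omega)]
        simp
      have hs4F1 : s4 (F + 1) = 0 := by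
        rw [hs4, Function.update_of_ne (by omega), hs3]
        simp [Function.update_apply, hs2F1]
      have r6 : SP.Run (wh F (seq (clear F) (seq (dec (F + 1)) (comp ρ b T (F + 2))))) s4 o s4 o 1 :=
        Run.wh0 hs4F
      have r7 := Run.whS (by omega) (Run.seq r3 (Run.seq r4 r5)) r6
      have r8 : SP.Run (wh (F + 1) (seq (dec (F + 1)) (comp ρ a T (F + 2)))) s4 o s4 o 1 :=
        Run.wh0 hs4F1
      refine ⟨_, ?_, (Run.seq r1 (Run.seq r2 (Run.seq r7 r8))).eq ?_ rfl rfl⟩
      · simp only [cost]
        omega
      · funext j
        simp only [hs4, hs3, hs2, hs1, Function.update_apply, eval, hc, if_false]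
        have e1 : ¬ F = F + 1 := by omega
        have e2 : ¬ T = F := by omega
        have e3 : ¬ T = F + 1 := by omega
        simp only [e1, e2, e3, if_false, if_true]
        split_ifs <;> simp_all
  | sum b a ihb iha =>
    intro ρ env T F s o h
    have hF0 := h.zero F le_rfl
    have hF1 := h.zero (F + 1) (by omega)
    have hTF := h.tlt
    obtain ⟨t1, h1, r1⟩ := ihb ρ env F (F + 2) s o (h.sub_call (Or.inl le_rfl) (by omega) (by omega)
      (fun j _ => Or.inl rfl) (fun j hj => h.zero j (by omega)))
    set s1 := Function.update s F (s F + eval b env) with hs1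
    have hz : ∀ (u : ℕ → ℕ) (i : ℕ), (∀ j, j < F → u j = s j ∨ j = T) → (∀ j, F + 2 ≤ j → u j = 0) →
        u (F + 1) = i → Good ((F + 1) :: ρ) (i :: env) T (F + 2) u := by
      intro u i hu hu2 hu3
      have g := h.sub_call (T' := T) (F' := F + 2) (s' := u) (Or.inr rfl) (by omega) (by omega) hu hu2
      refine ⟨List.Forall₂.cons hu3 g.agree, fun R hR => ?_, fun R hR => ?_, by omega, hu2⟩
      · rcases List.mem_cons.mp hR with rfl | hR
        · omega
        · exact g.lt R hR
      · rcases List.mem_cons.mp hR with rfl | hR
        · omega
        · exact g.tne R hR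
    have loop : ∀ (k i : ℕ) (u : ℕ → ℕ), u F = k → u (F + 1) = i → (∀ j, j < F → j ≠ T → u j = s j) →
        (∀ j, F + 2 ≤ j → u j = 0) → u T = s T + ∑ x ∈ range i, eval a (x :: env) →
        ∃ t, t + (∑ x ∈ range i, (cost a (x :: env) + 4)) ≤
            (∑ x ∈ range (i + k), (cost a (x :: env) + 4)) + 1 ∧
          SP.Run (wh F (seq (dec F) (seq (comp ((F + 1) :: ρ) a T (F + 2)) (inc (F + 1))))) u o
            (Function.update (Function.update (Function.update u F 0) (F + 1) (i + k)) T
              (s T + ∑ x ∈ range (i + k), eval a (x :: env))) o t := by
      intro k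
      induction k with
      | zero =>
        intro i u hu1 hu2 hu3 hu4 hu5
        refine ⟨1, by simp; omega, (Run.wh0 hu1).eq ?_ rfl rfl⟩
        funext j
        simp only [Function.update_apply, Nat.add_zero]
        split_ifs with e1 e2 e3
        · rw [e1, hu5]
        · rw [e2, hu2]
        · rw [e3, hu1]
        · rfl
      | succ k ih =>
        intro i u hu1 hu2 hu3 hu4 hu5
        have r2 := Run.dec F u o
        set u1 := Function.update u F (u F - 1) with hu1'
        obtain ⟨t3, h3, r3⟩ := iha ((F + 1) :: ρ) (i :: env) T (F + 2) u1 o
          (hz u1 i (fun j hj => by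
            by_cases e : j = T
            · exact Or.inr e
            · left
              rw [hu1', Function.update_of_ne (by omega)]
              exact hu3 j hj e) (fun j hj => by
            rw [hu1', Function.update_of_ne (by omega)]
            exact hu4 j hj) (by rw [hu1', Function.update_of_ne (by omega)]; exact hu2))
        set u2 := Function.update u1 T (u1 T + eval a (i :: env)) with hu2'
        have r4 := Run.inc (F + 1) u2 o
        set u3 := Function.update u2 (F + 1) (u2 (F + 1) + 1) with hu3'
        obtain ⟨t5, h5, r5⟩ := ih (i + 1) u3
          (by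
            rw [hu3', Function.update_of_ne (by omega), hu2', Function.update_of_ne (by omega), hu1']
            simp [hu1])
          (by
            rw [hu3']
            simp only [Function.update_self]
            rw [hu2', Function.update_of_ne (by omega), hu1', Function.update_of_ne (by omega), hu2])
          (fun j hj hjT => by
            rw [hu3', Function.update_of_ne (by omega), hu2', Function.update_of_ne (by omega), hu1',
              Function.update_of_ne (by omega)]
            exact hu3 j hj hjT)
          (fun j hj => by
            rw [hu3', Function.update_of_ne (by omega), hu2', Function.update_of_ne (by omega), hu1',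
              Function.update_of_ne (by omega)]
            exact hu4 j hj)
          (by
            rw [hu3', Function.update_of_ne (by omega), hu2']
            simp only [Function.update_self]
            rw [hu1', Function.update_of_ne (by omega), hu5, Finset.sum_range_succ]
            omega)
        have r6 := Run.whS (by omega) (Run.seq r2 (Run.seq r3 r4)) r5
        refine ⟨_, ?_, r6.eq ?_ rfl rfl⟩
        · have e1 : i + 1 + k = i + (k + 1) := by omega
          rw [e1, Finset.sum_range_succ (fun x => cost a (x :: env) + 4) i] at h5
          omega
        · have e1 : i + 1 + k = i + (k + 1) := by omega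
          rw [e1]
          funext j
          simp only [hu3', hu2', hu1', Function.update_apply]
          split_ifs <;> first | rfl | omega
    obtain ⟨t2, h2, r2⟩ := loop (eval b env) 0 s1
      (by simp [hs1, hF0]) (by rw [hs1, Function.update_of_ne (by omega)]; exact hF1)
      (fun j hj _ => by rw [hs1, Function.update_of_ne (by omega)])
      (fun j hj => by
        rw [hs1, Function.update_of_ne (by omega)]
        exact h.zero j (by omega))
      (by
        rw [hs1, Function.update_of_ne (by omega)]
        simp)
    simp only [Finset.range_zero, Finset.sum_empty, Nat.zero_add, Nat.add_zero] at h2 r2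
    have r3 := run_clear (F + 1) (eval b env) _ o (by
      simp [Function.update_apply] ; omega :
      (Function.update (Function.update (Function.update s1 F 0) (F + 1) (eval b env)) T
        (s T + ∑ x ∈ range (eval b env), eval a (x :: env))) (F + 1) = eval b env)
    refine ⟨_, ?_, (Run.seq r1 (Run.seq r2 r3)).eq ?_ rfl rfl⟩
    · simp only [cost]
      omega
    · funext j
      simp only [hs1, Function.update_apply, eval]
      split_ifs <;> first | rfl | simp_all | omega
  | drop a ih =>
    intro ρ env T F s o h
    have g : Good ρ.tail env.tail T F s := by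
      refine ⟨?_, fun R hR => h.lt R (List.mem_of_mem_tail hR),
        fun R hR => h.tne R (List.mem_of_mem_tail hR), h.tlt, h.zero⟩
      cases h.agree with
      | nil => exact List.Forall₂.nil
      | cons _ h2 => exact h2
    exact ih ρ.tail env.tail T F s o g
  | letE a b iha ihb =>
    intro ρ env T F s o h
    have hF0 := h.zero F le_rfl
    have hTF := h.tlt
    obtain ⟨t1, h1, r1⟩ := iha ρ env F (F + 1) s o (h.sub_call (Or.inl le_rfl) (by omega) (by omega)
      (fun j _ => Or.inl rfl) (fun j hj => h.zero j (by omega)))
    set s1 := Function.update s F (s F + eval a env) with hs1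
    have g0 := h.sub_call (T' := T) (F' := F + 1) (s' := s1) (Or.inr rfl) (by omega) (by omega)
      (fun j hj => Or.inl (Function.update_of_ne (by omega) _ _))
      (fun j hj => by
        rw [hs1, Function.update_of_ne (by omega)]
        exact h.zero j (by omega))
    have g : Good (F :: ρ) (eval a env :: env) T (F + 1) s1 := by
      refine ⟨List.Forall₂.cons (by simp [hs1, hF0]) g0.agree, fun R hR => ?_, fun R hR => ?_,
        by omega, g0.zero⟩
      · rcases List.mem_cons.mp hR with rfl | hR
        · omega
        · exact g0.lt R hR
      · rcases List.mem_cons.mp hR with rfl | hR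
        · omega
        · exact g0.tne R hR
    obtain ⟨t2, h2, r2⟩ := ihb (F :: ρ) (eval a env :: env) T (F + 1) s1 o g
    have r3 := run_clear F (eval a env) (Function.update s1 T (s1 T + eval b (eval a env :: env))) o (by
      rw [Function.update_of_ne (by omega)]
      simp [hs1, hF0])
    refine ⟨_, ?_, (Run.seq r1 (Run.seq r2 r3)).eq ?_ rfl rfl⟩
    · simp only [cost]
      omega
    · funext j
      simp only [hs1, Function.update_apply, eval]
      have e2 : ¬ T = F := by omega
      simp only [e2, if_false]
      split_ifs <;> simp_all
  | iter n a b ihn iha ihb =>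
    intro ρ env T F s o h
    have hF0 := h.zero F le_rfl
    have hF1 := h.zero (F + 1) (by omega)
    have hF2 := h.zero (F + 2) (by omega)
    have hF3 := h.zero (F + 3) (by omega)
    have hTF := h.tlt
    obtain ⟨t1, h1, r1⟩ := ihn ρ env F (F + 4) s o (h.sub_call (Or.inl le_rfl) (by omega) (by omega)
      (fun j _ => Or.inl rfl) (fun j hj => h.zero j (by omega)))
    set s1 := Function.update s F (s F + eval n env) with hs1
    obtain ⟨t2, h2, r2⟩ := iha ρ env (F + 1) (F + 4) s1 o (h.sub_call (Or.inl (by omega)) (by omega)
      (by omega) (fun j hj => Or.inl (Function.update_of_ne (by omega) _ _))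
      (fun j hj => by
        rw [hs1, Function.update_of_ne (by omega)]
        exact h.zero j (by omega)))
    set s2 := Function.update s1 (F + 1) (s1 (F + 1) + eval a env) with hs2
    set f : ℕ → ℕ → ℕ := fun i x => eval b (i :: x :: env) with hf
    set X : ℕ → ℕ := fun i => iterF f (eval a env) i with hX
    have hXs : ∀ i, X (i + 1) = eval b (i :: X i :: env) := fun i => rfl
    set C : ℕ → ℕ := fun x => cost b (x :: X x :: env) + 3 * X x + 4 * X (x + 1) + 6 with hC
    have loop : ∀ (k i : ℕ) (u : ℕ → ℕ), u F = k → u (F + 1) = X i → u (F + 2) = i → u (F + 3) = 0 →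
        (∀ j, j < F → u j = s j) → (∀ j, F + 4 ≤ j → u j = 0) →
        ∃ t, t + (∑ x ∈ range i, C x) ≤ (∑ x ∈ range (i + k), C x) + 1 ∧
          SP.Run (wh F (seq (dec F) (seq (comp ((F + 2) :: (F + 1) :: ρ) b (F + 3) (F + 4))
            (seq (clear (F + 1)) (seq (move (F + 3) (F + 1)) (inc (F + 2))))))) u o
            (Function.update (Function.update (Function.update u F 0) (F + 1) (X (i + k))) (F + 2)
              (i + k)) o t := by
      intro k
      induction k with
      | zero =>
        intro i u hu1 hu2 hu3 hu4 hu5 hu6
        refine ⟨1, by simp; omega, (Run.wh0 hu1).eq ?_ rfl rfl⟩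
        funext j
        simp only [Function.update_apply, Nat.add_zero]
        split_ifs with e1 e2 e3
        · rw [e1, hu3]
        · rw [e2, hu2]
        · rw [e3, hu1]
        · rfl
      | succ k ih =>
        intro i u hu1 hu2 hu3 hu4 hu5 hu6
        have r3 := Run.dec F u o
        set u1 := Function.update u F (u F - 1) with hu1'
        have g0 := h.sub_call (T' := F + 3) (F' := F + 4) (s' := u1) (Or.inl (by omega)) (by omega)
          (by omega) (fun j hj => Or.inl (by
            rw [hu1', Function.update_of_ne (by omega)]
            exact hu5 j hj)) (fun j hj => by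
            rw [hu1', Function.update_of_ne (by omega)]
            exact hu6 j hj)
        have g : Good ((F + 2) :: (F + 1) :: ρ) (i :: X i :: env) (F + 3) (F + 4) u1 := by
          refine ⟨List.Forall₂.cons ?_ (List.Forall₂.cons ?_ g0.agree), fun R hR => ?_, fun R hR => ?_,
            by omega, g0.zero⟩
          · rw [hu1', Function.update_of_ne (by omega)]
            exact hu3
          · rw [hu1', Function.update_of_ne (by omega)]
            exact hu2
          · simp only [List.mem_cons] at hR
            rcases hR with rfl | rfl | hR
            · omega
            · omega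
            · exact g0.lt R hR
          · simp only [List.mem_cons] at hR
            rcases hR with rfl | rfl | hR
            · omega
            · omega
            · exact g0.tne R hR
        obtain ⟨t4, h4, r4⟩ := ihb _ _ _ _ u1 o g
        set u2 := Function.update u1 (F + 3) (u1 (F + 3) + eval b (i :: X i :: env)) with hu2'
        have hu2R : u2 (F + 1) = X i := by
          rw [hu2', Function.update_of_ne (by omega), hu1', Function.update_of_ne (by omega)]
          exact hu2
        have r5 := run_clear (F + 1) (X i) u2 o hu2R
        set u3 := Function.update u2 (F + 1) 0 with hu3'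
        have hu3Y : u3 (F + 3) = X (i + 1) := by
          rw [hu3', Function.update_of_ne (by omega), hu2']
          simp only [Function.update_self]
          rw [hu1', Function.update_of_ne (by omega), hu4, Nat.zero_add, hXs]
        have r6 := run_move (R := F + 3) (A := F + 1) (by omega) (X (i + 1)) u3 o hu3Y
        set u4 := Function.update (Function.update u3 (F + 3) 0) (F + 1) (u3 (F + 1) + X (i + 1))
          with hu4'
        have r7 := Run.inc (F + 2) u4 o
        set u5 := Function.update u4 (F + 2) (u4 (F + 2) + 1) with hu5'
        obtain ⟨t8, h8, r8⟩ := ih (i + 1) u5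
          (by
            simp only [hu5', hu4', hu3', hu2', hu1', Function.update_apply]
            simp [hu1])
          (by
            simp only [hu5', hu4', hu3', Function.update_apply]
            simp)
          (by
            simp only [hu5', hu4', hu3', hu2', hu1', Function.update_apply]
            simp [hu3])
          (by
            simp only [hu5', hu4', hu3', Function.update_apply]
            simp)
          (fun j hj => by
            simp only [hu5', hu4', hu3', hu2', hu1', Function.update_apply]
            have e1 : ¬ j = F + 2 := by omega
            have e2 : ¬ j = F + 1 := by omega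
            have e3 : ¬ j = F + 3 := by omega
            have e4 : ¬ j = F := by omega
            simp only [e1, e2, e3, e4, if_false]
            exact hu5 j hj)
          (fun j hj => by
            simp only [hu5', hu4', hu3', hu2', hu1', Function.update_apply]
            have e1 : ¬ j = F + 2 := by omega
            have e2 : ¬ j = F + 1 := by omega
            have e3 : ¬ j = F + 3 := by omega
            have e4 : ¬ j = F := by omega
            simp only [e1, e2, e3, e4, if_false]
            exact hu6 j hj)
        have r9 := Run.whS (by omega) (Run.seq r3 (Run.seq r4 (Run.seq r5 (Run.seq r6 r7)))) r8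
        refine ⟨_, ?_, r9.eq ?_ rfl rfl⟩
        · have e1 : i + 1 + k = i + (k + 1) := by omega
          rw [e1, Finset.sum_range_succ C i] at h8
          simp only [hC] at h8 ⊢
          omega
        · have e1 : i + 1 + k = i + (k + 1) := by omega
          rw [e1]
          funext j
          by_cases e3 : j = F + 3
          · subst e3
            simp only [hu5', hu4', Function.update_apply]
            simp [hu4]
          · simp only [hu5', hu4', hu3', hu2', hu1', Function.update_apply]
            split_ifs <;> first | rfl | omega
    have hX0 : X 0 = eval a env := rfl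
    obtain ⟨t3, h3, r3⟩ := loop (eval n env) 0 s2
      (by simp [hs2, hs1, Function.update_apply, hF0])
      (by simp [hs2, hs1, Function.update_apply, hF1, hX0])
      (by simp [hs2, hs1, Function.update_apply, hF2])
      (by simp [hs2, hs1, Function.update_apply, hF3])
      (fun j hj => by
        rw [hs2, Function.update_of_ne (by omega), hs1, Function.update_of_ne (by omega)])
      (fun j hj => by
        rw [hs2, Function.update_of_ne (by omega), hs1, Function.update_of_ne (by omega)]
        exact h.zero j (by omega))
    simp only [Finset.range_zero, Finset.sum_empty, Nat.zero_add, Nat.add_zero] at h3 r3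
    set s3 := Function.update (Function.update (Function.update s2 F 0) (F + 1) (X (eval n env))) (F + 2)
      (eval n env) with hs3
    have r4 := run_clear (F + 2) (eval n env) s3 o (by simp [hs3])
    set s4 := Function.update s3 (F + 2) 0 with hs4
    have r5 := run_move (R := F + 1) (A := T) (by omega) (X (eval n env)) s4 o (by
      simp [hs4, hs3, Function.update_apply])
    refine ⟨_, ?_, (Run.seq r1 (Run.seq r2 (Run.seq r3 (Run.seq r4 r5)))).eq ?_ rfl rfl⟩
    · simp only [cost]
      simp only [hC, hX, hf] at h3 ⊢
      omega
    · have n1 : T ≠ F := by omega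
      have n2 : T ≠ F + 1 := by omega
      have n3 : T ≠ F + 2 := by omega
      have hXN : eval (iter n a b) env = X (eval n env) := rfl
      rw [hXN]
      clear_value X
      funext j
      by_cases e1 : j = T
      · subst e1
        simp only [hs4, hs3, hs2, hs1, Function.update_apply]
        simp [n1, n2, n3]
      · by_cases e2 : j = F
        · subst e2
          simp only [hs4, hs3, hs2, hs1, Function.update_apply]
          simp [hF0, e1]
        · by_cases e3 : j = F + 1
          · subst e3
            simp only [hs4, hs3, hs2, hs1, Function.update_apply]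
            simp [hF1, e1, e2]
          · by_cases e4 : j = F + 2
            · subst e4
              simp only [hs4, hs3, hs2, hs1, Function.update_apply]
              simp [hF2, e1, e2, e3]
            · simp only [hs4, hs3, hs2, hs1, Function.update_apply]
              simp [e1, e2, e3, e4]

end Ex

end Vale.Agent.Lib.P310F
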