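import Mathlib

/-!
Statement-level definitions: Weisfeiler-Leman refinement, deterministic single-tape Turing machines
and the encoding of a pair of graphs as an input word.
-/

namespace Vale.Agent.Lib.P310F

/-- The colors of k-dimensional refinement after `r` rounds. -/
def Color (k : ℕ) : ℕ → Type
  | 0 => Fin k → Fin k → Prop × Prop
  | r + 1 => Color k r × Multiset (Fin k → Color k r)

/-- The color of a k-tuple after `r` rounds: round 0 records which entries are equal and which are
adjacent; round `r+1` records the old color and the multiset over `y` of the tuples of old colors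
of `x[i ← y]`. -/
def wlColor {k : ℕ} {V : Type} [Fintype V] (G : SimpleGraph V) : (r : ℕ) → (Fin k → V) → Color k r
  | 0, x => fun i j => (x i = x j, G.Adj (x i) (x j))
  | r + 1, x =>
    (wlColor G r x,
      (Finset.univ : Finset V).val.map fun y => fun i => wlColor G r (Function.update x i y))

/-- `G` and `H` are k-WL equivalent: for every `r` the multisets of round-`r` colors of k-tuples
coincide. -/
def WLEquiv (k : ℕ) {V W : Type} [Fintype V] [Fintype W]
    (G : SimpleGraph V) (H : SimpleGraph W) : Prop :=
  ∀ r, (Finset.univ : Finset (Fin k → V)).val.map (wlColor G r) =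
    (Finset.univ : Finset (Fin k → W)).val.map (wlColor H r)

/-- A deterministic single-tape Turing machine: `δ q a = (q', a', right)`. -/
structure DTM (Q Γ : Type) where
  δ : Q → Γ → Q × Γ × Bool
  start : Q
  acc : Q
  blank : Γ

/-- A configuration: state, tape contents and head position. -/
structure TConf (Q Γ : Type) where
  st : Q
  tape : ℤ → Γ
  pos : ℤ

namespace DTM

variable {Q Γ : Type} (M : DTM Q Γ)

/-- One step of the machine. -/
def step (c : TConf Q Γ) : TConf Q Γ :=
  let r := M.δ c.st (c.tape c.pos)
  ⟨r.1, Function.update c.tape c.pos r.2.1, if r.2.2 then c.pos + 1 else c.pos - 1⟩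

/-- The initial configuration on input `x`. -/
def init {n : ℕ} (x : Fin n → Γ) : TConf Q Γ :=
  ⟨M.start, fun p => if h : 0 ≤ p ∧ p < n then x ⟨p.toNat, by omega⟩ else M.blank, 0⟩

/-- The configuration after `t` steps. -/
def run {n : ℕ} (x : Fin n → Γ) (t : ℕ) : TConf Q Γ := (M.step)^[t] (M.init x)

/-- The machine reaches the accepting state in fewer than `T` steps. -/
def AcceptsWithin {n : ℕ} (x : Fin n → Γ) (T : ℕ) : Prop :=
  ∃ t, t < T ∧ (M.run x t).st = M.acc

end DTM

open Classical in
/-- The adjacency matrix of a graph on `Fin m` as a word, row by row. -/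
noncomputable def graphBits {m : ℕ} (G : SimpleGraph (Fin m)) : List Bool :=
  (List.finRange m).flatMap fun i => (List.finRange m).map fun j => decide (G.Adj i j)

/-- The input word of a pair of graphs on `Fin m`: the adjacency matrix of `G` followed by that of
`H`. -/
noncomputable def pairWord {m : ℕ} (G H : SimpleGraph (Fin m)) : List Bool :=
  graphBits G ++ graphBits H

/-- A word of bits as an input of a machine with tape symbols `Γ`, the bits being written as `ι`. -/
def wordInput {Γ : Type} (ι : Bool → Γ) (w : List Bool) : Fin w.length → Γ :=
  fun k => ι (w.get k)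

end Vale.Agent.Lib.P310F
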