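import Vale.Agent.Lib.P310F.ClP

/-!
From a machine to the pair of graphs on `Fin m`, and the diagonal argument.
-/

set_option linter.unusedSectionVars false

namespace Vale.Agent.Lib.P310F

open Finset R

section Iso

variable {k : ℕ} {V W : Type} [Fintype V] [Fintype W]

lemma wlColor_iso {G : SimpleGraph V} {H : SimpleGraph W} (f : G ≃g H) :
    ∀ (r : ℕ) (x : Fin k → V), wlColor G r x = wlColor H r (f ∘ x) := by
  intro r
  induction r with
  | zero =>
    intro x
    funext i j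
    apply Prod.ext
    · exact propext (f.injective.eq_iff (a := x i) (b := x j)).symm
    · exact propext (f.map_adj_iff (v := x i) (w := x j)).symm
  | succ r ih =>
    intro x
    rw [wlColor_succ_eq_iff]
    refine ⟨ih x, f.toEquiv, fun v i => ?_⟩
    rw [ih]
    congr 1
    exact Function.comp_update _ _ _ _

lemma wlMap_iso {G : SimpleGraph V} {H : SimpleGraph W} (f : G ≃g H) (r : ℕ) :
    (univ : Finset (Fin k → V)).val.map (wlColor G r) =
      (univ : Finset (Fin k → W)).val.map (wlColor H r) :=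
  map_eq_of_equiv _ _ (Equiv.arrowCongr (Equiv.refl _) f.toEquiv) fun x => wlColor_iso f r x

variable {V' W' : Type} [Fintype V'] [Fintype W']

lemma wlEquiv_iso {G : SimpleGraph V} {G' : SimpleGraph V'} {H : SimpleGraph W}
    {H' : SimpleGraph W'} (f : G ≃g G') (f' : H ≃g H') : WLEquiv k G H ↔ WLEquiv k G' H' := by
  constructor
  · intro h r
    rw [← wlMap_iso f r, ← wlMap_iso f' r]
    exact h r
  · intro h r
    rw [wlMap_iso f r, wlMap_iso f' r]
    exact h r

end Iso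

section Machine

variable {Q Γ : Type} [Fintype Q] [Fintype Γ] [DecidableEq Q] (M : DTM Q Γ) (p : Par)
  (x : Fin p.n → Γ) (e : DTM.TSg Q Γ ≃ Fin p.σ)

/-- The rule of the automaton on numbers. -/
def ΔM (a b c : Fin p.σ) : Fin p.σ := e (M.caRule (e.symm a) (e.symm b) (e.symm c))

/-- The input row on numbers. -/
def xinM (d : Fin p.n) : Fin p.σ := e (M.xinC x d)

/-- The blank on numbers. -/
def blM : Fin p.σ := e M.blC

/-- Acceptance on numbers. -/
def accM (a : Fin p.σ) : Prop := M.accC (e.symm a)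

theorem ca_machine (hn : 3 ≤ p.n) (hL : 1 ≤ p.L) (hd : 32 * p.L + 34 ≤ p.d) :
    WLEquiv p.d (vtGraph (rbP p) (frP p (ΔM M p e) (xinM M p x e) (blM M p e) (accM M p e)) (fun _ => 0))
      (vtGraph (rbP p) (frP p (ΔM M p e) (xinM M p x e) (blM M p e) (accM M p e)) twistR) ↔
      ¬ M.AcceptsWithin x (p.n ^ p.L) := by
  have hc : Fintype.card (SCo (tmN p.L) (tmP p.L p.d)) = p.d - 2 := by
    rw [card_SCo]
    have e0 : tmN p.L = p.L + p.L + 1 := rfl
    have e1 : tmP p.L p.d = p.d - (32 * p.L + 34) := rfl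
    omega
  have h := ca_iff (Δ := ΔM M p e) (xin := xinM M p x e) (bl := blM M p e) (acc := accM M p e)
    (C := fun t q => e (M.tab x p.L t q)) (pad := tmP p.L p.d) (g := p.d + 2) (Lt := p.L) (Lq := p.L)
    (encP p) (encSP p) (encP_inj p) (encSP_inj p) (by rw [hc]; omega)
    (fun q => by
      rw [tab_init M hn hL x q]
      unfold initC
      split_ifs <;> rfl)
    (fun t ht q => by
      rw [tab_rule M hn x t ht q]
      simp [ΔM])
    (Sum.inr Hd.kap)
  have e2 : Fintype.card (SCo (tmN p.L) (tmP p.L p.d)) + 2 = p.d := by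
    rw [hc]
    omega
  rw [e2] at h
  rw [← tab_acc M hn x]
  refine h.trans (not_congr ?_)
  simp [accM]

end Machine

section Word

variable (p : Par) {Δ : Fin p.σ → Fin p.σ → Fin p.σ → Fin p.σ} {xin : Fin p.n → Fin p.σ}
  {bl : Fin p.σ} {acc : Fin p.σ → Prop}

/-- The two graphs as graphs on `Fin m`, with the word of the pair being `wordPar p`. -/
theorem word_graphs (h : CAok p Δ xin bl acc) (hnd : ndF (Fin p.σ) p.L p.d p.n ≤ capA p)
    (hW : 0 < (p.d + 2) * Fintype.card (Gr × CoP p) + 4 * Fintype.card (ClP p)) :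
    ∃ (m : ℕ) (H₀ H₁ : SimpleGraph (Fin m)), m ≤ vtF (Fin p.σ) p.L p.d p.n ∧
      pairWord H₀ H₁ = wordPar p ∧
      Nonempty (H₀ ≃g vtGraph (rbP p) (frP p Δ xin bl acc) (fun _ => 0)) ∧
      Nonempty (H₁ ≃g vtGraph (rbP p) (frP p Δ xin bl acc) twistR) := by
  have hcap : ∀ c, 2 ^ (edgesOf (rbP p) (frP p Δ xin bl acc) c).card ≤ capA p := by
    intro c
    refine le_trans ?_ hnd
    refine le_trans ?_ (card_node_le (encP p) (encSP p) (LocC Δ xin bl acc) isOKC)
    rw [card_Node]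
    exact Finset.single_le_sum (f := fun c => 2 ^ (edgesOf (rbP p) (frP p Δ xin bl acc) c).card)
      (fun _ _ => Nat.zero_le _) (Finset.mem_univ c)
  obtain ⟨φ₀, h01, h02, h03⟩ := (presP h hcap 0 (fun _ => 0) (parN_zero)).main
  obtain ⟨φ₁, h11, h12, h13⟩ := (presP h hcap 1 twistR (parN_twist)).main
  obtain ⟨m₀, hm₀, H₀, hH₀, hw₀⟩ := exists_fin_graph _ φ₀ h01 h02 h03
  obtain ⟨m₁, hm₁, H₁, hH₁, hw₁⟩ := exists_fin_graph _ φ₁ h11 h12 h13
  have hcd := card_VT_twistR (I := CoP p) (Cl := ClP p) (g := p.d + 2) grS hW (frP p Δ xin bl acc)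
  have hmm : m₀ = m₁ := by
    rw [hm₀, hm₁]
    exact hcd
  subst hmm
  refine ⟨m₀, H₀, H₁, ?_, ?_, hH₀, hH₁⟩
  · rw [hm₀]
    exact card_vt_le (encP p) (encSP p) (LocC Δ xin bl acc) isOKC _
  · unfold pairWord wordPar
    rw [hw₀, hw₁]

end Word

section Code

variable {Q Γ : Type} [Fintype Q] [Fintype Γ] [DecidableEq Q] (M : DTM Q Γ)

lemma caok_of {σ : ℕ} (e₀ : DTM.TSg Q Γ ≃ Fin σ) {T TA : ℕ}
    (hT : ∀ a b c r : Fin σ, bt T (tup [a.val, b.val, c.val, r.val]) = 1 ↔
      e₀ (M.caRule (e₀.symm a) (e₀.symm b) (e₀.symm c)) = r)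
    (hTA : ∀ a : Fin σ, bt TA a.val = 1 ↔ M.accC (e₀.symm a))
    (lt₀ lt₁ lt₂ : Γ) (p : Par) (hσ : p.σ = σ) (hpT : p.T = T) (hpTA : p.TA = TA)
    (hbl : p.bl = (e₀ M.blC).val) (hc0 : p.c0 = (e₀ (lt₀, some M.start)).val)
    (hc1 : p.c1 = (e₀ (lt₁, none)).val) (hc2 : p.c2 = (e₀ (lt₂, none)).val)
    (x : Fin p.n → Γ)
    (hx : ∀ i : Fin p.n, x i = if i.val = 0 then lt₀ else if i.val < p.C then lt₁ else lt₂) :
    ∃ e : DTM.TSg Q Γ ≃ Fin p.σ, CAok p (ΔM M p e) (xinM M p x e) (blM M p e) (accM M p e) := by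
  subst hσ
  subst hpT
  subst hpTA
  refine ⟨e₀, ?_⟩
  refine ⟨hT, hTA, hbl.symm, fun d => ?_⟩
  simp only [xinN, xinM, DTM.xinC, hx d]
  by_cases h0 : d.val = 0
  · simp [h0, hc0]
  · by_cases h1 : d.val < p.C
    · simp [h0, h1, hc1]
    · simp [h0, h1, hc2]

/-- The parameters of the automaton of a machine: the number `a` codes its tables. -/
theorem exists_code (L d : ℕ) (lt₀ lt₁ lt₂ : Γ) :
    ∃ a, 0 < a ∧ fd 1 a = L ∧ fd 2 a = d ∧ ∀ n (x : Fin n → Γ),
      (∀ i : Fin n, x i = if i.val = 0 then lt₀ else if i.val < a then lt₁ else lt₂) →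
      ∃ e : DTM.TSg Q Γ ≃ Fin (parOf a n).σ,
        CAok (parOf a n) (ΔM M (parOf a n) e) (xinM M (parOf a n) x e) (blM M (parOf a n) e)
          (accM M (parOf a n) e) := by
  classical
  let σ := Fintype.card (DTM.TSg Q Γ)
  let e₀ : DTM.TSg Q Γ ≃ Fin σ := Fintype.equivFin _
  obtain ⟨T, hT⟩ := exists_table (fun k => ∃ a b c r : Fin σ, k = tup [a.val, b.val, c.val, r.val] ∧
    e₀ (M.caRule (e₀.symm a) (e₀.symm b) (e₀.symm c)) = r) (tb σ 4 + 1)
  obtain ⟨TA, hTA⟩ := exists_table (fun k => ∃ a : Fin σ, a.val = k ∧ M.accC (e₀.symm a)) σ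
  have hT' : ∀ a b c r : Fin σ, bt T (tup [a.val, b.val, c.val, r.val]) = 1 ↔
      e₀ (M.caRule (e₀.symm a) (e₀.symm b) (e₀.symm c)) = r := by
    intro a b c r
    have hlt : tup [a.val, b.val, c.val, r.val] < tb σ 4 + 1 := by
      apply tup_lt_tb
      · simp only [List.mem_cons, List.not_mem_nil, or_false, forall_eq_or_imp, forall_eq]
        exact ⟨a.isLt.le, b.isLt.le, c.isLt.le, r.isLt.le⟩
      · simp
    rw [hT _ hlt]
    constructor
    · rintro ⟨a', b', c', r', h, hr⟩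
      rw [tup_eq_iff] at h
      simp only [List.cons.injEq, and_true] at h
      obtain ⟨h1, h2, h3, h4⟩ := h
      rw [Fin.ext h1, Fin.ext h2, Fin.ext h3, Fin.ext h4]
      exact hr
    · exact fun h => ⟨a, b, c, r, rfl, h⟩
  have hTA' : ∀ a : Fin σ, bt TA a.val = 1 ↔ M.accC (e₀.symm a) := by
    intro a
    rw [hTA _ a.isLt]
    constructor
    · rintro ⟨a', h, hr⟩
      rw [← Fin.ext h]
      exact hr
    · exact fun h => ⟨a, rfl, h⟩
  obtain ⟨a, hadef⟩ : ∃ a, a = tup [σ, L, d, T, TA, (e₀ M.blC).val, (e₀ (lt₀, some M.start)).val,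
      (e₀ (lt₁, none)).val, (e₀ (lt₂, none)).val] := ⟨_, rfl⟩
  refine ⟨a, by rw [hadef]; exact Nat.succ_pos _, by simp [hadef, fd_tup], by simp [hadef, fd_tup],
    fun n x hx => ?_⟩
  exact caok_of M e₀ hT' hTA' lt₀ lt₁ lt₂ (parOf a n) (by simp [parOf, hadef, fd_tup])
    (by simp [parOf, hadef, fd_tup]) (by simp [parOf, hadef, fd_tup])
    (by simp [parOf, hadef, fd_tup]) (by simp [parOf, hadef, fd_tup])
    (by simp [parOf, hadef, fd_tup]) (by simp [parOf, hadef, fd_tup]) x hx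

end Code

section Input

/-- The letters of the input of the machine of a program. -/
def ltA (r : ℕ) : Cell r := (true, (fun j => decide (j.val = 0 ∨ j.val = 1)), none)

def ltB (r : ℕ) : Cell r := (false, (fun j => decide (j.val = 0 ∨ j.val = 1)), none)

def ltC (r : ℕ) : Cell r := (false, (fun j => decide (j.val = 1)), none)

lemma progInput_eq {Γ : Type} (P : St) {a n : ℕ} (ha : 0 < a) (i : Fin n) :
    progInput (Γ := Γ) P a n i = if i.val = 0 then Sum.inr (ltA (progR P)) else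
      if i.val < a then Sum.inr (ltB (progR P)) else Sum.inr (ltC (progR P)) := by
  have hi := i.isLt
  unfold progInput
  by_cases h0 : i.val = 0
  · rw [if_pos h0]
    refine congrArg Sum.inr ?_
    unfold cellOf ltA
    refine Prod.ext (by simp [h0]) (Prod.ext ?_ (by simp [startConf]))
    funext j
    simp only [startConf, startRegs, h0]
    by_cases j0 : j.val = 0
    · simp [j0, ha]
    · by_cases j1 : j.val = 1
      · simp [j1]
        omega
      · simp [j0, j1]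
  · rw [if_neg h0]
    by_cases h1 : i.val < a
    · rw [if_pos h1]
      refine congrArg Sum.inr ?_
      unfold cellOf ltB
      refine Prod.ext (by simp [h0]) (Prod.ext ?_ (by simp [startConf]))
      funext j
      simp only [startConf, startRegs]
      by_cases j0 : j.val = 0
      · simp [j0, h1]
      · by_cases j1 : j.val = 1
        · simp [j1, hi]
        · simp [j0, j1]
    · rw [if_neg h1]
      refine congrArg Sum.inr ?_
      unfold cellOf ltC
      refine Prod.ext (by simp [h0]) (Prod.ext ?_ (by simp [startConf]))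
      funext j
      simp only [startConf, startRegs]
      by_cases j0 : j.val = 0
      · simp [j0, h1]
      · by_cases j1 : j.val = 1
        · simp [j1, hi]
        · simp [j0, j1]

end Input

section Arith

/-- The two time bounds together stay below the tableau height. -/
lemma time_bound {a n c₁ L g K Kv m T₀ cost : ℕ} (hn : a + 2 ≤ n) (hn3 : 3 ≤ n)
    (hc : cost ≤ (a + n + 2) ^ c₁) (hT : T₀ ≤ (cost + 1) * (2 * (n + cost) + 4))
    (hm : m ≤ Kv * n ^ 153) (hKv : Kv + 1 ≤ n) (hK : K ≤ n) (hL1 : 4 * c₁ + 6 ≤ L)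
    (hL2 : 154 * g + 2 ≤ L) : T₀ + K * (m + 1) ^ g < n ^ L := by
  obtain ⟨L', rfl⟩ : ∃ L', L = L' + 1 := ⟨L - 1, by omega⟩
  have hn1 : 1 ≤ n := by omega
  set X := n ^ (2 * c₁) with hX
  have hX1 : 1 ≤ X := Nat.one_le_pow _ _ hn1
  have hcX : cost ≤ X := by
    refine hc.trans ?_
    rw [hX, pow_mul]
    exact Nat.pow_le_pow_left (by nlinarith) _
  have h1 : cost + 1 ≤ n * X := by nlinarith
  have hnX : n ≤ n * X := by nlinarith
  have hXX : X ≤ n * X := by nlinarith
  have h2 : 2 * (n + cost) + 4 ≤ n ^ 4 * X := by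
    have : n ^ 4 * X = n ^ 3 * (n * X) := by ring
    rw [this]
    have h8 : 27 ≤ n ^ 3 := by
      calc 27 = 3 ^ 3 := by norm_num
        _ ≤ n ^ 3 := Nat.pow_le_pow_left hn3 3
    have h3 : 1 ≤ n * X := by nlinarith
    nlinarith
  have h3 : T₀ ≤ n ^ L' := by
    refine hT.trans ((Nat.mul_le_mul h1 h2).trans ?_)
    have e : n * X * (n ^ 4 * X) = n ^ (4 * c₁ + 5) := by
      rw [hX]
      ring
    rw [e]
    exact Nat.pow_le_pow_right hn1 (by omega)
  have h4 : K * (m + 1) ^ g ≤ n ^ L' := by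
    have h5 : m + 1 ≤ n ^ 154 := by
      have : n ^ 154 = n * n ^ 153 := by ring
      rw [this]
      have h6 : 1 ≤ n ^ 153 := Nat.one_le_pow _ _ hn1
      nlinarith
    calc K * (m + 1) ^ g ≤ n * (n ^ 154) ^ g := Nat.mul_le_mul hK (Nat.pow_le_pow_left h5 _)
      _ = n ^ (154 * g + 1) := by rw [← pow_mul]; ring
      _ ≤ n ^ L' := Nat.pow_le_pow_right hn1 (by omega)
  have h7 : n ^ (L' + 1) = n * n ^ L' := by ring
  rw [h7]
  have h8 : 1 ≤ n ^ L' := Nat.one_le_pow _ _ hn1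
  nlinarith

end Arith

lemma card_CoP (p : Par) (hd : 32 * p.L + 34 ≤ p.d) : Fintype.card (CoP p) = p.d - 2 := by
  rw [card_SCo]
  have e0 : tmN p.L = p.L + p.L + 1 := rfl
  have e1 : tmP p.L p.d = p.d - (32 * p.L + 34) := rfl
  omega

/-- The answer: no machine accepting exactly the equivalent pairs does so in time `(m+1)^(d/9920)`
for all large `d`. -/
theorem main_diag : ∃ c d₀ : ℕ, 0 < c ∧ ∀ d, d₀ ≤ d → ∀ (Q Γ : Type) [Fintype Q] [Fintype Γ]
    (A : DTM Q Γ) (ι : Bool → Γ),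
    (∀ (m : ℕ) (G H : SimpleGraph (Fin m)),
      (∃ t, (A.run (wordInput ι (pairWord G H)) t).st = A.acc) ↔ WLEquiv d G H) →
    ¬ ∃ K : ℕ, ∀ (m : ℕ) (G H : SimpleGraph (Fin m)), WLEquiv d G H →
      ∃ t, t ≤ K * (m + 1) ^ (d / c) ∧ (A.run (wordInput ι (pairWord G H)) t).st = A.acc := by
  obtain ⟨P, c₁, hout, hcost⟩ := exists_builder
  refine ⟨9920, 32 * (4 * c₁ + 6) + 400, by norm_num, ?_⟩
  rintro d hd Q Γ _ _ A ι hdec ⟨K, hK⟩
  classical
  obtain ⟨L, hL⟩ : ∃ L, L = (d - 34) / 32 := ⟨_, rfl⟩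
  have hd1 : 32 * L + 34 ≤ d := by omega
  have hL1 : 4 * c₁ + 6 ≤ L := by omega
  have hL2 : 154 * (d / 9920) + 2 ≤ L := by omega
  obtain ⟨a, ha, haL, had, hcode⟩ := exists_code (progM P A ι) L d
    (Sum.inr (ltA (progR P))) (Sum.inr (ltB (progR P))) (Sum.inr (ltC (progR P)))
  obtain ⟨Kn, hKn⟩ := ndF_pb (Fin (fd 0 a)) L d
  obtain ⟨Kv, hKv⟩ := vtF_pb (Fin (fd 0 a)) L d
  obtain ⟨n, hn⟩ : ∃ n, n = a + Kn + Kv + K + 3 := ⟨_, rfl⟩
  have hpL : (parOf a n).L = L := haL
  have hpd : (parOf a n).d = d := had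
  obtain ⟨e, hca⟩ := hcode n (progInput P a n) (progInput_eq P ha)
  have hnd : ndF (Fin (parOf a n).σ) (parOf a n).L (parOf a n).d (parOf a n).n ≤
      capA (parOf a n) := by
    rw [hpL, hpd]
    refine (hKn n (by omega)).trans ?_
    show Kn * n ^ 75 ≤ (n + 1) ^ 154
    calc Kn * n ^ 75 ≤ n * n ^ 75 := Nat.mul_le_mul_right _ (by omega)
      _ = n ^ 76 := by ring
      _ ≤ (n + 1) ^ 76 := Nat.pow_le_pow_left (by omega) _
      _ ≤ (n + 1) ^ 154 := Nat.pow_le_pow_right (by omega) (by omega)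
  have hpd1 : 32 * (parOf a n).L + 34 ≤ (parOf a n).d := by
    rw [hpL, hpd]
    exact hd1
  have hW : 0 < ((parOf a n).d + 2) * Fintype.card (Gr × CoP (parOf a n)) +
      4 * Fintype.card (ClP (parOf a n)) := by
    refine Nat.add_pos_left (Nat.mul_pos (by omega) ?_) _
    rw [Fintype.card_prod, card_CoP _ hpd1]
    refine Nat.mul_pos (Fintype.card_pos_iff.mpr ⟨Sum.inl 0⟩) ?_
    omega
  obtain ⟨m, H₀, H₁, hm, hw, ⟨i₀⟩, ⟨i₁⟩⟩ := word_graphs (parOf a n) hca hnd hW
  have hiff := ca_machine (progM P A ι) (parOf a n) (progInput P a n) e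
    (show 3 ≤ n by omega) (by rw [hpL]; omega) hpd1
  have hiff2 : WLEquiv d H₀ H₁ ↔ ¬ (progM P A ι).AcceptsWithin (progInput P a n) (n ^ L) := by
    have := (wlEquiv_iso (k := (parOf a n).d) i₀ i₁).trans hiff
    rw [hpd, hpL] at this
    exact this
  have ha2 : a ≤ n := by omega
  obtain ⟨T₀, hT₀, hleft, hrun⟩ := prog_machine P A ι ha2 (by omega)
  have hoW : St.out P [a, n] = pairWord H₀ H₁ := (hout a n).trans hw.symm
  rw [hoW] at hrun
  have htime : T₀ + K * (m + 1) ^ (d / 9920) < n ^ L := by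
    refine time_bound (a := a) (c₁ := c₁) (Kv := Kv) (cost := St.cost P [a, n]) (by omega) (by omega)
      (hcost a n) hT₀ ?_ (by omega) (by omega) hL1 hL2
    refine hm.trans ?_
    rw [hpL, hpd]
    exact hKv n (by omega)
  by_cases hWL : WLEquiv d H₀ H₁
  · obtain ⟨t, ht, hacc⟩ := hK m H₀ H₁ hWL
    apply hiff2.mp hWL
    refine ⟨T₀ + t, by omega, ?_⟩
    rw [hrun]
    exact congrArg Sum.inr hacc
  · have h1 : (progM P A ι).AcceptsWithin (progInput P a n) (n ^ L) :=
      by_contra fun h => hWL (hiff2.mpr h)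
    obtain ⟨s, -, hacc⟩ := h1
    by_cases hsT : s < T₀
    · have := hleft s hsT
      rw [hacc] at this
      exact absurd this (by simp [progM, simM])
    · obtain ⟨t, rfl⟩ := Nat.exists_eq_add_of_le (not_lt.mp hsT)
      rw [hrun] at hacc
      refine hWL ((hdec m H₀ H₁).mp ⟨t, ?_⟩)
      exact Sum.inr.inj hacc


end Vale.Agent.Lib.P310F
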