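import Vale.Agent.Lib.P310F.SP

/-!
Arithmetic expressions with bounded sums and bounded recursion, and programs that emit bits.
The environment is a list of numbers.
-/

namespace Vale.Agent.Lib.P310F

open Finset

/-- Variable lookup. -/
def v : ℕ → List ℕ → ℕ
  | _, [] => 0
  | 0, x :: _ => x
  | k + 1, _ :: xs => v k xs

/-- Iteration with an index. -/
def iterF (f : ℕ → ℕ → ℕ) (a : ℕ) : ℕ → ℕ
  | 0 => a
  | k + 1 => f k (iterF f a k)

/-- Expressions. -/
inductive Ex where
  | var (i : ℕ)
  | const (c : ℕ)
  | add (a b : Ex)
  | sub (a b : Ex)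
  | ifz (c a b : Ex)
  | sum (b s : Ex)
  | drop (a : Ex)
  | letE (a b : Ex)
  | iter (n a s : Ex)

namespace Ex

/-- The value of an expression. -/
def eval : Ex → List ℕ → ℕ
  | var i, e => v i e
  | const c, _ => c
  | add a b, e => eval a e + eval b e
  | sub a b, e => eval a e - eval b e
  | ifz c a b, e => if eval c e = 0 then eval a e else eval b e
  | sum b s, e => ∑ i ∈ range (eval b e), eval s (i :: e)
  | drop a, e => eval a e.tail
  | letE a b, e => eval b (eval a e :: e)
  | iter n a s, e => iterF (fun i x => eval s (i :: x :: e)) (eval a e) (eval n e)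

/-- An upper bound for the number of steps of the program of an expression. -/
def cost : Ex → List ℕ → ℕ
  | var i, e => 9 * v i e + 2
  | const c, _ => c
  | add a b, e => cost a e + cost b e
  | sub a b, e => cost a e + cost b e + 4 * eval b e + 4 * eval a e + 2
  | ifz c a b, e => cost c e + cost a e + cost b e + 3 * eval c e + 7
  | sum b s, e => cost b e + (∑ i ∈ range (eval b e), (cost s (i :: e) + 4)) + 3 * eval b e + 2
  | drop a, e => cost a e.tail
  | letE a b, e => cost a e + cost b (eval a e :: e) + 3 * eval a e + 1
  | iter n a s, e =>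
    let f := fun i x => eval s (i :: x :: e)
    cost n e + cost a e + (∑ i ∈ range (eval n e),
      (cost s (i :: iterF f (eval a e) i :: e) + 3 * iterF f (eval a e) i +
        4 * iterF f (eval a e) (i + 1) + 6)) + 3 * eval n e + 4 * iterF f (eval a e) (eval n e) + 3

end Ex

namespace SP

/-- Clear a register. -/
def clear (R : ℕ) : SP := wh R (dec R)

/-- Move a register into another one. -/
def move (R A : ℕ) : SP := wh R (seq (dec R) (inc A))

/-- Move a register into two others. -/
def move2 (R A B : ℕ) : SP := wh R (seq (dec R) (seq (inc A) (inc B)))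

/-- Increment a register `c` times. -/
def incs (A : ℕ) : ℕ → SP
  | 0 => skip
  | c + 1 => seq (inc A) (incs A c)

lemma Run.eq {p : SP} {s o s1 o1 t s1' o1' t'} (h : SP.Run p s o s1 o1 t) (e1 : s1 = s1')
    (e2 : o1 = o1') (e3 : t = t') : SP.Run p s o s1' o1' t' := by
  subst e1 e2 e3
  exact h

lemma run_clear (R : ℕ) (k : ℕ) (s : ℕ → ℕ) (o : List Bool) (hk : s R = k) :
    SP.Run (clear R) s o (Function.update s R 0) o (3 * k + 1) := by
  induction k generalizing s with
  | zero =>
    refine (Run.wh0 hk).eq ?_ rfl (by omega)
    rw [← hk]
    simp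
  | succ k ih =>
    have h1 := ih (Function.update s R (s R - 1)) (by simp [hk])
    refine (Run.whS (by omega) (Run.dec R s o) h1).eq ?_ rfl (by omega)
    simp

lemma run_move {R A : ℕ} (hne : R ≠ A) (k : ℕ) (s : ℕ → ℕ) (o : List Bool) (hk : s R = k) :
    SP.Run (move R A) s o (Function.update (Function.update s R 0) A (s A + k)) o (4 * k + 1) := by
  induction k generalizing s with
  | zero =>
    refine (Run.wh0 hk).eq ?_ rfl (by omega)
    funext j
    simp only [Function.update_apply]
    split_ifs <;> simp_all
  | succ k ih =>
    have h2 := Run.seq (Run.dec R s o) (Run.inc A (Function.update s R (s R - 1)) o)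
    have h1 := ih (Function.update (Function.update s R (s R - 1)) A
      (Function.update s R (s R - 1) A + 1)) (by
        simp [Function.update_apply, hne, hk])
    refine (Run.whS (by omega) h2 h1).eq ?_ rfl (by omega)
    funext j
    simp only [Function.update_apply, if_neg hne, if_neg hne.symm]
    split_ifs <;> omega

lemma run_move2 {R A B : ℕ} (h1 : R ≠ A) (h2 : R ≠ B) (h3 : A ≠ B) (k : ℕ) (s : ℕ → ℕ)
    (o : List Bool) (hk : s R = k) :
    SP.Run (move2 R A B) s o
      (Function.update (Function.update (Function.update s R 0) A (s A + k)) B (s B + k)) o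
      (5 * k + 1) := by
  induction k generalizing s with
  | zero =>
    refine (Run.wh0 hk).eq ?_ rfl (by omega)
    funext j
    simp only [Function.update_apply]
    split_ifs <;> simp_all
  | succ k ih =>
    have e2 := Run.seq (Run.dec R s o) (Run.seq (Run.inc A (Function.update s R (s R - 1)) o)
      (Run.inc B _ o))
    have e1 := ih _ (by
      simp [Function.update_apply, h1, h2, hk] : (Function.update (Function.update
        (Function.update s R (s R - 1)) A (Function.update s R (s R - 1) A + 1)) B
        (Function.update (Function.update s R (s R - 1)) A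
          (Function.update s R (s R - 1) A + 1) B + 1)) R = k)
    refine (Run.whS (by omega) e2 e1).eq ?_ rfl (by omega)
    funext j
    simp only [Function.update_apply, if_neg h1, if_neg h1.symm, if_neg h2, if_neg h2.symm, if_neg h3,
      if_neg h3.symm]
    split_ifs <;> omega

lemma run_incs (A c : ℕ) (s : ℕ → ℕ) (o : List Bool) :
    SP.Run (incs A c) s o (Function.update s A (s A + c)) o c := by
  induction c generalizing s with
  | zero =>
    refine (Run.skip s o).eq ?_ rfl rfl
    simp
  | succ c ih =>
    refine (Run.seq (Run.inc A s o) (ih _)).eq ?_ rfl (by omega)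
    funext j
    simp only [Function.update_apply]
    split_ifs
    · omega
    · rfl

end SP

end Vale.Agent.Lib.P310F
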