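import Vale.Agent.Lib.P310F.Prog

/-!
Functions of an environment with polynomially many steps in the sum of the environment.
-/

namespace Vale.Agent.Lib.P310F

open Finset

/-- Polynomial growth in the sum of the environment. -/
def Pw (g : List ℕ → ℕ) : Prop := ∃ p : ℕ, ∀ env, g env ≤ (env.sum + 2) ^ p

namespace Pw

lemma base : Pw fun env => env.sum + 2 := ⟨1, fun env => by simp⟩

lemma of_le {f g : List ℕ → ℕ} (hg : Pw g) (h : ∀ env, f env ≤ g env) : Pw f := by
  obtain ⟨p, hp⟩ := hg
  exact ⟨p, fun env => (h env).trans (hp env)⟩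

lemma const (c : ℕ) : Pw fun _ => c :=
  ⟨c, fun env => (Nat.lt_two_pow_self).le.trans (Nat.pow_le_pow_left (by omega) c)⟩

lemma add {f g : List ℕ → ℕ} (hf : Pw f) (hg : Pw g) : Pw fun env => f env + g env := by
  obtain ⟨p, hp⟩ := hf
  obtain ⟨q, hq⟩ := hg
  refine ⟨p + q + 1, fun env => ?_⟩
  have hX : 2 ≤ env.sum + 2 := by omega
  have h1 : (env.sum + 2) ^ p ≤ (env.sum + 2) ^ (p + q) :=
    Nat.pow_le_pow_right (by omega) (by omega)
  have h2 : (env.sum + 2) ^ q ≤ (env.sum + 2) ^ (p + q) :=
    Nat.pow_le_pow_right (by omega) (by omega)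
  have h3 := hp env
  have h4 := hq env
  calc f env + g env ≤ 2 * (env.sum + 2) ^ (p + q) := by omega
    _ ≤ (env.sum + 2) * (env.sum + 2) ^ (p + q) := Nat.mul_le_mul_right _ hX
    _ = (env.sum + 2) ^ (p + q + 1) := by ring

lemma mul {f g : List ℕ → ℕ} (hf : Pw f) (hg : Pw g) : Pw fun env => f env * g env := by
  obtain ⟨p, hp⟩ := hf
  obtain ⟨q, hq⟩ := hg
  refine ⟨p + q, fun env => ?_⟩
  rw [pow_add]
  exact Nat.mul_le_mul (hp env) (hq env)

lemma pow {f : List ℕ → ℕ} (hf : Pw f) (q : ℕ) : Pw fun env => f env ^ q := by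
  obtain ⟨p, hp⟩ := hf
  refine ⟨p * q, fun env => ?_⟩
  rw [pow_mul]
  exact Nat.pow_le_pow_left (hp env) q

lemma v_le_sum (i : ℕ) (env : List ℕ) : v i env ≤ env.sum := by
  induction env generalizing i with
  | nil => cases i <;> simp [v]
  | cons x xs ih =>
    cases i with
    | zero => simp [v]
    | succ i =>
      have := ih i
      simp only [v, List.sum_cons]
      omega

lemma var (i : ℕ) : Pw (v i) := base.of_le fun env => by
  have := v_le_sum i env
  omega

lemma tail {g : List ℕ → ℕ} (hg : Pw g) : Pw fun env => g env.tail := by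
  obtain ⟨p, hp⟩ := hg
  refine ⟨p, fun env => (hp _).trans (Nat.pow_le_pow_left ?_ p)⟩
  cases env with
  | nil => simp
  | cons x xs => simp

/-- Substitution of a growth bound. -/
lemma cons {a g : List ℕ → ℕ} (ha : Pw a) (hg : Pw g) : Pw fun env => g (a env :: env) := by
  obtain ⟨q, hq⟩ := hg
  have h1 : Pw fun env => (a env + (env.sum + 2)) ^ q := (ha.add base).pow q
  refine h1.of_le fun env => (hq _).trans (Nat.pow_le_pow_left ?_ q)
  simp only [List.sum_cons]
  omega

/-- A sum with a bounded number of bounded terms. -/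
lemma sum_le {n G : List ℕ → ℕ} (h : List ℕ → ℕ → ℕ) (hn : Pw n) (hG : Pw G)
    (hle : ∀ env i, i < n env → h env i ≤ G env) :
    Pw fun env => ∑ i ∈ range (n env), h env i := by
  refine (hn.mul hG).of_le fun env => ?_
  calc ∑ i ∈ range (n env), h env i ≤ ∑ _i ∈ range (n env), G env :=
        Finset.sum_le_sum fun i hi => hle env i (Finset.mem_range.mp hi)
    _ = n env * G env := by simp

/-- A sum over a bounded variable. -/
lemma sum_cons {n g : List ℕ → ℕ} (hn : Pw n) (hg : Pw g) :
    Pw fun env => ∑ i ∈ range (n env), g (i :: env) := by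
  obtain ⟨q, hq⟩ := hg
  refine sum_le (G := fun env => (n env + (env.sum + 2)) ^ q) _ hn ((hn.add base).pow q) ?_
  intro env i hi
  refine (hq _).trans (Nat.pow_le_pow_left ?_ q)
  simp only [List.sum_cons]
  omega

end Pw

namespace Ex

lemma eval_le_cost (e : Ex) (env : List ℕ) : eval e env ≤ cost e env := by
  induction e generalizing env with
  | var i => simp only [eval, cost]; omega
  | const c => exact le_rfl
  | add a b iha ihb =>
    have := iha env
    have := ihb env
    simp only [eval, cost]
    omega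
  | sub a b iha ihb =>
    have := iha env
    simp only [eval, cost]
    omega
  | ifz c a b ihc iha ihb =>
    have := iha env
    have := ihb env
    simp only [eval, cost]
    split_ifs <;> omega
  | sum b s ihb ihs =>
    simp only [eval, cost]
    have : ∑ i ∈ range (eval b env), eval s (i :: env) ≤
        ∑ i ∈ range (eval b env), (cost s (i :: env) + 4) :=
      Finset.sum_le_sum fun i _ => (ihs _).trans (by omega)
    omega
  | drop a ih => exact ih _
  | letE a b iha ihb =>
    have := ihb (eval a env :: env)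
    simp only [eval, cost]
    omega
  | iter n a s ihn iha ihs =>
    simp only [eval, cost]
    omega

end Ex

/-- Functions computed by expressions with polynomially many steps. -/
def PT (f : List ℕ → ℕ) : Prop := ∃ e : Ex, (∀ env, e.eval env = f env) ∧ Pw e.cost

namespace PT

lemma pw {f : List ℕ → ℕ} (h : PT f) : Pw f := by
  obtain ⟨e, he, hc⟩ := h
  exact hc.of_le fun env => by rw [← he]; exact Ex.eval_le_cost e env

lemma var (i : ℕ) : PT (v i) := ⟨Ex.var i, fun _ => rfl, ((Pw.const 9).mul (Pw.var i)).add (Pw.const 2)⟩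

lemma const (c : ℕ) : PT fun _ => c := ⟨Ex.const c, fun _ => rfl, Pw.const c⟩

lemma add {f g : List ℕ → ℕ} (hf : PT f) (hg : PT g) : PT fun env => f env + g env := by
  obtain ⟨a, ha, pa⟩ := hf
  obtain ⟨b, hb, pb⟩ := hg
  exact ⟨Ex.add a b, fun env => by simp only [Ex.eval, ha, hb], pa.add pb⟩

lemma sub {f g : List ℕ → ℕ} (hf : PT f) (hg : PT g) : PT fun env => f env - g env := by
  have h1 := hf.pw
  have h2 := hg.pw
  obtain ⟨a, ha, pa⟩ := hf
  obtain ⟨b, hb, pb⟩ := hg
  refine ⟨Ex.sub a b, fun env => by simp only [Ex.eval, ha, hb], ?_⟩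
  have : Pw fun env => Ex.cost a env + Ex.cost b env + 4 * Ex.eval b env + 4 * Ex.eval a env + 2 := by
    have e1 : Ex.eval a = f := funext ha
    have e2 : Ex.eval b = g := funext hb
    rw [e1, e2]
    exact ((((pa.add pb).add ((Pw.const 4).mul h2)).add ((Pw.const 4).mul h1))).add (Pw.const 2)
  exact this

/-- If the first value is zero the second, otherwise the third. -/
lemma ifz {c f g : List ℕ → ℕ} (hc : PT c) (hf : PT f) (hg : PT g) :
    PT fun env => if c env = 0 then f env else g env := by
  have h1 := hc.pw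
  obtain ⟨ec, hec, pc⟩ := hc
  obtain ⟨a, ha, pa⟩ := hf
  obtain ⟨b, hb, pb⟩ := hg
  refine ⟨Ex.ifz ec a b, fun env => by simp only [Ex.eval, ha, hb, hec], ?_⟩
  have e1 : Ex.eval ec = c := funext hec
  have : Pw fun env => Ex.cost ec env + Ex.cost a env + Ex.cost b env + 3 * Ex.eval ec env + 7 := by
    rw [e1]
    exact ((((pc.add pa).add pb).add ((Pw.const 3).mul h1))).add (Pw.const 7)
  exact this

/-- A sum over a bounded variable. -/
lemma sum {b s : List ℕ → ℕ} (hb : PT b) (hs : PT s) :
    PT fun env => ∑ i ∈ range (b env), s (i :: env) := by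
  have h1 := hb.pw
  obtain ⟨eb, heb, pb⟩ := hb
  obtain ⟨es, hes, ps⟩ := hs
  refine ⟨Ex.sum eb es, fun env => by simp only [Ex.eval, heb, hes], ?_⟩
  have e1 : Ex.eval eb = b := funext heb
  have : Pw fun env => Ex.cost eb env + (∑ i ∈ range (Ex.eval eb env), (Ex.cost es (i :: env) + 4)) +
      3 * Ex.eval eb env + 2 := by
    rw [e1]
    have h2 : Pw fun env => Ex.cost es env + 4 := ps.add (Pw.const 4)
    exact ((pb.add (Pw.sum_cons h1 h2)).add ((Pw.const 3).mul h1)).add (Pw.const 2)
  exact this

/-- Forget the first entry of the environment. -/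
lemma drop {f : List ℕ → ℕ} (hf : PT f) : PT fun env => f env.tail := by
  obtain ⟨a, ha, pa⟩ := hf
  exact ⟨Ex.drop a, fun env => ha _, pa.tail⟩

/-- Push a value on the environment. -/
lemma push {a f : List ℕ → ℕ} (ha : PT a) (hf : PT f) : PT fun env => f (a env :: env) := by
  have h1 := ha.pw
  obtain ⟨ea, hea, pa⟩ := ha
  obtain ⟨b, hb, pb⟩ := hf
  refine ⟨Ex.letE ea b, fun env => by simp only [Ex.eval, hea, hb], ?_⟩
  have e1 : Ex.eval ea = a := funext hea
  have : Pw fun env => Ex.cost ea env + Ex.cost b (Ex.eval ea env :: env) + 3 * Ex.eval ea env + 1 := by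
    rw [e1]
    exact ((pa.add (Pw.cons h1 pb)).add ((Pw.const 3).mul h1)).add (Pw.const 1)
  exact this

/-- Bounded recursion: the step values are bounded by a function of the environment. -/
lemma iter {n a s A : List ℕ → ℕ} (hn : PT n) (ha : PT a) (hs : PT s) (hA : PT A)
    (hbd : ∀ env, a env ≤ A env) (hbd' : ∀ env i x, s (i :: x :: env) ≤ A env) :
    PT fun env => iterF (fun i x => s (i :: x :: env)) (a env) (n env) := by
  have h1 := hn.pw
  have h2 := hA.pw
  obtain ⟨en, hen, pn⟩ := hn
  obtain ⟨ea, hea, pa⟩ := ha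
  obtain ⟨es, hes, ps⟩ := hs
  have hf : ∀ env, (fun i x => Ex.eval es (i :: x :: env)) = fun i x => s (i :: x :: env) := fun env => by
    funext i x
    rw [hes]
  refine ⟨Ex.iter en ea es, fun env => by
    simp only [Ex.eval, hen, hea, hes], ?_⟩
  have hx : ∀ env k, iterF (fun i x => s (i :: x :: env)) (a env) k ≤ A env := by
    intro env k
    cases k with
    | zero => exact hbd env
    | succ k => exact hbd' env _ _
  have e1 : Ex.eval en = n := funext hen
  have e2 : Ex.eval ea = a := funext hea
  obtain ⟨q, hq⟩ := ps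
  have hG : Pw fun env => (n env + A env + (env.sum + 2)) ^ q + 3 * A env + 4 * A env + 6 :=
    ((((((h1.add h2).add Pw.base).pow q).add ((Pw.const 3).mul h2))).add ((Pw.const 4).mul h2)).add
      (Pw.const 6)
  have hsum := Pw.sum_le (n := n) (fun env i => Ex.cost es (i :: iterF (fun i x => s (i :: x :: env))
      (a env) i :: env) + 3 * iterF (fun i x => s (i :: x :: env)) (a env) i +
        4 * iterF (fun i x => s (i :: x :: env)) (a env) (i + 1) + 6) h1 hG (by
      intro env i hi
      have e3 := hq (i :: iterF (fun i x => s (i :: x :: env)) (a env) i :: env)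
      have e4 : Ex.cost es (i :: iterF (fun i x => s (i :: x :: env)) (a env) i :: env) ≤
          (n env + A env + (env.sum + 2)) ^ q := by
        refine e3.trans (Nat.pow_le_pow_left ?_ q)
        have := hx env i
        simp only [List.sum_cons]
        omega
      have e5 := hx env i
      have e6 := hx env (i + 1)
      omega)
  have : Pw fun env => Ex.cost (Ex.iter en ea es) env := by
    have e3 : Ex.cost (Ex.iter en ea es) = fun env => Ex.cost en env + Ex.cost ea env +
        (∑ i ∈ range (n env), (Ex.cost es (i :: iterF (fun i x => s (i :: x :: env))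
          (a env) i :: env) + 3 * iterF (fun i x => s (i :: x :: env)) (a env) i +
          4 * iterF (fun i x => s (i :: x :: env)) (a env) (i + 1) + 6)) + 3 * n env +
        4 * iterF (fun i x => s (i :: x :: env)) (a env) (n env) + 3 := by
      funext env
      simp only [Ex.cost, hen, hea, hf]
    rw [e3]
    refine ((((((pn.add pa).add hsum)).add ((Pw.const 3).mul h1)).add
      ((Pw.const 4).mul (h2.of_le fun env => hx env (n env)))).add (Pw.const 3))
  exact this

/-- Multiplication. -/
lemma mul {f g : List ℕ → ℕ} (hf : PT f) (hg : PT g) : PT fun env => f env * g env := by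
  have := sum hf hg.drop
  refine (funext fun env => ?_ : (fun env => ∑ i ∈ range (f env), (fun e => g (List.tail e)) (i :: env)) =
    fun env => f env * g env) ▸ this
  simp

end PT

end Vale.Agent.Lib.P310F
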