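import Vale.Agent.Lib.P310F.Poly

/-!
Closure properties: predicates decided with polynomially many steps, arithmetic, counting, pairing.
-/

namespace Vale.Agent.Lib.P310F

open Finset

/-- Predicates decided by a function computed with polynomially many steps. -/
def PD (P : List ℕ → Prop) : Prop := ∃ f, PT f ∧ ∀ e, f e ≠ 0 ↔ P e

namespace PT

lemma of_eq {f g : List ℕ → ℕ} (h : PT g) (e : ∀ x, f x = g x) : PT f := by
  have : f = g := funext e
  rw [this]
  exact h

lemma tl {f : List ℕ → ℕ} (h : PT f) : PT fun e => f e.tail := h.drop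

lemma ifzN {c f g : List ℕ → ℕ} (hc : PT c) (hf : PT f) (hg : PT g) :
    PT fun e => if c e = 0 then f e else g e := hc.ifz hf hg

end PT

namespace PD

lemma of_iff {P Q : List ℕ → Prop} (h : PD P) (e : ∀ x, Q x ↔ P x) : PD Q := by
  obtain ⟨f, hf, hfe⟩ := h
  exact ⟨f, hf, fun x => (hfe x).trans (e x).symm⟩

lemma tl {P : List ℕ → Prop} (h : PD P) : PD fun e => P e.tail := by
  obtain ⟨f, hf, hfe⟩ := h
  exact ⟨_, hf.drop, fun x => hfe x.tail⟩

lemma tt : PD fun _ => True := ⟨fun _ => 1, PT.const 1, fun _ => by simp⟩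

lemma ff : PD fun _ => False := ⟨fun _ => 0, PT.const 0, fun _ => by simp⟩

lemma nz {a : List ℕ → ℕ} (h : PT a) : PD fun e => a e ≠ 0 := ⟨a, h, fun _ => Iff.rfl⟩

lemma not {P : List ℕ → Prop} (h : PD P) : PD fun e => ¬ P e := by
  obtain ⟨f, hf, hfe⟩ := h
  refine ⟨fun e => if f e = 0 then 1 else 0, hf.ifz (PT.const 1) (PT.const 0), fun e => ?_⟩
  show (if f e = 0 then 1 else 0) ≠ 0 ↔ ¬ P e
  rw [← hfe e]
  by_cases h0 : f e = 0 <;> simp [h0]

lemma and {P Q : List ℕ → Prop} (h : PD P) (h' : PD Q) : PD fun e => P e ∧ Q e := by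
  obtain ⟨f, hf, hfe⟩ := h
  obtain ⟨g, hg, hge⟩ := h'
  refine ⟨fun e => f e * g e, hf.mul hg, fun e => ?_⟩
  show f e * g e ≠ 0 ↔ P e ∧ Q e
  rw [← hfe e, ← hge e]
  simp

lemma or {P Q : List ℕ → Prop} (h : PD P) (h' : PD Q) : PD fun e => P e ∨ Q e := by
  obtain ⟨f, hf, hfe⟩ := h
  obtain ⟨g, hg, hge⟩ := h'
  refine ⟨fun e => f e + g e, hf.add hg, fun e => ?_⟩
  show f e + g e ≠ 0 ↔ P e ∨ Q e
  rw [← hfe e, ← hge e]
  omega

lemma imp {P Q : List ℕ → Prop} (h : PD P) (h' : PD Q) : PD fun e => P e → Q e :=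
  (h.not.or h').of_iff fun e => by tauto

lemma iff {P Q : List ℕ → Prop} (h : PD P) (h' : PD Q) : PD fun e => P e ↔ Q e :=
  ((h.imp h').and (h'.imp h)).of_iff fun e => by tauto

lemma eq0 {a : List ℕ → ℕ} (h : PT a) : PD fun e => a e = 0 := (nz h).not.of_iff fun e => by simp

lemma lt {a b : List ℕ → ℕ} (ha : PT a) (hb : PT b) : PD fun e => a e < b e :=
  (nz (hb.sub ha)).of_iff fun e => by omega

lemma le {a b : List ℕ → ℕ} (ha : PT a) (hb : PT b) : PD fun e => a e ≤ b e :=
  (eq0 (ha.sub hb)).of_iff fun e => by omega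

lemma eq {a b : List ℕ → ℕ} (ha : PT a) (hb : PT b) : PD fun e => a e = b e :=
  ((le ha hb).and (le hb ha)).of_iff fun e => by omega

lemma ne {a b : List ℕ → ℕ} (ha : PT a) (hb : PT b) : PD fun e => a e ≠ b e := (eq ha hb).not

/-- Bounded existential quantifier. -/
lemma bex {b : List ℕ → ℕ} {P : List ℕ → ℕ → Prop} (hb : PT b)
    (h : PD fun e => P e.tail (v 0 e)) : PD fun e => ∃ x, x < b e ∧ P e x := by
  obtain ⟨f, hf, hfe⟩ := h
  refine ⟨fun e => ∑ i ∈ range (b e), f (i :: e), hb.sum hf, fun e => ?_⟩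
  rw [Ne, Finset.sum_eq_zero_iff]
  push Not
  constructor
  · rintro ⟨i, hi, h0⟩
    exact ⟨i, mem_range.mp hi, (hfe (i :: e)).mp h0⟩
  · rintro ⟨i, hi, h0⟩
    exact ⟨i, mem_range.mpr hi, (hfe (i :: e)).mpr h0⟩

/-- Bounded universal quantifier. -/
lemma ball {b : List ℕ → ℕ} {P : List ℕ → ℕ → Prop} (hb : PT b)
    (h : PD fun e => P e.tail (v 0 e)) : PD fun e => ∀ x, x < b e → P e x :=
  (bex (P := fun e x => ¬ P e x) hb h.not).not.of_iff fun e => by
    push Not
    rfl

end PD

open Classical in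
/-- Counting numbers below `k`. -/
noncomputable def cnt (P : ℕ → Prop) (k : ℕ) : ℕ := ((range k).filter P).card

namespace PT

/-- Case distinction. -/
lemma ite {P : List ℕ → Prop} [∀ e, Decidable (P e)] {f g : List ℕ → ℕ} (h : PD P) (hf : PT f)
    (hg : PT g) :
    PT fun e => if P e then f e else g e := by
  obtain ⟨c, hc, hce⟩ := h
  refine (hc.ifz hg hf).of_eq fun e => ?_
  by_cases h0 : c e = 0
  · have : ¬ P e := fun hp => (hce e).mpr hp h0
    simp [this, h0]
  · have : P e := (hce e).mp h0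
    simp [this, h0]

/-- Counting. -/
lemma cnt {b : List ℕ → ℕ} {P : List ℕ → ℕ → Prop} (hb : PT b)
    (h : PD fun e => P e.tail (v 0 e)) : PT fun e => cnt (P e) (b e) := by
  classical
  refine (PT.sum hb (ite h (PT.const 1) (PT.const 0))).of_eq fun e => ?_
  unfold P310F.cnt
  rw [Finset.card_filter]
  rfl

open Classical in
/-- A sum over the numbers below a bound with a property. -/
lemma sumIf {b : List ℕ → ℕ} {P : List ℕ → ℕ → Prop} {s : List ℕ → ℕ → ℕ} (hb : PT b)
    (h : PD fun e => P e.tail (v 0 e)) (hs : PT fun e => s e.tail (v 0 e)) :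
    PT fun e => ∑ j ∈ (range (b e)).filter (P e), s e j := by
  refine (PT.sum hb (ite h hs (PT.const 0))).of_eq fun e => ?_
  rw [Finset.sum_filter]
  rfl

/-- Minimum. -/
lemma minN {a b : List ℕ → ℕ} (ha : PT a) (hb : PT b) : PT fun e => min (a e) (b e) :=
  (ite (PD.le ha hb) ha hb).of_eq fun e => by
    by_cases h : a e ≤ b e <;> simp [h]; omega

/-- Maximum. -/
lemma maxN {a b : List ℕ → ℕ} (ha : PT a) (hb : PT b) : PT fun e => max (a e) (b e) :=
  (ite (PD.le ha hb) hb ha).of_eq fun e => by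
    by_cases h : a e ≤ b e <;> simp [h]; omega

/-- Fixed powers. -/
lemma pow {a : List ℕ → ℕ} (ha : PT a) (k : ℕ) : PT fun e => a e ^ k := by
  induction k with
  | zero => simpa using PT.const 1
  | succ k ih => exact (ih.mul ha).of_eq fun e => by rw [pow_succ]

lemma cnt_lt_aux {a q : ℕ} (h : q ≤ a) : P310F.cnt (fun x => x < q) a = q := by
  unfold P310F.cnt
  calc _ = (range q).card := by
        congr 1
        ext x
        simp only [mem_filter, mem_range]
        omega
    _ = q := card_range q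

/-- Division. -/
lemma div {a b : List ℕ → ℕ} (ha : PT a) (hb : PT b) : PT fun e => a e / b e := by
  have h1 : PT fun e => P310F.cnt (fun q => (q + 1) * b e ≤ a e) (a e) := by
    refine cnt ha (PD.le ((PT.var 0).add (PT.const 1) |>.mul hb.tl) ha.tl)
  refine (PT.ifz hb (PT.const 0) h1).of_eq fun e => ?_
  by_cases h0 : b e = 0
  · simp [h0]
  · rw [if_neg h0]
    have h2 : (fun q => (q + 1) * b e ≤ a e) = fun q => q < a e / b e := by
      funext q
      apply propext
      rw [Nat.lt_iff_add_one_le, Nat.le_div_iff_mul_le (by omega)]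
    rw [h2, cnt_lt_aux (Nat.div_le_self _ _)]

/-- Remainder. -/
lemma mod {a b : List ℕ → ℕ} (ha : PT a) (hb : PT b) : PT fun e => a e % b e :=
  (ha.sub (hb.mul (ha.div hb))).of_eq fun e => Nat.mod_def _ _

/-- The capped power. -/
lemma powCap {A b k : List ℕ → ℕ} (hA : PT A) (hb : PT b) (hk : PT k) :
    PT fun e => min (A e) (b e ^ k e) := by
  have h := PT.iter (n := k) (a := fun e => min (A e) 1) (A := A)
    (s := fun e' => min (A e'.tail.tail) (b e'.tail.tail * v 1 e')) hk (hA.minN (PT.const 1))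
    (hA.tl.tl.minN ((hb.tl.tl).mul (PT.var 1))) hA (fun e => min_le_left _ _)
    (fun e i x => min_le_left _ _)
  refine h.of_eq fun e => ?_
  have key : ∀ j, iterF (fun i x => min (A e) (b e * x)) (min (A e) 1) j = min (A e) (b e ^ j) := by
    intro j
    induction j with
    | zero => simp [iterF]
    | succ j ih =>
      simp only [iterF]
      rw [ih]
      rcases Nat.eq_zero_or_pos (b e) with h0 | h0
      · simp [h0]
      · rw [pow_succ']
        rcases le_total (A e) (b e ^ j) with h1 | h1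
        · rw [min_eq_left h1]
          have h2 : A e ≤ b e * A e := Nat.le_mul_of_pos_left _ h0
          have h3 : A e ≤ b e * b e ^ j := h1.trans (Nat.le_mul_of_pos_left _ h0)
          rw [min_eq_left h2, min_eq_left h3]
        · rw [min_eq_right h1]
  exact (key _).symm

/-- Quotient by a power of two, through the capped power. -/
lemma div_pow2 {s r : List ℕ → ℕ} (hs : PT s) (hr : PT r) : PT fun e => s e / 2 ^ r e := by
  have h := hs.div (powCap (hs.add (PT.const 1)) (PT.const 2) hr)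
  refine h.of_eq fun e => ?_
  rcases le_total (s e + 1) (2 ^ r e) with h1 | h1
  · rw [min_eq_left h1, Nat.div_eq_of_lt (by omega), Nat.div_eq_of_lt (by omega)]
  · rw [min_eq_right h1]

/-- The square root. -/
lemma sqrt {a : List ℕ → ℕ} (ha : PT a) : PT fun e => Nat.sqrt (a e) := by
  have h1 : PT fun e => P310F.cnt (fun q => (q + 1) * (q + 1) ≤ a e) (a e) :=
    cnt ha (PD.le (((PT.var 0).add (PT.const 1)).mul ((PT.var 0).add (PT.const 1))) ha.tl)
  refine h1.of_eq fun e => ?_
  have h2 : (fun q => (q + 1) * (q + 1) ≤ a e) = fun q => q < Nat.sqrt (a e) := by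
    funext q
    apply propext
    rw [Nat.lt_iff_add_one_le, Nat.le_sqrt]
  rw [h2, cnt_lt_aux (Nat.sqrt_le_self _)]

/-- The pairing function. -/
lemma pair {a b : List ℕ → ℕ} (ha : PT a) (hb : PT b) : PT fun e => Nat.pair (a e) (b e) :=
  (ite (PD.lt ha hb) ((hb.mul hb).add ha) (((ha.mul ha).add ha).add hb)).of_eq fun e => by
    unfold Nat.pair
    rfl

/-- First component of unpairing. -/
lemma unpair1 {a : List ℕ → ℕ} (ha : PT a) : PT fun e => (Nat.unpair (a e)).1 := by
  have hs := ha.sqrt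
  have hd : PT fun e => a e - Nat.sqrt (a e) * Nat.sqrt (a e) := ha.sub (hs.mul hs)
  refine (ite (PD.lt hd hs) hd hs).of_eq fun e => ?_
  unfold Nat.unpair
  simp only
  split_ifs <;> rfl

/-- Second component of unpairing. -/
lemma unpair2 {a : List ℕ → ℕ} (ha : PT a) : PT fun e => (Nat.unpair (a e)).2 := by
  have hs := ha.sqrt
  have hd : PT fun e => a e - Nat.sqrt (a e) * Nat.sqrt (a e) := ha.sub (hs.mul hs)
  refine (ite (PD.lt hd hs) hs (hd.sub hs)).of_eq fun e => ?_
  unfold Nat.unpair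
  simp only
  split_ifs <;> rfl

end PT

/-- Coding of lists of numbers. -/
def tup : List ℕ → ℕ
  | [] => 0
  | a :: l => Nat.pair a (tup l) + 1

/-- Entries of a coded list. -/
def fd : ℕ → ℕ → ℕ
  | 0, k => (k - 1).unpair.1
  | i + 1, k => fd i (k - 1).unpair.2

@[simp] lemma tup_nil : tup [] = 0 := rfl

lemma tup_cons (a : ℕ) (l : List ℕ) : tup (a :: l) = Nat.pair a (tup l) + 1 := rfl

lemma fd_zero_zero : ∀ i, fd i 0 = 0
  | 0 => rfl
  | i + 1 => by
    show fd i (0 - 1).unpair.2 = 0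
    have : (0 - 1 : ℕ).unpair.2 = 0 := rfl
    rw [this]
    exact fd_zero_zero i

lemma fd_tup : ∀ (i : ℕ) (l : List ℕ), fd i (tup l) = l.getD i 0
  | i, [] => by simpa using fd_zero_zero i
  | 0, a :: l => by
    simp [fd, tup_cons]
  | i + 1, a :: l => by
    simp only [fd, tup_cons, Nat.add_sub_cancel, Nat.unpair_pair, List.getD_cons_succ]
    exact fd_tup i l

lemma tup_inj : ∀ {l l' : List ℕ}, tup l = tup l' → l = l'
  | [], [], _ => rfl
  | [], a :: l, h => by simp [tup_cons] at h
  | a :: l, [], h => by simp [tup_cons] at h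
  | a :: l, b :: l', h => by
    simp only [tup_cons, Nat.add_right_cancel_iff, Nat.pair_eq_pair] at h
    rw [h.1, tup_inj h.2]

lemma tup_eq_iff {l l' : List ℕ} : tup l = tup l' ↔ l = l' := ⟨tup_inj, fun h => by rw [h]⟩

namespace PT

lemma tupNil : PT fun _ => tup [] := PT.const 0

lemma tupCons {a : List ℕ → ℕ} {l : List ℕ → List ℕ} (ha : PT a) (hl : PT fun e => tup (l e)) :
    PT fun e => tup (a e :: l e) :=
  (ha.pair hl).add (PT.const 1)

lemma fd (i : ℕ) {a : List ℕ → ℕ} (ha : PT a) : PT fun e => fd i (a e) := by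
  induction i generalizing a with
  | zero => exact (ha.sub (PT.const 1)).unpair1
  | succ i ih => exact ih (ha.sub (PT.const 1)).unpair2

end PT

/-- The bit of a number at a position. -/
def bt (s r : ℕ) : ℕ := s / 2 ^ r % 2

lemma bt_lt (s r : ℕ) : bt s r < 2 := Nat.mod_lt _ (by omega)

lemma PT.bt {s r : List ℕ → ℕ} (hs : PT s) (hr : PT r) : PT fun e => bt (s e) (r e) :=
  (hs.div_pow2 hr).mod (PT.const 2)

lemma bt_eqv {K : ℕ} (f : Fin K → Fin 2) (i : Fin K) :
    bt (finFunctionFinEquiv f).val i.val = (f i).val := by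
  have h := congrFun (finFunctionFinEquiv.symm_apply_apply f) i
  exact congrArg Fin.val h

/-- Every finite table of bits is the bit sequence of a number. -/
lemma exists_table (P : ℕ → Prop) (K : ℕ) : ∃ T, ∀ k, k < K → (bt T k = 1 ↔ P k) := by
  classical
  refine ⟨(finFunctionFinEquiv (fun i : Fin K => if P i.val then (1 : Fin 2) else 0)).val,
    fun k hk => ?_⟩
  have h := bt_eqv (fun i : Fin K => if P i.val then (1 : Fin 2) else 0) ⟨k, hk⟩
  simp only at h
  rw [h]
  by_cases hp : P k <;> simp [hp]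

end Vale.Agent.Lib.P310F
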