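import Vale.Agent.Lib.P310F.Comp

/-!
Programs that emit bits, and the Turing machine of such a program.
-/

namespace Vale.Agent.Lib.P310F

open Finset SP

/-- Concatenation of `g 0, …, g (k - 1)`. -/
def flatUp (g : ℕ → List Bool) : ℕ → List Bool
  | 0 => []
  | k + 1 => flatUp g k ++ g k

lemma flatUp_eq (g : ℕ → List Bool) (k : ℕ) : flatUp g k = (List.range k).flatMap g := by
  induction k with
  | zero => rfl
  | succ k ih => rw [List.range_succ, List.flatMap_append, ← ih]; simp [flatUp]

/-- Programs that emit bits. -/
inductive St where
  | skip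
  | emit (e : Ex)
  | seq (a b : St)
  | forS (b : Ex) (s : St)
  | ifS (c : Ex) (s : St)

namespace St

/-- The bits emitted by a program. -/
def out : St → List ℕ → List Bool
  | skip, _ => []
  | emit e, env => [decide (e.eval env ≠ 0)]
  | seq a b, env => out a env ++ out b env
  | forS b s, env => flatUp (fun i => out s (i :: env)) (b.eval env)
  | ifS c s, env => if c.eval env = 0 then [] else out s env

/-- An upper bound for the number of steps of a program. -/
def cost : St → List ℕ → ℕ
  | skip, _ => 0
  | emit e, env => e.cost env + 3 * e.eval env + 8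
  | seq a b, env => cost a env + cost b env
  | forS b s, env => b.cost env + (∑ i ∈ range (b.eval env), (cost s (i :: env) + 4)) +
      3 * b.eval env + 2
  | ifS c s, env => c.cost env + 3 * c.eval env + cost s env + 5

/-- The structured program of a program. -/
def comp : List ℕ → St → ℕ → SP
  | _, skip, _ => SP.skip
  | ρ, emit e, F =>
    SP.seq (Ex.comp ρ e F (F + 2)) (SP.seq (SP.inc (F + 1))
      (SP.seq (wh F (SP.seq (clear F) (SP.seq (dec (F + 1)) (SP.out true))))
        (wh (F + 1) (SP.seq (dec (F + 1)) (SP.out false)))))
  | ρ, seq a b, F => SP.seq (comp ρ a F) (comp ρ b F)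
  | ρ, forS b s, F =>
    SP.seq (Ex.comp ρ b F (F + 2))
      (SP.seq (wh F (SP.seq (dec F) (SP.seq (comp ((F + 1) :: ρ) s (F + 2)) (SP.inc (F + 1)))))
        (clear (F + 1)))
  | ρ, ifS c s, F =>
    SP.seq (Ex.comp ρ c F (F + 1)) (wh F (SP.seq (clear F) (comp ρ s (F + 1))))

/-- The conditions under which the program runs correctly. -/
structure Good (ρ env : List ℕ) (F : ℕ) (s : ℕ → ℕ) : Prop where
  agree : List.Forall₂ (fun R x => s R = x) ρ env
  lt : ∀ R ∈ ρ, R < F
  zero : ∀ j, F ≤ j → s j = 0

lemma Good.ex {ρ env : List ℕ} {F : ℕ} {s : ℕ → ℕ} (h : Good ρ env F s) {T F' : ℕ} {s' : ℕ → ℕ}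
    (hT : F ≤ T) (hT' : T < F') (hF : F ≤ F') (hs : ∀ j, j < F → s' j = s j)
    (hz : ∀ j, F' ≤ j → s' j = 0) : Ex.Good ρ env T F' s' := by
  refine ⟨Ex.agree_congr h.agree fun R hR => hs R (h.lt R hR), fun R hR => lt_of_lt_of_le (h.lt R hR) hF,
    fun R hR he => ?_, hT', hz⟩
  have := h.lt R hR
  omega

/-- A program appends its bits to the output and restores the registers. -/
theorem comp_run (p : St) : ∀ (ρ env : List ℕ) (F : ℕ) (s : ℕ → ℕ) (o : List Bool),
    Good ρ env F s → ∃ t, t ≤ cost p env ∧ SP.Run (comp ρ p F) s o s (o ++ out p env) t := by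
  induction p with
  | skip =>
    intro ρ env F s o h
    exact ⟨0, le_rfl, (Run.skip s o).eq rfl (by simp [out]) rfl⟩
  | emit e =>
    intro ρ env F s o h
    have hF0 := h.zero F le_rfl
    have hF1 := h.zero (F + 1) (by omega)
    obtain ⟨t1, h1, r1⟩ := Ex.comp_run e ρ env F (F + 2) s o (h.ex le_rfl (by omega) (by omega)
      (fun j _ => rfl) (fun j hj => h.zero j (by omega)))
    set s1 := Function.update s F (s F + e.eval env) with hs1
    have r2 := Run.inc (F + 1) s1 o
    set s2 := Function.update s1 (F + 1) (s1 (F + 1) + 1) with hs2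
    have hs2F : s2 F = e.eval env := by simp [hs2, hs1, Function.update_apply, hF0]
    have hs2F1 : s2 (F + 1) = 1 := by simp [hs2, hs1, Function.update_apply, hF1]
    by_cases hc : e.eval env = 0
    · have r3 : SP.Run (wh F (SP.seq (clear F) (SP.seq (dec (F + 1)) (SP.out true)))) s2 o s2 o 1 :=
        Run.wh0 (by rw [hs2F, hc])
      have r4 := Run.seq (Run.dec (F + 1) s2 o) (Run.out false _ o)
      set s3 := Function.update s2 (F + 1) (s2 (F + 1) - 1) with hs3
      have r5 : SP.Run (wh (F + 1) (SP.seq (dec (F + 1)) (SP.out false))) s3 (o ++ [false]) s3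
          (o ++ [false]) 1 := Run.wh0 (by simp [hs3, hs2F1])
      have r6 := Run.whS (by omega) r4 r5
      refine ⟨_, ?_, (Run.seq r1 (Run.seq r2 (Run.seq r3 r6))).eq ?_ ?_ rfl⟩
      · simp only [cost]
        omega
      · funext j
        simp only [hs3, hs2, hs1, Function.update_apply]
        by_cases e1 : j = F + 1
        · subst e1
          simp [hF1]
        · by_cases e2 : j = F
          · subst e2
            simp [hF0, hc]
          · simp [e1, e2]
      · simp [out, hc]
    · have r3 := run_clear F (e.eval env) s2 o hs2F
      have r4 := Run.seq r3 (Run.seq (Run.dec (F + 1) _ o) (Run.out true _ o))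
      set s3 := Function.update (Function.update s2 F 0) (F + 1)
        (Function.update s2 F 0 (F + 1) - 1) with hs3
      have hs3F : s3 F = 0 := by simp [hs3, Function.update_apply]
      have hs3F1 : s3 (F + 1) = 0 := by simp [hs3, Function.update_apply, hs2F1]
      have r5 : SP.Run (wh F (SP.seq (clear F) (SP.seq (dec (F + 1)) (SP.out true)))) s3 (o ++ [true]) s3
          (o ++ [true]) 1 := Run.wh0 hs3F
      have r6 := Run.whS (by omega) r4 r5
      have r7 : SP.Run (wh (F + 1) (SP.seq (dec (F + 1)) (SP.out false))) s3 (o ++ [true]) s3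
          (o ++ [true]) 1 := Run.wh0 hs3F1
      refine ⟨_, ?_, (Run.seq r1 (Run.seq r2 (Run.seq r6 r7))).eq ?_ ?_ rfl⟩
      · simp only [cost]
        omega
      · funext j
        simp only [hs3, hs2, hs1, Function.update_apply]
        by_cases e1 : j = F + 1
        · subst e1
          simp [hF1]
        · by_cases e2 : j = F
          · subst e2
            simp [hF0]
          · simp [e1, e2]
      · simp [out, hc]
  | seq a b iha ihb =>
    intro ρ env F s o h
    obtain ⟨t1, h1, r1⟩ := iha ρ env F s o h
    obtain ⟨t2, h2, r2⟩ := ihb ρ env F s _ h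
    exact ⟨t1 + t2, Nat.add_le_add h1 h2, (Run.seq r1 r2).eq rfl (by simp [out]) rfl⟩
  | forS b a iha =>
    intro ρ env F s o h
    have hF0 := h.zero F le_rfl
    have hF1 := h.zero (F + 1) (by omega)
    obtain ⟨t1, h1, r1⟩ := Ex.comp_run b ρ env F (F + 2) s o (h.ex le_rfl (by omega) (by omega)
      (fun j _ => rfl) (fun j hj => h.zero j (by omega)))
    set s1 := Function.update s F (s F + b.eval env) with hs1
    have loop : ∀ (k i : ℕ) (u : ℕ → ℕ) (o' : List Bool), u F = k → u (F + 1) = i →
        (∀ j, j < F → u j = s j) → (∀ j, F + 2 ≤ j → u j = 0) →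
        ∃ t, t + (∑ x ∈ range i, (cost a (x :: env) + 4)) ≤
            (∑ x ∈ range (i + k), (cost a (x :: env) + 4)) + 1 ∧
          SP.Run (wh F (SP.seq (dec F) (SP.seq (comp ((F + 1) :: ρ) a (F + 2)) (SP.inc (F + 1))))) u o'
            (Function.update (Function.update u F 0) (F + 1) (i + k))
            (o' ++ ((List.range' i k).flatMap fun x => out a (x :: env))) t := by
      intro k
      induction k with
      | zero =>
        intro i u o' hu1 hu2 hu3 hu4
        refine ⟨1, by simp; omega, (Run.wh0 hu1).eq ?_ (by simp) rfl⟩
        funext j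
        simp only [Function.update_apply, Nat.add_zero]
        split_ifs with e1 e2
        · rw [e1, hu2]
        · rw [e2, hu1]
        · rfl
      | succ k ih =>
        intro i u o' hu1 hu2 hu3 hu4
        have r2 := Run.dec F u o'
        set u1 := Function.update u F (u F - 1) with hu1'
        obtain ⟨t3, h3, r3⟩ := iha ((F + 1) :: ρ) (i :: env) (F + 2) u1 o' (by
          have hag := Ex.agree_congr (s' := u1) h.agree fun R hR => by
            have := h.lt R hR
            rw [hu1', Function.update_of_ne (by omega)]
            exact hu3 R this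
          refine ⟨List.Forall₂.cons (by rw [hu1', Function.update_of_ne (by omega)]; exact hu2) hag,
            fun R hR => ?_, fun j hj => ?_⟩
          · rcases List.mem_cons.mp hR with rfl | hR
            · omega
            · have := h.lt R hR
              omega
          · rw [hu1', Function.update_of_ne (by omega)]
            exact hu4 j hj)
        have r4 := Run.inc (F + 1) u1 (o' ++ out a (i :: env))
        set u2 := Function.update u1 (F + 1) (u1 (F + 1) + 1) with hu2'
        obtain ⟨t5, h5, r5⟩ := ih (i + 1) u2 (o' ++ out a (i :: env))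
          (by
            rw [hu2', Function.update_of_ne (by omega), hu1']
            simp [hu1])
          (by
            rw [hu2']
            simp only [Function.update_self]
            rw [hu1', Function.update_of_ne (by omega), hu2])
          (fun j hj => by
            rw [hu2', Function.update_of_ne (by omega), hu1', Function.update_of_ne (by omega)]
            exact hu3 j hj)
          (fun j hj => by
            rw [hu2', Function.update_of_ne (by omega), hu1', Function.update_of_ne (by omega)]
            exact hu4 j hj)
        have r6 := Run.whS (by omega) (Run.seq r2 (Run.seq r3 r4)) r5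
        refine ⟨_, ?_, r6.eq ?_ ?_ rfl⟩
        · have e1 : i + 1 + k = i + (k + 1) := by omega
          rw [e1, Finset.sum_range_succ (fun x => cost a (x :: env) + 4) i] at h5
          omega
        · have e1 : i + 1 + k = i + (k + 1) := by omega
          rw [e1]
          funext j
          simp only [hu2', hu1', Function.update_apply]
          split_ifs <;> first | rfl | omega
        · simp [List.range'_succ]
    obtain ⟨t2, h2, r2⟩ := loop (b.eval env) 0 s1 o
      (by simp [hs1, hF0]) (by rw [hs1, Function.update_of_ne (by omega)]; exact hF1)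
      (fun j hj => by rw [hs1, Function.update_of_ne (by omega)])
      (fun j hj => by
        rw [hs1, Function.update_of_ne (by omega)]
        exact h.zero j (by omega))
    simp only [Finset.range_zero, Finset.sum_empty, Nat.zero_add, Nat.add_zero] at h2 r2
    have r3 := run_clear (F + 1) (b.eval env) _ (o ++ ((List.range' 0 (b.eval env)).flatMap
      fun x => out a (x :: env))) (by simp [Function.update_apply] :
      (Function.update (Function.update s1 F 0) (F + 1) (b.eval env)) (F + 1) = b.eval env)
    refine ⟨_, ?_, (Run.seq r1 (Run.seq r2 r3)).eq ?_ ?_ rfl⟩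
    · simp only [cost]
      omega
    · funext j
      simp only [hs1, Function.update_apply]
      by_cases e1 : j = F + 1
      · subst e1
        simp [hF1]
      · by_cases e2 : j = F
        · subst e2
          simp [hF0]
        · simp [e1, e2]
    · simp only [out, flatUp_eq, List.range_eq_range']
  | ifS c a iha =>
    intro ρ env F s o h
    have hF0 := h.zero F le_rfl
    obtain ⟨t1, h1, r1⟩ := Ex.comp_run c ρ env F (F + 1) s o (h.ex le_rfl (by omega) (by omega)
      (fun j _ => rfl) (fun j hj => h.zero j (by omega)))
    set s1 := Function.update s F (s F + c.eval env) with hs1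
    have hs1F : s1 F = c.eval env := by simp [hs1, hF0]
    by_cases hc : c.eval env = 0
    · have r2 : SP.Run (wh F (SP.seq (clear F) (comp ρ a (F + 1)))) s1 o s1 o 1 :=
        Run.wh0 (by rw [hs1F, hc])
      refine ⟨_, ?_, (Run.seq r1 r2).eq ?_ ?_ rfl⟩
      · simp only [cost]
        omega
      · funext j
        simp only [hs1, Function.update_apply]
        split_ifs with e1
        · rw [e1, hF0, hc]
        · rfl
      · simp [out, hc]
    · have r2 := run_clear F (c.eval env) s1 o hs1F
      set s2 := Function.update s1 F 0 with hs2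
      have hs2e : s2 = s := by
        funext j
        simp only [hs2, hs1, Function.update_apply]
        split_ifs with e1
        · rw [e1, hF0]
        · rfl
      obtain ⟨t3, h3, r3⟩ := iha ρ env (F + 1) s2 o (by
        rw [hs2e]
        exact ⟨h.agree, fun R hR => by have := h.lt R hR; omega, fun j hj => h.zero j (by omega)⟩)
      have r4 : SP.Run (wh F (SP.seq (clear F) (comp ρ a (F + 1)))) s2 (o ++ out a env) s2
          (o ++ out a env) 1 := Run.wh0 (by simp [hs2])
      have r5 := Run.whS (by omega) (Run.seq r2 r3) r4
      refine ⟨_, ?_, (Run.seq r1 r5).eq hs2e ?_ rfl⟩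
      · simp only [cost]
        omega
      · simp [out, hc]

end St

end Vale.Agent.Lib.P310F
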