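import Vale.Agent.Lib.P310F.TMSim2

namespace Vale.Agent.Lib.P310F

section

variable {Q Γ : Type} {code : List Instr} {r : ℕ} {A : DTM Q Γ} {ι : Bool → Γ}

lemma turn_home {T : ℤ → Γ ⊕ Cell r} (p : Fin (code.length + 1)) :
    Rch (simM code r A ι) NA ⟨Sum.inl (p, Phase.turn), T, 1⟩ ⟨Sum.inl (p, Phase.start), T, 0⟩ 1 := by
  refine Rch.one rfl ?_
  have : (simM code r A ι).δ (Sum.inl (p, Phase.turn)) (T 1) =
      (Sum.inl (p, Phase.start), T 1, false) := rfl
  rw [step_left this, Function.update_eq_self]
  rfl

/-- Simulation of an output. -/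
lemma sim_out {c : CConf} {T : ℤ → Γ ⊕ Cell r} {B : ℕ} (h : TRep r A c T B)
    (p : Fin (code.length + 1)) (hp : p.val = c.pc) {b : Bool}
    (hi : code[p.val]? = some (Instr.out b)) :
    ∃ t T' B', t ≤ 2 * B + 4 ∧ B' ≤ B + 1 ∧
      Rch (simM code r A ι) NA ⟨Sum.inl (p, Phase.start), T, 0⟩
        ⟨Sum.inl (mkPc code.length (c.pc + 1), Phase.start), T', 0⟩ t ∧
      TRep r A ⟨c.pc + 1, c.regs, c.out ++ [b]⟩ T' B' := by
  set c' : CConf := ⟨c.pc + 1, c.regs, c.out ++ [b]⟩ with hc'
  set v := c.out.length with hv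
  have hvB : v ≤ B := h.out_le
  have hw := h.write (c' := c') v hvB (fun i hi' => by
      unfold cellOf
      simp only [hc', Prod.mk.injEq, true_and]
      rw [List.getElem?_append]
      split_ifs with h3
      · rfl
      · have h4 : i - c.out.length ≠ 0 := by omega
        obtain ⟨k, hk⟩ := Nat.exists_eq_succ_of_ne_zero h4
        rw [hk]
        simp only [List.getElem?_cons_succ, List.getElem?_nil]
        rw [List.getElem?_eq_none]
        omega) (fun j' hj' => le_trans (h.reg_le j' hj') (le_max_left _ _))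
      (by simp [hc', ← hv])
  set T' := Function.update T (v : ℤ) (Sum.inr (cellOf r c' v)) with hT'
  have hset : (cellOf r c v).setOp b = cellOf r c' v := by
    unfold Cell.setOp cellOf
    simp only [hc', Prod.mk.injEq, true_and]
    rw [List.getElem?_append_right (by omega)]
    simp [← hv]
  have hB' : max B (v + 1) ≤ B + 1 := by
    rcases max_cases B (v + 1) with ⟨h2, h3⟩ | ⟨h2, h3⟩ <;> omega
  rcases Nat.eq_zero_or_pos v with hv0 | hvpos
  · refine ⟨2, T', _, by omega, hB', ?_, hw⟩
    have e0 : (view (T 0)).op = none := by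
      rw [view_op0 h]
      rw [List.getElem?_eq_none]
      omega
    have e1 : (simM code r A ι).δ (Sum.inl (p, Phase.start)) (T 0) =
        (Sum.inl (mkPc code.length (c.pc + 1), Phase.turn), Sum.inr (cellOf r c' v), true) := by
      simp only [simM, phStep, hi, e0]
      have : view (T 0) = cellOf r c 0 := by simpa using h.view_eq 0
      rw [this, ← hp]
      simp only [hv0] at hset ⊢
      rw [hset]
    have s1 : Rch (simM code r A ι) NA ⟨Sum.inl (p, Phase.start), T, 0⟩
        ⟨Sum.inl (mkPc code.length (c.pc + 1), Phase.turn), T', 1⟩ 1 := by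
      refine Rch.one rfl ?_
      rw [step_right e1, hT', hv0]
      simp
    exact s1.trans (turn_home _)
  · refine ⟨1 + (v - 1) + 1 + (v - 1 + 2), T', _, by omega, hB', ?_, hw⟩
    have hsome : ∀ i, i < v → ∃ x, (view (T (i : ℤ))).op = some x := fun i hi' => by
      rw [view_op h]
      exact ⟨c.out[i]'hi', List.getElem?_eq_getElem hi'⟩
    have e1 : (simM code r A ι).δ (Sum.inl (p, Phase.start)) (T 0) =
        (Sum.inl (p, Phase.goOut), T 0, true) := by
      obtain ⟨x, hx⟩ := hsome 0 hvpos
      simp only [Nat.cast_zero] at hx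
      simp only [simM, phStep, hi, hx]
    have s1 : Rch (simM code r A ι) NA ⟨Sum.inl (p, Phase.start), T, 0⟩
        ⟨Sum.inl (p, Phase.goOut), T, 1⟩ 1 := by
      refine Rch.one rfl ?_
      rw [step_right e1, Function.update_eq_self]
      rfl
    have s2 : Rch (simM code r A ι) NA ⟨Sum.inl (p, Phase.goOut), T, 1⟩
        ⟨Sum.inl (p, Phase.goOut), T, 1 + ((v - 1 : ℕ) : ℤ)⟩ (v - 1) := by
      refine walkR (M := simM code r A ι) (P := NA) rfl T 1 (v - 1) fun k hk => ?_
      have e : (1 : ℤ) + k = ((k + 1 : ℕ) : ℤ) := by push_cast; ring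
      rw [e]
      obtain ⟨x, hx⟩ := hsome (k + 1) (by omega)
      simp only [simM, phStep, hi, hx]
    have e3 : (1 : ℤ) + ((v - 1 : ℕ) : ℤ) = (v : ℤ) := by omega
    rw [e3] at s2
    have e4 : (view (T (v : ℤ))).op = none := by
      rw [view_op h]
      rw [List.getElem?_eq_none]
      omega
    have e5 : (simM code r A ι).δ (Sum.inl (p, Phase.goOut)) (T (v : ℤ)) =
        (Sum.inl (mkPc code.length (c.pc + 1), Phase.back), Sum.inr (cellOf r c' v), false) := by
      simp only [simM, phStep, hi, e4]
      rw [h.view_eq v, ← hp, hset]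
    have s3 : Rch (simM code r A ι) NA ⟨Sum.inl (p, Phase.goOut), T, (v : ℤ)⟩
        ⟨Sum.inl (mkPc code.length (c.pc + 1), Phase.back), T', ((v - 1 : ℕ) : ℤ)⟩ 1 := by
      refine Rch.one rfl ?_
      rw [step_left e5]
      have e6 : (v : ℤ) - 1 = ((v - 1 : ℕ) : ℤ) := by omega
      rw [e6]
    have s4 := back_home (code := code) (ι := ι) hw (mkPc code.length (c.pc + 1)) (v - 1)
    exact ((s1.trans s2).trans s3).trans s4

/-- Instructions use registers below `r` and jump at most to the end of the code. -/
def InstrOk (r ℓ : ℕ) : Instr → Prop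
  | Instr.inc j => j < r
  | Instr.dec j => j < r
  | Instr.jz j L => j < r ∧ L ≤ ℓ
  | Instr.jmp L => L ≤ ℓ
  | Instr.out _ => True

lemma mkPc_val {ℓ p : ℕ} (h : p ≤ ℓ) : (mkPc ℓ p).val = p := by
  simp [mkPc, h]

/-- Simulation of one step of the counter machine. -/
lemma sim_step (hcode : ∀ i ∈ code, InstrOk r code.length i) {c : CConf} {T : ℤ → Γ ⊕ Cell r} {B : ℕ}
    (h : TRep r A c T B) (hpc : c.pc ≤ code.length) :
    ∃ t T' B', t ≤ 2 * B + 4 ∧ B' ≤ B + 1 ∧ (CConf.step code c).pc ≤ code.length ∧
      Rch (simM code r A ι) NA ⟨Sum.inl (mkPc code.length c.pc, Phase.start), T, 0⟩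
        ⟨Sum.inl (mkPc code.length (CConf.step code c).pc, Phase.start), T', 0⟩ t ∧
      TRep r A (CConf.step code c) T' B' := by
  have hp : (mkPc code.length c.pc).val = c.pc := mkPc_val hpc
  rcases hlt : code[c.pc]? with _ | ins
  · have e : CConf.step code c = c := by
      unfold CConf.step
      rw [hlt]
    rw [e]
    exact ⟨0, T, B, by omega, by omega, hpc, Rch.refl _, h⟩
  · have hpc' : c.pc < code.length := by
      by_contra hcon
      rw [List.getElem?_eq_none (by omega)] at hlt
      simp at hlt
    have hmem : ins ∈ code := by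
      rw [List.getElem?_eq_some_iff] at hlt
      obtain ⟨h1, h2⟩ := hlt
      rw [← h2]
      exact List.getElem_mem _
    have hok := hcode ins hmem
    have hi : code[(mkPc code.length c.pc).val]? = some ins := by rw [hp]; exact hlt
    cases ins with
    | inc j =>
      obtain ⟨t, T', B', h1, h2, h3, h4⟩ := sim_inc (code := code) (ι := ι) h _ hp hok hi
      refine ⟨t, T', B', h1, h2, ?_, ?_, ?_⟩
      · simp only [CConf.step, hlt]; omega
      · simpa only [CConf.step, hlt] using h3
      · simpa only [CConf.step, hlt] using h4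
    | dec j =>
      obtain ⟨t, T', B', h1, h2, h3, h4⟩ := sim_dec (code := code) (ι := ι) h _ hp hok hi
      refine ⟨t, T', B', h1, h2, ?_, ?_, ?_⟩
      · simp only [CConf.step, hlt]; omega
      · simpa only [CConf.step, hlt] using h3
      · simpa only [CConf.step, hlt] using h4
    | out b =>
      obtain ⟨t, T', B', h1, h2, h3, h4⟩ := sim_out (code := code) (ι := ι) h _ hp hi
      refine ⟨t, T', B', h1, h2, ?_, ?_, ?_⟩
      · simp only [CConf.step, hlt]; omega
      · simpa only [CConf.step, hlt] using h3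
      · simpa only [CConf.step, hlt] using h4
    | jmp L =>
      have e1 : (simM code r A ι).δ (Sum.inl (mkPc code.length c.pc, Phase.start)) (T 0) =
          (Sum.inl (mkPc code.length L, Phase.turn), T 0, true) := by
        simp only [simM, phStep, hi]
      have s1 : Rch (simM code r A ι) NA ⟨Sum.inl (mkPc code.length c.pc, Phase.start), T, 0⟩
          ⟨Sum.inl (mkPc code.length L, Phase.turn), T, 1⟩ 1 := by
        refine Rch.one rfl ?_
        rw [step_right e1, Function.update_eq_self]
        rfl
      have e : CConf.step code c = ⟨L, c.regs, c.out⟩ := by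
        simp only [CConf.step, hlt]
      rw [e]
      exact ⟨2, T, B, by omega, by omega, hok, s1.trans (turn_home _), h.congr rfl rfl⟩
    | jz j L =>
      by_cases h0 : c.regs j = 0
      · have e0 : (view (T 0)).tr j = false := by
          rw [view_tr0 h hok.1, h0]
          simp
        have e1 : (simM code r A ι).δ (Sum.inl (mkPc code.length c.pc, Phase.start)) (T 0) =
            (Sum.inl (mkPc code.length L, Phase.turn), T 0, true) := by
          simp only [simM, phStep, hi, e0]
          rfl
        have s1 : Rch (simM code r A ι) NA ⟨Sum.inl (mkPc code.length c.pc, Phase.start), T, 0⟩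
            ⟨Sum.inl (mkPc code.length L, Phase.turn), T, 1⟩ 1 := by
          refine Rch.one rfl ?_
          rw [step_right e1, Function.update_eq_self]
          rfl
        have e : CConf.step code c = ⟨L, c.regs, c.out⟩ := by
          simp only [CConf.step, hlt, h0, if_true]
        rw [e]
        exact ⟨2, T, B, by omega, by omega, hok.2, s1.trans (turn_home _), h.congr rfl rfl⟩
      · have e0 : (view (T 0)).tr j = true := by
          rw [view_tr0 h hok.1]
          simp only [decide_eq_true_eq]
          omega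
        have e1 : (simM code r A ι).δ (Sum.inl (mkPc code.length c.pc, Phase.start)) (T 0) =
            (Sum.inl (mkPc code.length (c.pc + 1), Phase.turn), T 0, true) := by
          simp only [simM, phStep, hi, e0]
          rw [hp]
          rfl
        have s1 : Rch (simM code r A ι) NA ⟨Sum.inl (mkPc code.length c.pc, Phase.start), T, 0⟩
            ⟨Sum.inl (mkPc code.length (c.pc + 1), Phase.turn), T, 1⟩ 1 := by
          refine Rch.one rfl ?_
          rw [step_right e1, Function.update_eq_self]
          rfl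
        have e : CConf.step code c = ⟨c.pc + 1, c.regs, c.out⟩ := by
          simp only [CConf.step, hlt, h0, if_false]
        rw [e]
        exact ⟨2, T, B, by omega, by omega, by simp only; omega, s1.trans (turn_home _),
          h.congr rfl rfl⟩

/-- Simulation of many steps of the counter machine. -/
lemma sim_steps (hcode : ∀ i ∈ code, InstrOk r code.length i) (k : ℕ) {c : CConf}
    {T : ℤ → Γ ⊕ Cell r} {B : ℕ} (h : TRep r A c T B) (hpc : c.pc ≤ code.length) :
    ∃ t T' B', t ≤ k * (2 * (B + k) + 4) ∧ B' ≤ B + k ∧ ((CConf.step code)^[k] c).pc ≤ code.length ∧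
      Rch (simM code r A ι) NA ⟨Sum.inl (mkPc code.length c.pc, Phase.start), T, 0⟩
        ⟨Sum.inl (mkPc code.length ((CConf.step code)^[k] c).pc, Phase.start), T', 0⟩ t ∧
      TRep r A ((CConf.step code)^[k] c) T' B' := by
  induction k with
  | zero => exact ⟨0, T, B, by omega, by omega, hpc, Rch.refl _, h⟩
  | succ k ih =>
    obtain ⟨t, T', B', h1, h2, h3, h4, h5⟩ := ih
    obtain ⟨t2, T2, B2, g1, g2, g3, g4, g5⟩ := sim_step (ι := ι) hcode h5 h3
    rw [Function.iterate_succ_apply']
    refine ⟨t + t2, T2, B2, ?_, by omega, g3, h4.trans g4, g5⟩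
    have e1 : k * (2 * (B + k) + 4) ≤ k * (2 * (B + (k + 1)) + 4) :=
      Nat.mul_le_mul_left _ (by omega)
    have e2 : 2 * B' + 4 ≤ 2 * (B + (k + 1)) + 4 := by omega
    calc t + t2 ≤ k * (2 * (B + (k + 1)) + 4) + (2 * (B + (k + 1)) + 4) := by omega
      _ = (k + 1) * (2 * (B + (k + 1)) + 4) := by ring

/-- The final tape: every cell holds the symbol of its output letter. -/
def finalTape (A : DTM Q Γ) (ι : Bool → Γ) (T : ℤ → Γ ⊕ Cell r) (p : ℤ) : Γ :=
  if 0 ≤ p then symOf A ι (view (T p)).op else A.blank

lemma conv_sweep {c : CConf} {T : ℤ → Γ ⊕ Cell r} {B : ℕ} (h : TRep r A c T B)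
    (p : Fin (code.length + 1)) (i : ℕ) :
    Rch (simM code r A ι) NA
      ⟨Sum.inl (p, Phase.conv2), fun q => if q ≤ (i : ℤ) then T q else Sum.inl (finalTape A ι T q),
        (i : ℤ)⟩
      ⟨Sum.inl (p, Phase.conv3), fun q => Sum.inl (finalTape A ι T q), 1⟩ (i + 1) := by
  induction i with
  | zero =>
    refine Rch.one rfl ?_
    set S : ℤ → Γ ⊕ Cell r := fun q => if q ≤ ((0 : ℕ) : ℤ) then T q else Sum.inl (finalTape A ι T q)
      with hS
    have e0 : S ((0 : ℕ) : ℤ) = T 0 := by simp [hS]
    have e2 : (view (T 0)).org = true := by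
      have := view_org h (i := 0)
      simpa using this
    have e1 : (simM code r A ι).δ (Sum.inl (p, Phase.conv2)) (S ((0 : ℕ) : ℤ)) =
        (Sum.inl (p, Phase.conv3), Sum.inl (finalTape A ι T 0), true) := by
      rw [e0]
      simp only [simM, phStep, e2]
      simp [finalTape]
    rw [step_right e1]
    simp only [Nat.cast_zero, zero_add]
    congr 1
    funext q
    by_cases hq : q = 0
    · subst hq
      simp
    · rw [Function.update_of_ne hq]
      simp only [hS, Nat.cast_zero]
      by_cases hq2 : q ≤ 0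
      · rw [if_pos hq2]
        have hq3 : q < 0 := by omega
        rw [h.neg q hq3]
        simp [finalTape, not_le.mpr hq3]
      · rw [if_neg hq2]
  | succ i ih =>
    have e0 : (view (T ((i + 1 : ℕ) : ℤ))).org = false := by
      rw [view_org h]
      simp
    set S : ℤ → Γ ⊕ Cell r := fun q => if q ≤ ((i + 1 : ℕ) : ℤ) then T q
      else Sum.inl (finalTape A ι T q) with hS
    have e1 : (simM code r A ι).δ (Sum.inl (p, Phase.conv2)) (S ((i + 1 : ℕ) : ℤ)) =
        (Sum.inl (p, Phase.conv2), Sum.inl (finalTape A ι T ((i + 1 : ℕ) : ℤ)), false) := by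
      have e3 : S ((i + 1 : ℕ) : ℤ) = T ((i + 1 : ℕ) : ℤ) := by simp [hS]
      rw [e3]
      simp only [simM, phStep, e0]
      simp [finalTape]
      omega
    have s1 : Rch (simM code r A ι) NA ⟨Sum.inl (p, Phase.conv2), S, ((i + 1 : ℕ) : ℤ)⟩
        ⟨Sum.inl (p, Phase.conv2), fun q => if q ≤ (i : ℤ) then T q else Sum.inl (finalTape A ι T q),
          (i : ℤ)⟩ 1 := by
      refine Rch.one rfl ?_
      rw [step_left e1]
      have e4 : ((i + 1 : ℕ) : ℤ) - 1 = (i : ℤ) := by push_cast; ring
      rw [e4]
      congr 1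
      funext q
      by_cases hq : q = ((i + 1 : ℕ) : ℤ)
      · rw [hq]
        simp only [Function.update_self]
        rw [if_neg (by push_cast; omega)]
      · rw [Function.update_of_ne hq]
        simp only [hS]
        by_cases hq2 : q ≤ (i : ℤ)
        · rw [if_pos hq2, if_pos (by push_cast; omega)]
        · rw [if_neg hq2, if_neg (by push_cast at hq ⊢; omega)]
    have := s1.trans ih
    rw [show 1 + (i + 1) = i + 1 + 1 by omega] at this
    exact this

/-- The counter machine has stopped: the machine converts the tape and starts `A`. -/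
lemma sim_finish {c : CConf} {T : ℤ → Γ ⊕ Cell r} {B : ℕ} (h : TRep r A c T B)
    (p : Fin (code.length + 1)) (hp : code[p.val]? = none) :
    ∃ t, t ≤ 2 * B + 4 ∧ Rch (simM code r A ι) NA ⟨Sum.inl (p, Phase.start), T, 0⟩
      ⟨Sum.inr A.start, fun q => Sum.inl (finalTape A ι T q), 0⟩ t := by
  have hB := h.two
  have e1 : (simM code r A ι).δ (Sum.inl (p, Phase.start)) (T 0) =
      (Sum.inl (p, Phase.conv1), T 0, true) := by
    simp only [simM, phStep, hp]
  have s1 : Rch (simM code r A ι) NA ⟨Sum.inl (p, Phase.start), T, 0⟩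
      ⟨Sum.inl (p, Phase.conv1), T, 1⟩ 1 := by
    refine Rch.one rfl ?_
    rw [step_right e1, Function.update_eq_self]
    rfl
  have s2 : Rch (simM code r A ι) NA ⟨Sum.inl (p, Phase.conv1), T, 1⟩
      ⟨Sum.inl (p, Phase.conv1), T, 1 + ((B - 1 : ℕ) : ℤ)⟩ (B - 1) := by
    refine walkR (M := simM code r A ι) (P := NA) rfl T 1 (B - 1) fun k hk => ?_
    have e : (1 : ℤ) + k = ((k + 1 : ℕ) : ℤ) := by push_cast; ring
    rw [e]
    have e2 := h.small (k + 1) (by omega)
    rcases hx : T ((k + 1 : ℕ) : ℤ) with x | x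
    · rw [hx] at e2
      simp at e2
    · rfl
  have e3 : (1 : ℤ) + ((B - 1 : ℕ) : ℤ) = (B : ℤ) := by omega
  rw [e3] at s2
  have e4 : T (B : ℤ) = Sum.inl A.blank := h.big B le_rfl
  have s3 : Rch (simM code r A ι) NA ⟨Sum.inl (p, Phase.conv1), T, (B : ℤ)⟩
      ⟨Sum.inl (p, Phase.conv2), T, ((B - 1 : ℕ) : ℤ)⟩ 1 := by
    refine Rch.one rfl ?_
    have e5 : (simM code r A ι).δ (Sum.inl (p, Phase.conv1)) (T (B : ℤ)) =
        (Sum.inl (p, Phase.conv2), T (B : ℤ), false) := by
      rw [e4]
      rfl
    rw [step_left e5, Function.update_eq_self]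
    have e6 : (B : ℤ) - 1 = ((B - 1 : ℕ) : ℤ) := by omega
    rw [e6]
  have hS : T = fun q => if q ≤ ((B - 1 : ℕ) : ℤ) then T q else Sum.inl (finalTape A ι T q) := by
    funext q
    by_cases hq : q ≤ ((B - 1 : ℕ) : ℤ)
    · rw [if_pos hq]
    · rw [if_neg hq]
      have hq0 : 0 ≤ q := by omega
      obtain ⟨k, rfl⟩ := Int.eq_ofNat_of_zero_le hq0
      have hk : B ≤ k := by omega
      rw [h.big k hk]
      have : view (T (k : ℤ)) = Cell.empty := by
        rw [h.big k hk]
        rfl
      simp only [finalTape, this]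
      simp [Cell.op, Cell.empty, symOf]
  have s4 := conv_sweep (code := code) (ι := ι) h p (B - 1)
  rw [← hS] at s4
  have s5 : Rch (simM code r A ι) NA
      ⟨Sum.inl (p, Phase.conv3), fun q => Sum.inl (finalTape A ι T q), 1⟩
      ⟨Sum.inr A.start, fun q => Sum.inl (finalTape A ι T q), 0⟩ 1 := by
    refine Rch.one rfl ?_
    have : (simM code r A ι).δ (Sum.inl (p, Phase.conv3))
        ((fun q => Sum.inl (finalTape A ι T q) : ℤ → Γ ⊕ Cell r) 1) =
        (Sum.inr A.start, (fun q => Sum.inl (finalTape A ι T q) : ℤ → Γ ⊕ Cell r) 1, false) := rfl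
    rw [step_left this, Function.update_eq_self]
    rfl
  refine ⟨1 + (B - 1) + 1 + (B - 1 + 1) + 1, by omega, ?_⟩
  exact (((s1.trans s2).trans s3).trans s4).trans s5

/-- A configuration of `A` as a configuration of the simulating machine. -/
def embC (c : TConf Q Γ) : TConf (BQ code.length Q) (Γ ⊕ Cell r) :=
  ⟨Sum.inr c.st, fun q => Sum.inl (c.tape q), c.pos⟩

lemma embC_step (c : TConf Q Γ) :
    (simM code r A ι).step (embC c) = embC (A.step c) := by
  unfold embC DTM.step simM
  simp only
  congr 1
  funext q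
  by_cases hq : q = c.pos
  · subst hq
    simp
  · simp [Function.update_of_ne hq]

lemma embC_iter (c : TConf Q Γ) (t : ℕ) :
    (simM code r A ι).step^[t] (embC c) = embC (A.step^[t] c) := by
  induction t with
  | zero => rfl
  | succ t ih => rw [Function.iterate_succ_apply', Function.iterate_succ_apply', ih, embC_step]

/-- The main theorem of the simulation.  If the counter machine started from `c₀` has stopped after
`S` steps, then the simulating machine reaches the start of `A` on the output of the counter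
machine after at most `(S + 1) * (2 * (n + S) + 4)` steps, all earlier states being simulation
states. -/
theorem sim_main (hcode : ∀ i ∈ code, InstrOk r code.length i) {n : ℕ} (c₀ : CConf)
    (x : Fin n → Γ ⊕ Cell r) (hx : ∀ i : Fin n, x i = Sum.inr (cellOf r c₀ i.val)) (hn : 2 ≤ n)
    (hreg : ∀ j, j < r → c₀.regs j ≤ n) (hout : c₀.out = []) (hpc0 : c₀.pc = 0) (S : ℕ)
    (hS : code.length ≤ ((CConf.step code)^[S] c₀).pc) :
    ∃ T₀, T₀ ≤ (S + 1) * (2 * (n + S) + 4) ∧
      (∀ t, t < T₀ → ((simM code r A ι).run x t).st.isLeft = true) ∧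
      ∀ t, (simM code r A ι).run x (T₀ + t) =
        embC (code := code) (r := r) (A.run (wordInput ι ((CConf.step code)^[S] c₀).out) t) := by
  have hrep : TRep r A c₀ ((simM code r A ι).init x).tape n := by
    refine ⟨fun i => ?_, fun p hp => ?_, fun i hi => ?_, fun i hi => ?_, hreg, ?_, hn⟩
    · simp only [DTM.init]
      by_cases hi : i < n
      · rw [dif_pos (by omega)]
        have e : (⟨((i : ℤ)).toNat, by omega⟩ : Fin n) = ⟨i, hi⟩ := by
          apply Fin.ext
          simp
        rw [e, hx]
        rfl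
      · rw [dif_neg (by omega)]
        have e : cellOf r c₀ i = Cell.empty := by
          unfold cellOf Cell.empty
          simp only [Prod.mk.injEq]
          refine ⟨by simp only [decide_eq_false_iff_not]; omega, funext fun j => ?_, ?_⟩
          · have := hreg j.val j.isLt
            simp only [decide_eq_false_iff_not]
            omega
          · rw [hout]
            simp
        rw [e]
        rfl
    · simp only [DTM.init]
      rw [dif_neg (by omega)]
      rfl
    · simp only [DTM.init]
      rw [dif_neg (by omega)]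
      rfl
    · simp only [DTM.init]
      rw [dif_pos (by omega)]
      rw [hx]
      rfl
    · rw [hout]
      simp
  have h0 : c₀.pc ≤ code.length := by omega
  obtain ⟨t, T', B', h1, h2, h3, h4, h5⟩ := sim_steps (ι := ι) hcode S hrep h0
  have hp : code[(mkPc code.length ((CConf.step code)^[S] c₀).pc).val]? = none := by
    rw [mkPc_val h3]
    rw [List.getElem?_eq_none hS]
  obtain ⟨t2, g1, g2⟩ := sim_finish (code := code) (ι := ι) h5 _ hp
  have hstart : (simM code r A ι).init x =
      ⟨Sum.inl (mkPc code.length c₀.pc, Phase.start), ((simM code r A ι).init x).tape, 0⟩ := by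
    rw [hpc0]
    rfl
  have hall := h4.trans g2
  rw [← hstart] at hall
  have e0 : (∀ q, finalTape A ι T' q = (A.init (wordInput ι ((CConf.step code)^[S] c₀).out)).tape q) := by
    intro q
    simp only [finalTape, DTM.init]
    by_cases hq : 0 ≤ q
    · rw [if_pos hq]
      obtain ⟨k, rfl⟩ := Int.eq_ofNat_of_zero_le hq
      rw [view_op h5]
      by_cases hk : k < ((CConf.step code)^[S] c₀).out.length
      · rw [dif_pos (by constructor <;> omega)]
        rw [List.getElem?_eq_getElem hk]
        simp [symOf, wordInput]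
      · rw [dif_neg (by omega)]
        rw [List.getElem?_eq_none (by omega)]
        rfl
    · rw [if_neg hq, dif_neg (by omega)]
  have e1 : (⟨Sum.inr A.start, fun q => Sum.inl (finalTape A ι T' q), 0⟩ :
      TConf (BQ code.length Q) (Γ ⊕ Cell r)) =
      embC (code := code) (r := r) (A.init (wordInput ι ((CConf.step code)^[S] c₀).out)) := by
    unfold embC
    simp only [DTM.init]
    congr 1
    funext q
    rw [e0 q]
    rfl
  rw [e1] at hall
  refine ⟨t + t2, ?_, fun s hs => hall.2 s hs, fun s => ?_⟩
  · have e2 : 2 * B' + 4 ≤ 2 * (n + S) + 4 := by omega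
    calc t + t2 ≤ S * (2 * (n + S) + 4) + (2 * (n + S) + 4) := by omega
      _ = (S + 1) * (2 * (n + S) + 4) := by ring
  · unfold DTM.run
    rw [Nat.add_comm, Function.iterate_add_apply, hall.1, embC_iter]

end

end Vale.Agent.Lib.P310F
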