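import Vale.Agent.Lib.P310F.Poly2
import Vale.Agent.Lib.P310F.TMSim3

/-!
Bit lists computed by programs with polynomially many steps, and the Turing machine of a program.
-/

namespace Vale.Agent.Lib.P310F

open Finset

/-- Bit lists produced by programs with polynomially many steps. -/
def PS (g : List ℕ → List Bool) : Prop := ∃ P : St, (∀ env, P.out env = g env) ∧ Pw P.cost

namespace PS

lemma of_eq {f g : List ℕ → List Bool} (h : PS g) (e : ∀ x, f x = g x) : PS f := by
  have : f = g := funext e
  rw [this]
  exact h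

lemma nil : PS fun _ => [] := ⟨St.skip, fun _ => rfl, Pw.const 0⟩

lemma emit {Q : List ℕ → Prop} [∀ e, Decidable (Q e)] (h : PD Q) : PS fun e => [decide (Q e)] := by
  obtain ⟨f, hf, hfe⟩ := h
  have h1 := hf.pw
  obtain ⟨a, ha, pa⟩ := hf
  refine ⟨St.emit a, fun env => ?_, ?_⟩
  · simp only [St.out, ha]
    congr 1
    exact decide_eq_decide.mpr (hfe env)
  · have e1 : Ex.eval a = f := funext ha
    have : Pw fun env => Ex.cost a env + 3 * Ex.eval a env + 8 := by
      rw [e1]
      exact (pa.add ((Pw.const 3).mul h1)).add (Pw.const 8)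
    exact this

lemma append {f g : List ℕ → List Bool} (hf : PS f) (hg : PS g) : PS fun e => f e ++ g e := by
  obtain ⟨a, ha, pa⟩ := hf
  obtain ⟨b, hb, pb⟩ := hg
  exact ⟨St.seq a b, fun env => by simp only [St.out, ha, hb], pa.add pb⟩

lemma flat {b : List ℕ → ℕ} {s : List ℕ → List Bool} (hb : PT b) (hs : PS s) :
    PS fun e => (List.range (b e)).flatMap fun i => s (i :: e) := by
  have h1 := hb.pw
  obtain ⟨eb, heb, pb⟩ := hb
  obtain ⟨es, hes, ps⟩ := hs
  refine ⟨St.forS eb es, fun env => ?_, ?_⟩
  · simp only [St.out, heb, hes]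
    rw [flatUp_eq]
  · have e1 : Ex.eval eb = b := funext heb
    have : Pw fun env => Ex.cost eb env + (∑ i ∈ range (Ex.eval eb env), (St.cost es (i :: env) + 4)) +
        3 * Ex.eval eb env + 2 := by
      rw [e1]
      have h2 : Pw fun env => St.cost es env + 4 := ps.add (Pw.const 4)
      exact ((pb.add (Pw.sum_cons h1 h2)).add ((Pw.const 3).mul h1)).add (Pw.const 2)
    exact this

lemma ifS {Q : List ℕ → Prop} [∀ e, Decidable (Q e)] {s : List ℕ → List Bool} (h : PD Q) (hs : PS s) :
    PS fun e => if Q e then s e else [] := by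
  obtain ⟨f, hf, hfe⟩ := h
  have h1 := hf.pw
  obtain ⟨c, hc, pc⟩ := hf
  obtain ⟨es, hes, ps⟩ := hs
  refine ⟨St.ifS c es, fun env => ?_, ?_⟩
  · simp only [St.out, hc, hes]
    by_cases h0 : f env = 0
    · have : ¬ Q env := fun hq => (hfe env).mpr hq h0
      simp [this, h0]
    · have : Q env := (hfe env).mp h0
      simp [this, h0]
  · have e1 : Ex.eval c = f := funext hc
    have : Pw fun env => Ex.cost c env + 3 * Ex.eval c env + St.cost es env + 5 := by
      rw [e1]
      exact ((pc.add ((Pw.const 3).mul h1)).add ps).add (Pw.const 5)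
    exact this

end PS

section Machine

lemma regsLt_mono : ∀ (q : SP) (r r' : ℕ), r ≤ r' → SP.RegsLt r q → SP.RegsLt r' q := by
  intro q
  induction q with
  | skip => intros; trivial
  | inc j => intro r r' h h'; exact lt_of_lt_of_le h' h
  | dec j => intro r r' h h'; exact lt_of_lt_of_le h' h
  | out b => intros; trivial
  | seq p q ihp ihq => intro r r' h h'; exact ⟨ihp r r' h h'.1, ihq r r' h h'.2⟩
  | wh j p ih => intro r r' h h'; exact ⟨lt_of_lt_of_le h'.1 h, ih r r' h h'.2⟩

/-- The code of a program with input registers 0 and 1. -/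
def progSP (P : St) : SP := St.comp [0, 1] P 2

def progCode (P : St) : List Instr := SP.code (progSP P) 0

def progR (P : St) : ℕ := max 2 (SP.maxReg (progSP P))

/-- The registers of the initial configuration. -/
def startRegs (a b : ℕ) : ℕ → ℕ := fun j => if j = 0 then a else if j = 1 then b else 0

/-- The initial configuration. -/
def startConf (a b : ℕ) : CConf := ⟨0, startRegs a b, []⟩

/-- The machine of a program. -/
def progM {Q Γ : Type} (P : St) (A : DTM Q Γ) (ι : Bool → Γ) := simM (progCode P) (progR P) A ι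

/-- The input word of the machine of a program. -/
def progInput {Γ : Type} (P : St) (a n : ℕ) : Fin n → Γ ⊕ Cell (progR P) :=
  fun i => Sum.inr (cellOf (progR P) (startConf a n) i.val)

/-- The machine of a program first writes the bits of the program on the input `[a, n]`, with
`a ≤ n`, and then runs `A` on them. -/
theorem prog_machine {Q Γ : Type} (P : St) (A : DTM Q Γ) (ι : Bool → Γ) {a n : ℕ} (ha : a ≤ n)
    (hn : 2 ≤ n) :
    ∃ T₀, T₀ ≤ (St.cost P [a, n] + 1) * (2 * (n + St.cost P [a, n]) + 4) ∧
      (∀ s, s < T₀ → ((progM P A ι).run (progInput P a n) s).st.isLeft = true) ∧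
      ∀ t, (progM P A ι).run (progInput P a n) (T₀ + t) =
        embC (code := progCode P) (r := progR P) (A.run (wordInput ι (St.out P [a, n])) t) := by
  have hgood : St.Good [0, 1] [a, n] 2 (startRegs a n) := by
    refine ⟨?_, ?_, ?_⟩
    · simp [startRegs]
    · simp
    · intro j hj
      have h1 : j ≠ 0 := by omega
      have h2 : j ≠ 1 := by omega
      simp [startRegs, h1, h2]
  obtain ⟨S, hS, hrun⟩ := St.comp_run P [0, 1] [a, n] 2 (startRegs a n) [] hgood
  simp only [List.nil_append] at hrun
  have htop := SP.run_top hrun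
  have hcode : ∀ i ∈ progCode P, InstrOk (progR P) (progCode P).length i := by
    refine SP.instrOk_code (progSP P) 0 _ (regsLt_mono _ _ _ (le_max_right _ _)
      (SP.regsLt_maxReg _)) ?_
    rw [progCode, SP.code_length]
    omega
  have e0 : (⟨0, startRegs a n, []⟩ : CConf) = startConf a n := rfl
  rw [e0] at htop
  have e1 : (CConf.step (progCode P))^[S] (startConf a n) =
      ⟨(progCode P).length, startRegs a n, St.out P [a, n]⟩ := htop
  obtain ⟨T₀, h1, h2, h3⟩ := sim_main (A := A) (ι := ι) hcode (startConf a n) (progInput P a n)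
    (fun _ => rfl) hn (fun j _ => by
      simp only [startConf, startRegs]
      split_ifs <;> omega) rfl rfl S (by rw [e1])
  rw [e1] at h3
  refine ⟨T₀, h1.trans ?_, h2, h3⟩
  exact Nat.mul_le_mul (by omega) (by omega)

end Machine

end Vale.Agent.Lib.P310F
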