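import Vale.Agent.Lib.P310F.TMSim3

/-!
Structured counter programs, their semantics and their compilation to counter machines.
-/

namespace Vale.Agent.Lib.P310F

/-- Structured programs over registers. -/
inductive SP where
  | skip
  | inc (j : ℕ)
  | dec (j : ℕ)
  | out (b : Bool)
  | seq (p q : SP)
  | wh (j : ℕ) (p : SP)

/-- Big-step semantics with step count: program, registers and output before and after, steps. -/
inductive SP.Run : SP → (ℕ → ℕ) → List Bool → (ℕ → ℕ) → List Bool → ℕ → Prop
  | skip (s o) : SP.Run SP.skip s o s o 0
  | inc (j s o) : SP.Run (SP.inc j) s o (Function.update s j (s j + 1)) o 1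
  | dec (j s o) : SP.Run (SP.dec j) s o (Function.update s j (s j - 1)) o 1
  | out (b s o) : SP.Run (SP.out b) s o s (o ++ [b]) 1
  | seq {p q s o s1 o1 s2 o2 t1 t2} : SP.Run p s o s1 o1 t1 → SP.Run q s1 o1 s2 o2 t2 →
      SP.Run (SP.seq p q) s o s2 o2 (t1 + t2)
  | wh0 {j p s o} : s j = 0 → SP.Run (SP.wh j p) s o s o 1
  | whS {j p s o s1 o1 s2 o2 t1 t2} : s j ≠ 0 → SP.Run p s o s1 o1 t1 →
      SP.Run (SP.wh j p) s1 o1 s2 o2 t2 → SP.Run (SP.wh j p) s o s2 o2 (t1 + t2 + 2)

namespace SP

/-- The code length of a program. -/
def len : SP → ℕ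
  | skip => 0
  | inc _ => 1
  | dec _ => 1
  | out _ => 1
  | seq p q => len p + len q
  | wh _ p => len p + 2

/-- The code of a program placed at address `b`. -/
def code : SP → ℕ → List Instr
  | skip, _ => []
  | inc j, _ => [Instr.inc j]
  | dec j, _ => [Instr.dec j]
  | out b, _ => [Instr.out b]
  | seq p q, b => code p b ++ code q (b + len p)
  | wh j p, b => [Instr.jz j (b + len p + 2)] ++ code p (b + 1) ++ [Instr.jmp b]

lemma code_length (p : SP) (b : ℕ) : (code p b).length = len p := by
  induction p generalizing b with
  | skip => rfl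
  | inc j => rfl
  | dec j => rfl
  | out b => rfl
  | seq p q ihp ihq => simp [code, len, ihp, ihq]
  | wh j p ih => simp [code, len, ih]

/-- `l` is found in `c` at address `b`. -/
def CodeAt (cd : List Instr) (b : ℕ) (l : List Instr) : Prop :=
  ∀ k (h : k < l.length), cd[b + k]? = some (l[k]'h)

lemma CodeAt.left {cd l l' : List Instr} {b : ℕ} (h : CodeAt cd b (l ++ l')) : CodeAt cd b l := by
  intro k hk
  have := h k (by simp; omega)
  rw [this, List.getElem_append_left hk]

lemma CodeAt.right {cd l l' : List Instr} {b : ℕ} (h : CodeAt cd b (l ++ l')) :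
    CodeAt cd (b + l.length) l' := by
  intro k hk
  have := h (l.length + k) (by simp; omega)
  rw [Nat.add_assoc, this]
  simp

/-- Correctness of the compilation. -/
theorem Run.code_run {p : SP} {s o s' o' t} (h : SP.Run p s o s' o' t) (cd : List Instr) (b : ℕ)
    (hc : CodeAt cd b (code p b)) :
    (CConf.step cd)^[t] ⟨b, s, o⟩ = ⟨b + len p, s', o'⟩ := by
  induction h generalizing b with
  | skip s o => rfl
  | inc j s o =>
    have := hc 0 (by simp [code])
    simp only [code, List.getElem_cons_zero, Nat.add_zero] at this
    simp only [Function.iterate_one, CConf.step, this, len]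
  | dec j s o =>
    have := hc 0 (by simp [code])
    simp only [code, List.getElem_cons_zero, Nat.add_zero] at this
    simp only [Function.iterate_one, CConf.step, this, len]
  | out b' s o =>
    have := hc 0 (by simp [code])
    simp only [code, List.getElem_cons_zero, Nat.add_zero] at this
    simp only [Function.iterate_one, CConf.step, this, len]
  | @seq p q s o s1 o1 s2 o2 t1 t2 _ _ ih1 ih2 =>
    have h1 := ih1 b (CodeAt.left hc)
    have h2 := ih2 (b + len p) (by
      have := CodeAt.right hc
      rwa [code_length] at this)
    rw [Nat.add_comm, Function.iterate_add_apply, h1, h2]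
    simp only [len, Nat.add_assoc]
  | @wh0 j p s o h0 =>
    have := hc 0 (by simp [code])
    simp only [code, List.cons_append, List.nil_append, List.getElem_cons_zero, Nat.add_zero] at this
    simp only [Function.iterate_one, CConf.step, this, h0, if_true, len]
    simp only [Nat.add_assoc]
  | @whS j p s o s1 o1 s2 o2 t1 t2 h0 _ _ ih1 ih2 =>
    have e0 := hc 0 (by simp [code])
    simp only [code, List.cons_append, List.nil_append, List.getElem_cons_zero, Nat.add_zero] at e0
    have hcp : CodeAt cd (b + 1) (code p (b + 1)) := by
      have e1 : code (wh j p) b = [Instr.jz j (b + len p + 2)] ++ (code p (b + 1) ++ [Instr.jmp b]) := by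
        simp [code]
      rw [e1] at hc
      exact CodeAt.left (CodeAt.right hc)
    have e2 : cd[b + 1 + len p]? = some (Instr.jmp b) := by
      have e4 : code (wh j p) b = ([Instr.jz j (b + len p + 2)] ++ code p (b + 1)) ++ [Instr.jmp b] := by
        simp [code]
      rw [e4] at hc
      have := CodeAt.right hc 0 (by simp)
      simp only [List.length_append, List.length_cons, List.length_nil, code_length, Nat.add_zero,
        List.getElem_cons_zero] at this
      rw [show b + 1 + len p = b + (0 + 1 + len p) by omega]
      exact this
    have s1' : (CConf.step cd) ⟨b, s, o⟩ = ⟨b + 1, s, o⟩ := by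
      simp only [CConf.step, e0, h0, if_false]
    have s2' := ih1 (b + 1) hcp
    have s3' : (CConf.step cd) ⟨b + 1 + len p, s1, o1⟩ = ⟨b, s1, o1⟩ := by
      simp only [CConf.step, e2]
    have s4' := ih2 b hc
    have e3 : t1 + t2 + 2 = t2 + (1 + (t1 + 1)) := by omega
    rw [e3, Function.iterate_add_apply, Function.iterate_add_apply, Function.iterate_one,
      Function.iterate_add_apply, Function.iterate_one, s1', s2', s3', s4']

/-- All registers of a program are below `r`. -/
def RegsLt (r : ℕ) : SP → Prop
  | skip => True
  | inc j => j < r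
  | dec j => j < r
  | out _ => True
  | seq p q => RegsLt r p ∧ RegsLt r q
  | wh j p => j < r ∧ RegsLt r p

/-- A bound for the registers of a program. -/
def maxReg : SP → ℕ
  | skip => 0
  | inc j => j + 1
  | dec j => j + 1
  | out _ => 0
  | seq p q => max (maxReg p) (maxReg q)
  | wh j p => max (j + 1) (maxReg p)

lemma regsLt_maxReg (p : SP) : RegsLt (maxReg p) p := by
  have mono : ∀ (q : SP) (r r' : ℕ), r ≤ r' → RegsLt r q → RegsLt r' q := by
    intro q
    induction q with
    | skip => intros; trivial
    | inc j => intro r r' h h'; exact lt_of_lt_of_le h' h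
    | dec j => intro r r' h h'; exact lt_of_lt_of_le h' h
    | out b => intros; trivial
    | seq p q ihp ihq => intro r r' h h'; exact ⟨ihp r r' h h'.1, ihq r r' h h'.2⟩
    | wh j p ih => intro r r' h h'; exact ⟨lt_of_lt_of_le h'.1 h, ih r r' h h'.2⟩
  induction p with
  | skip => trivial
  | inc j => exact Nat.lt_succ_self j
  | dec j => exact Nat.lt_succ_self j
  | out b => trivial
  | seq p q ihp ihq =>
    exact ⟨mono p _ _ (le_max_left _ _) ihp, mono q _ _ (le_max_right _ _) ihq⟩
  | wh j p ih =>
    exact ⟨lt_of_lt_of_le (Nat.lt_succ_self j) (le_max_left _ _), mono p _ _ (le_max_right _ _) ih⟩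

lemma instrOk_code {r : ℕ} (p : SP) (b ℓ : ℕ) (hr : RegsLt r p) (hb : b + len p ≤ ℓ) :
    ∀ i ∈ code p b, InstrOk r ℓ i := by
  induction p generalizing b with
  | skip => intro i hi; simp [code] at hi
  | inc j => intro i hi; simp only [code, List.mem_singleton] at hi; subst hi; exact hr
  | dec j => intro i hi; simp only [code, List.mem_singleton] at hi; subst hi; exact hr
  | out b' => intro i hi; simp only [code, List.mem_singleton] at hi; subst hi; trivial
  | seq p q ihp ihq =>
    intro i hi
    simp only [code, List.mem_append] at hi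
    simp only [len] at hb
    rcases hi with hi | hi
    · exact ihp b hr.1 (by omega) i hi
    · exact ihq (b + len p) hr.2 (by omega) i hi
  | wh j p ih =>
    intro i hi
    simp only [code, List.cons_append, List.nil_append, List.mem_cons, List.mem_append,
      List.mem_singleton, List.not_mem_nil, or_false] at hi
    simp only [len] at hb
    rcases hi with rfl | hi | rfl
    · exact ⟨hr.1, by omega⟩
    · exact ih (b + 1) hr.2 (by omega) i hi
    · show b ≤ ℓ
      omega

/-- The counter machine of a program runs it. -/
theorem run_top {p : SP} {s o s' o' t} (h : SP.Run p s o s' o' t) :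
    (CConf.step (code p 0))^[t] ⟨0, s, o⟩ = ⟨(code p 0).length, s', o'⟩ := by
  have := h.code_run (code p 0) 0 (by
    intro k hk
    simp only [Nat.zero_add]
    exact List.getElem?_eq_getElem hk)
  rw [this, code_length, Nat.zero_add]

end SP

end Vale.Agent.Lib.P310F
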