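import Vale.Agent.Lib.P310F.CM

/-!
A single-tape Turing machine that simulates a counter machine, writes the output of the counter
machine on the tape and then runs a given machine on that output.
-/

namespace Vale.Agent.Lib.P310F

/-- A tape cell of the simulation: origin flag, one track per register, output letter. -/
abbrev Cell (r : ℕ) : Type := Bool × (Fin r → Bool) × Option Bool

namespace Cell

variable {r : ℕ}

/-- The origin flag. -/
def org (c : Cell r) : Bool := c.1

/-- The track of register `j`. -/
def tr (c : Cell r) (j : ℕ) : Bool := if h : j < r then c.2.1 ⟨j, h⟩ else false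

/-- The output letter. -/
def op (c : Cell r) : Option Bool := c.2.2

/-- Set a track. -/
def setTr (c : Cell r) (j : ℕ) (b : Bool) : Cell r :=
  (c.1, (fun i => if i.val = j then b else c.2.1 i), c.2.2)

/-- Set the output letter. -/
def setOp (c : Cell r) (b : Bool) : Cell r := (c.1, c.2.1, some b)

/-- The empty cell. -/
def empty : Cell r := (false, fun _ => false, none)

end Cell

/-- The phases of the simulating machine. -/
inductive Phase where
  | start | goInc | goDec | clrDec | goOut | back | turn | conv1 | conv2 | conv3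
  deriving DecidableEq

instance : Fintype Phase :=
  ⟨{Phase.start, Phase.goInc, Phase.goDec, Phase.clrDec, Phase.goOut, Phase.back, Phase.turn,
    Phase.conv1, Phase.conv2, Phase.conv3}, by intro x; cases x <;> simp⟩

section Machine

variable {Q Γ : Type} (code : List Instr) (r : ℕ) (A : DTM Q Γ) (ι : Bool → Γ)

/-- The states of the simulating machine. -/
abbrev BQ (ℓ : ℕ) (Q : Type) : Type := (Fin (ℓ + 1) × Phase) ⊕ Q

/-- The cell seen in a tape symbol: a symbol of `A` is an empty cell. -/
def view {Γ : Type} {r : ℕ} : Γ ⊕ Cell r → Cell r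
  | Sum.inl _ => Cell.empty
  | Sum.inr c => c

/-- A program counter as a state component. -/
def mkPc (ℓ p : ℕ) : Fin (ℓ + 1) := ⟨min p ℓ, by omega⟩

/-- The symbol of `A` for an output letter. -/
def symOf (o : Option Bool) : Γ :=
  match o with
  | none => A.blank
  | some b => ι b

/-- The transition in a simulating state. -/
def phStep (pc : Fin (code.length + 1)) (ph : Phase) (a : Γ ⊕ Cell r) :
    BQ code.length Q × (Γ ⊕ Cell r) × Bool :=
  let c := view a
  let nx := mkPc code.length (pc.val + 1)
  match ph with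
  | Phase.start =>
    match code[pc.val]? with
    | none => (Sum.inl (pc, Phase.conv1), a, true)
    | some (Instr.inc j) =>
      if c.tr j then (Sum.inl (pc, Phase.goInc), a, true)
      else (Sum.inl (nx, Phase.turn), Sum.inr (c.setTr j true), true)
    | some (Instr.dec j) =>
      if c.tr j then (Sum.inl (pc, Phase.goDec), a, true) else (Sum.inl (nx, Phase.turn), a, true)
    | some (Instr.jz j L) =>
      if c.tr j then (Sum.inl (nx, Phase.turn), a, true)
      else (Sum.inl (mkPc code.length L, Phase.turn), a, true)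
    | some (Instr.jmp L) => (Sum.inl (mkPc code.length L, Phase.turn), a, true)
    | some (Instr.out b) =>
      match c.op with
      | none => (Sum.inl (nx, Phase.turn), Sum.inr (c.setOp b), true)
      | some _ => (Sum.inl (pc, Phase.goOut), a, true)
  | Phase.goInc =>
    match code[pc.val]? with
    | some (Instr.inc j) =>
      if c.tr j then (Sum.inl (pc, Phase.goInc), a, true)
      else (Sum.inl (nx, Phase.back), Sum.inr (c.setTr j true), false)
    | _ => (Sum.inl (pc, Phase.goInc), a, true)
  | Phase.goDec =>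
    match code[pc.val]? with
    | some (Instr.dec j) =>
      if c.tr j then (Sum.inl (pc, Phase.goDec), a, true)
      else (Sum.inl (pc, Phase.clrDec), a, false)
    | _ => (Sum.inl (pc, Phase.goDec), a, true)
  | Phase.clrDec =>
    match code[pc.val]? with
    | some (Instr.dec j) =>
      if c.org then (Sum.inl (nx, Phase.turn), Sum.inr (c.setTr j false), true)
      else (Sum.inl (nx, Phase.back), Sum.inr (c.setTr j false), false)
    | _ => (Sum.inl (pc, Phase.clrDec), a, true)
  | Phase.goOut =>
    match code[pc.val]? with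
    | some (Instr.out b) =>
      match c.op with
      | none => (Sum.inl (nx, Phase.back), Sum.inr (c.setOp b), false)
      | some _ => (Sum.inl (pc, Phase.goOut), a, true)
    | _ => (Sum.inl (pc, Phase.goOut), a, true)
  | Phase.back =>
    if c.org then (Sum.inl (pc, Phase.turn), a, true) else (Sum.inl (pc, Phase.back), a, false)
  | Phase.turn => (Sum.inl (pc, Phase.start), a, false)
  | Phase.conv1 =>
    match a with
    | Sum.inl _ => (Sum.inl (pc, Phase.conv2), a, false)
    | Sum.inr _ => (Sum.inl (pc, Phase.conv1), a, true)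
  | Phase.conv2 =>
    if c.org then (Sum.inl (pc, Phase.conv3), Sum.inl (symOf A ι c.op), true)
    else (Sum.inl (pc, Phase.conv2), Sum.inl (symOf A ι c.op), false)
  | Phase.conv3 => (Sum.inr A.start, a, false)

/-- The simulating machine. -/
def simM : DTM (BQ code.length Q) (Γ ⊕ Cell r) where
  δ q a :=
    match q with
    | Sum.inl (pc, ph) => phStep code r A ι pc ph a
    | Sum.inr q' =>
      match a with
      | Sum.inl b =>
        let t := A.δ q' b
        (Sum.inr t.1, Sum.inl t.2.1, t.2.2)
      | Sum.inr _ => (Sum.inr q', a, true)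
  start := Sum.inl (mkPc code.length 0, Phase.start)
  acc := Sum.inr A.acc
  blank := Sum.inl A.blank

end Machine

section Reach

variable {Q Γ : Type} (M : DTM Q Γ) (P : Q → Prop)

/-- Reaching a configuration in `t` steps with all states before the last one in `P`. -/
def Rch (c c' : TConf Q Γ) (t : ℕ) : Prop :=
  M.step^[t] c = c' ∧ ∀ s < t, P (M.step^[s] c).st

variable {M P}

lemma Rch.refl (c : TConf Q Γ) : Rch M P c c 0 := ⟨rfl, fun _ h => absurd h (Nat.not_lt_zero _)⟩

lemma Rch.trans {c c' c'' : TConf Q Γ} {t t' : ℕ} (h : Rch M P c c' t) (h' : Rch M P c' c'' t') :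
    Rch M P c c'' (t + t') := by
  refine ⟨?_, fun s hs => ?_⟩
  · rw [Nat.add_comm, Function.iterate_add_apply, h.1, h'.1]
  · by_cases hst : s < t
    · exact h.2 s hst
    · obtain ⟨k, rfl⟩ : ∃ k, s = t + k := ⟨s - t, by omega⟩
      rw [Nat.add_comm, Function.iterate_add_apply, h.1]
      exact h'.2 k (by omega)

lemma Rch.one {c c' : TConf Q Γ} (hP : P c.st) (h : M.step c = c') : Rch M P c c' 1 := by
  refine ⟨h, fun s hs => ?_⟩
  have : s = 0 := by omega
  subst this
  exact hP

lemma step_right {q q' : Q} {T : ℤ → Γ} {a : ℤ} {b : Γ} (h : M.δ q (T a) = (q', b, true)) :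
    M.step ⟨q, T, a⟩ = ⟨q', Function.update T a b, a + 1⟩ := by
  unfold DTM.step
  simp [h]

lemma step_left {q q' : Q} {T : ℤ → Γ} {a : ℤ} {b : Γ} (h : M.δ q (T a) = (q', b, false)) :
    M.step ⟨q, T, a⟩ = ⟨q', Function.update T a b, a - 1⟩ := by
  unfold DTM.step
  simp [h]

lemma walkR {q : Q} (hq : P q) (T : ℤ → Γ) (a : ℤ) (n : ℕ)
    (h : ∀ k : ℕ, k < n → M.δ q (T (a + k)) = (q, T (a + k), true)) :
    Rch M P ⟨q, T, a⟩ ⟨q, T, a + n⟩ n := by
  induction n generalizing a with
  | zero => simpa using Rch.refl _
  | succ n ih =>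
    have h0 := h 0 (by omega)
    simp only [Nat.cast_zero, add_zero] at h0
    have e1 : Rch M P ⟨q, T, a⟩ ⟨q, T, a + 1⟩ 1 := by
      refine Rch.one hq ?_
      rw [step_right h0, Function.update_eq_self]
    have e2 := ih (a + 1) (fun k hk => by
      have := h (k + 1) (by omega)
      have e : a + 1 + (k : ℤ) = a + ((k + 1 : ℕ) : ℤ) := by push_cast; ring
      rw [e]
      exact this)
    have e3 : Rch M P ⟨q, T, a⟩ ⟨q, T, a + 1 + n⟩ (n + 1) := by
      have e5 := e1.trans e2
      rwa [Nat.add_comm] at e5
    have e4 : a + 1 + (n : ℤ) = a + ((n + 1 : ℕ) : ℤ) := by push_cast; ring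
    rw [← e4]
    exact e3

lemma walkL {q : Q} (hq : P q) (T : ℤ → Γ) (a : ℤ) (n : ℕ)
    (h : ∀ k : ℕ, k < n → M.δ q (T (a - k)) = (q, T (a - k), false)) :
    Rch M P ⟨q, T, a⟩ ⟨q, T, a - n⟩ n := by
  induction n generalizing a with
  | zero => simpa using Rch.refl _
  | succ n ih =>
    have h0 := h 0 (by omega)
    simp only [Nat.cast_zero, sub_zero] at h0
    have e1 : Rch M P ⟨q, T, a⟩ ⟨q, T, a - 1⟩ 1 := by
      refine Rch.one hq ?_
      rw [step_left h0, Function.update_eq_self]
    have e2 := ih (a - 1) (fun k hk => by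
      have := h (k + 1) (by omega)
      have e : a - 1 - (k : ℤ) = a - ((k + 1 : ℕ) : ℤ) := by push_cast; ring
      rw [e]
      exact this)
    have e3 : Rch M P ⟨q, T, a⟩ ⟨q, T, a - 1 - n⟩ (n + 1) := by
      have e5 := e1.trans e2
      rwa [Nat.add_comm] at e5
    have e4 : a - 1 - (n : ℤ) = a - ((n + 1 : ℕ) : ℤ) := by push_cast; ring
    rw [← e4]
    exact e3

end Reach

section Rep

variable {Q Γ : Type} (code : List Instr) (r : ℕ) (A : DTM Q Γ) (ι : Bool → Γ)

/-- The cell of position `i` in a counter machine configuration. -/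
def cellOf (c : CConf) (i : ℕ) : Cell r :=
  (decide (i = 0), (fun j => decide (i < c.regs j.val)), c.out[i]?)

/-- The tape represents a configuration of the counter machine, with used cells below `B`. -/
structure TRep (c : CConf) (T : ℤ → Γ ⊕ Cell r) (B : ℕ) : Prop where
  view_eq : ∀ i : ℕ, view (T i) = cellOf r c i
  neg : ∀ p : ℤ, p < 0 → T p = Sum.inl A.blank
  big : ∀ i : ℕ, B ≤ i → T i = Sum.inl A.blank
  small : ∀ i : ℕ, i < B → (T i).isRight
  reg_le : ∀ j, j < r → c.regs j ≤ B
  out_le : c.out.length ≤ B
  two : 2 ≤ B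

/-- States that are not states of `A`. -/
abbrev NA {ℓ : ℕ} (q : BQ ℓ Q) : Prop := q.isLeft = true

lemma tr_cellOf {c : CConf} {i j : ℕ} (hj : j < r) :
    (cellOf r c i).tr j = decide (i < c.regs j) := by
  simp [Cell.tr, cellOf, hj]

lemma org_cellOf {c : CConf} {i : ℕ} : (cellOf r c i).org = decide (i = 0) := rfl

lemma op_cellOf {c : CConf} {i : ℕ} : (cellOf r c i).op = c.out[i]? := rfl

variable {code r A ι}

/-- Walk back to the origin. -/
lemma back_home {c : CConf} {T : ℤ → Γ ⊕ Cell r} {B : ℕ} (h : TRep r A c T B)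
    (p : Fin (code.length + 1)) (i : ℕ) :
    Rch (simM code r A ι) NA ⟨Sum.inl (p, Phase.back), T, (i : ℤ)⟩ ⟨Sum.inl (p, Phase.start), T, 0⟩
      (i + 2) := by
  have h1 : Rch (simM code r A ι) NA ⟨Sum.inl (p, Phase.back), T, (i : ℤ)⟩
      ⟨Sum.inl (p, Phase.back), T, (i : ℤ) - i⟩ i := by
    refine walkL (M := simM code r A ι) (P := NA) rfl T _ i fun k hk => ?_
    have e : (i : ℤ) - k = ((i - k : ℕ) : ℤ) := by omega
    rw [e]
    have hv := h.view_eq (i - k)
    have ho : (view (T ((i - k : ℕ) : ℤ))).org = false := by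
      rw [hv, org_cellOf]
      simp only [decide_eq_false_iff_not]
      omega
    simp only [simM, phStep, ho]
    rfl
  have hv0 := h.view_eq 0
  have ho0 : (view (T 0)).org = true := by
    have := hv0
    simp only [Nat.cast_zero] at this
    rw [this, org_cellOf]
    simp
  have h2 : Rch (simM code r A ι) NA ⟨Sum.inl (p, Phase.back), T, 0⟩
      ⟨Sum.inl (p, Phase.turn), T, 1⟩ 1 := by
    refine Rch.one rfl ?_
    have : (simM code r A ι).δ (Sum.inl (p, Phase.back)) (T 0) =
        (Sum.inl (p, Phase.turn), T 0, true) := by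
      simp only [simM, phStep, ho0]
      rfl
    rw [step_right this, Function.update_eq_self]
    rfl
  have h3 : Rch (simM code r A ι) NA ⟨Sum.inl (p, Phase.turn), T, 1⟩
      ⟨Sum.inl (p, Phase.start), T, 0⟩ 1 := by
    refine Rch.one rfl ?_
    have : (simM code r A ι).δ (Sum.inl (p, Phase.turn)) (T 1) =
        (Sum.inl (p, Phase.start), T 1, false) := rfl
    rw [step_left this, Function.update_eq_self]
    rfl
  simp only [sub_self] at h1
  exact (h1.trans h2).trans h3


/-- Writing one cell. -/
lemma TRep.write {c c' : CConf} {T : ℤ → Γ ⊕ Cell r} {B : ℕ} (h : TRep r A c T B) (v : ℕ)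
    (hv : v ≤ B) (hw : ∀ i, i ≠ v → cellOf r c' i = cellOf r c i)
    (hreg : ∀ j, j < r → c'.regs j ≤ max B (v + 1)) (hout : c'.out.length ≤ max B (v + 1)) :
    TRep r A c' (Function.update T (v : ℤ) (Sum.inr (cellOf r c' v))) (max B (v + 1)) := by
  refine ⟨fun i => ?_, fun p hp => ?_, fun i hi => ?_, fun i hi => ?_, hreg, hout, ?_⟩
  · by_cases hi : i = v
    · subst hi
      simp [view]
    · rw [Function.update_of_ne (by omega), h.view_eq i, hw i hi]
  · rw [Function.update_of_ne (by omega)]
    exact h.neg p hp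
  · rw [Function.update_of_ne (by omega)]
    exact h.big i (le_trans (le_max_left _ _) hi)
  · by_cases hiv : i = v
    · subst hiv
      simp
    · rw [Function.update_of_ne (by omega)]
      apply h.small
      have h1 := le_max_iff.mpr (Or.inl (le_refl B) : B ≤ B ∨ B ≤ v + 1)
      rcases max_cases B (v + 1) with ⟨h2, h3⟩ | ⟨h2, h3⟩ <;> omega
  · exact le_trans h.two (le_max_left _ _)

/-- The same tape represents a configuration with the same registers and output. -/
lemma TRep.congr {c c' : CConf} {T : ℤ → Γ ⊕ Cell r} {B : ℕ} (h : TRep r A c T B)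
    (hr : c'.regs = c.regs) (ho : c'.out = c.out) : TRep r A c' T B := by
  have e : ∀ i, cellOf r c' i = cellOf r c i := fun i => by
    unfold cellOf
    rw [hr, ho]
  refine ⟨fun i => by rw [e, h.view_eq], h.neg, h.big, h.small, fun j hj => by rw [hr]; exact h.reg_le j hj,
    by rw [ho]; exact h.out_le, h.two⟩

end Rep

end Vale.Agent.Lib.P310F
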