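import Vale.Agent.Lib.P310F.TMSim

namespace Vale.Agent.Lib.P310F

section

variable {Q Γ : Type} {code : List Instr} {r : ℕ} {A : DTM Q Γ} {ι : Bool → Γ}

lemma view_tr {c : CConf} {T : ℤ → Γ ⊕ Cell r} {B : ℕ} (h : TRep r A c T B) {i j : ℕ} (hj : j < r) :
    (view (T i)).tr j = decide (i < c.regs j) := by
  rw [h.view_eq, tr_cellOf r hj]

lemma view_tr0 {c : CConf} {T : ℤ → Γ ⊕ Cell r} {B : ℕ} (h : TRep r A c T B) {j : ℕ} (hj : j < r) :
    (view (T 0)).tr j = decide (0 < c.regs j) := by
  have := view_tr h (i := 0) hj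
  simpa using this

lemma view_org {c : CConf} {T : ℤ → Γ ⊕ Cell r} {B : ℕ} (h : TRep r A c T B) {i : ℕ} :
    (view (T i)).org = decide (i = 0) := by
  rw [h.view_eq, org_cellOf]

lemma view_op {c : CConf} {T : ℤ → Γ ⊕ Cell r} {B : ℕ} (h : TRep r A c T B) {i : ℕ} :
    (view (T i)).op = c.out[i]? := by
  rw [h.view_eq, op_cellOf]

lemma view_op0 {c : CConf} {T : ℤ → Γ ⊕ Cell r} {B : ℕ} (h : TRep r A c T B) :
    (view (T 0)).op = c.out[0]? := by
  have := view_op h (i := 0)
  simpa using this

lemma setTr_cellOf {c c' : CConf} {i j : ℕ} {b : Bool}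
    (h1 : ∀ j', j' ≠ j → c'.regs j' = c.regs j') (h2 : c'.out = c.out)
    (h3 : decide (i < c'.regs j) = b) :
    (cellOf r c i).setTr j b = cellOf r c' i := by
  unfold Cell.setTr cellOf
  simp only [Prod.mk.injEq, true_and]
  refine ⟨funext fun k => ?_, by rw [h2]⟩
  by_cases hk : k.val = j
  · rw [if_pos hk, hk, h3]
  · rw [if_neg hk, h1 _ hk]

lemma cellOf_regs_ne {c c' : CConf} {i j : ℕ}
    (h1 : ∀ j', j' ≠ j → c'.regs j' = c.regs j') (h2 : c'.out = c.out)
    (h3 : decide (i < c'.regs j) = decide (i < c.regs j)) :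
    cellOf r c' i = cellOf r c i := by
  unfold cellOf
  simp only [Prod.mk.injEq, true_and]
  refine ⟨funext fun k => ?_, by rw [h2]⟩
  by_cases hk : k.val = j
  · rw [hk, h3]
  · rw [h1 _ hk]

/-- Simulation of an increment. -/
lemma sim_inc {c : CConf} {T : ℤ → Γ ⊕ Cell r} {B : ℕ} (h : TRep r A c T B)
    (p : Fin (code.length + 1)) (hp : p.val = c.pc) {j : ℕ} (hj : j < r)
    (hi : code[p.val]? = some (Instr.inc j)) :
    ∃ t T' B', t ≤ 2 * B + 4 ∧ B' ≤ B + 1 ∧
      Rch (simM code r A ι) NA ⟨Sum.inl (p, Phase.start), T, 0⟩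
        ⟨Sum.inl (mkPc code.length (c.pc + 1), Phase.start), T', 0⟩ t ∧
      TRep r A ⟨c.pc + 1, Function.update c.regs j (c.regs j + 1), c.out⟩ T' B' := by
  set c' : CConf := ⟨c.pc + 1, Function.update c.regs j (c.regs j + 1), c.out⟩ with hc'
  set v := c.regs j with hv
  have hvB : v ≤ B := h.reg_le j hj
  have h1 : ∀ j', j' ≠ j → c'.regs j' = c.regs j' := fun j' hj' => by
    simp [hc', Function.update_of_ne hj']
  have hr : c'.regs j = v + 1 := by simp [hc']
  have hw := h.write (c' := c') v hvB (fun i hi' => cellOf_regs_ne h1 rfl (by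
      rw [hr]
      simp only [decide_eq_decide]
      omega)) (fun j' hj' => by
      by_cases e : j' = j
      · subst e
        rw [hr]
        exact le_max_right _ _
      · rw [h1 _ e]
        exact le_trans (h.reg_le j' hj') (le_max_left _ _)) (le_trans h.out_le (le_max_left _ _))
  set T' := Function.update T (v : ℤ) (Sum.inr (cellOf r c' v)) with hT'
  have hset : (cellOf r c v).setTr j true = cellOf r c' v :=
    setTr_cellOf h1 rfl (by rw [hr]; simp)
  have hB' : max B (v + 1) ≤ B + 1 := by
    rcases max_cases B (v + 1) with ⟨h2, h3⟩ | ⟨h2, h3⟩ <;> omega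
  rcases Nat.eq_zero_or_pos v with hv0 | hvpos
  · refine ⟨2, T', _, by omega, hB', ?_, hw⟩
    have e0 : (view (T 0)).tr j = false := by
      rw [view_tr0 h hj, ← hv, hv0]
      simp
    have e1 : (simM code r A ι).δ (Sum.inl (p, Phase.start)) (T 0) =
        (Sum.inl (mkPc code.length (c.pc + 1), Phase.turn), Sum.inr (cellOf r c' v), true) := by
      simp only [simM, phStep, hi, e0]
      have : view (T 0) = cellOf r c 0 := by simpa using h.view_eq 0
      rw [this, ← hp]
      simp only [hv0] at hset ⊢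
      rw [hset]
      rfl
    have s1 : Rch (simM code r A ι) NA ⟨Sum.inl (p, Phase.start), T, 0⟩
        ⟨Sum.inl (mkPc code.length (c.pc + 1), Phase.turn), T', 1⟩ 1 := by
      refine Rch.one rfl ?_
      rw [step_right e1, hT', hv0]
      simp
    have s2 : Rch (simM code r A ι) NA
        ⟨Sum.inl (mkPc code.length (c.pc + 1), Phase.turn), T', 1⟩
        ⟨Sum.inl (mkPc code.length (c.pc + 1), Phase.start), T', 0⟩ 1 := by
      refine Rch.one rfl ?_
      have : (simM code r A ι).δ (Sum.inl (mkPc code.length (c.pc + 1), Phase.turn)) (T' 1) =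
          (Sum.inl (mkPc code.length (c.pc + 1), Phase.start), T' 1, false) := rfl
      rw [step_left this, Function.update_eq_self]
      rfl
    exact s1.trans s2
  · refine ⟨1 + (v - 1) + 1 + (v - 1 + 2), T', _, by omega, hB', ?_, hw⟩
    have e0 : (view (T 0)).tr j = true := by
      rw [view_tr0 h hj, ← hv]
      simpa using hvpos
    have e1 : (simM code r A ι).δ (Sum.inl (p, Phase.start)) (T 0) =
        (Sum.inl (p, Phase.goInc), T 0, true) := by
      simp only [simM, phStep, hi, e0]
      rfl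
    have s1 : Rch (simM code r A ι) NA ⟨Sum.inl (p, Phase.start), T, 0⟩
        ⟨Sum.inl (p, Phase.goInc), T, 1⟩ 1 := by
      refine Rch.one rfl ?_
      rw [step_right e1, Function.update_eq_self]
      rfl
    have s2 : Rch (simM code r A ι) NA ⟨Sum.inl (p, Phase.goInc), T, 1⟩
        ⟨Sum.inl (p, Phase.goInc), T, 1 + ((v - 1 : ℕ) : ℤ)⟩ (v - 1) := by
      refine walkR (M := simM code r A ι) (P := NA) rfl T 1 (v - 1) fun k hk => ?_
      have e : (1 : ℤ) + k = ((k + 1 : ℕ) : ℤ) := by push_cast; ring
      rw [e]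
      have e2 : (view (T ((k + 1 : ℕ) : ℤ))).tr j = true := by
        rw [view_tr h hj, ← hv]
        simp only [decide_eq_true_eq]
        omega
      simp only [simM, phStep, hi, e2]
      rfl
    have e3 : (1 : ℤ) + ((v - 1 : ℕ) : ℤ) = (v : ℤ) := by omega
    rw [e3] at s2
    have e4 : (view (T (v : ℤ))).tr j = false := by
      rw [view_tr h hj, ← hv]
      simp
    have e5 : (simM code r A ι).δ (Sum.inl (p, Phase.goInc)) (T (v : ℤ)) =
        (Sum.inl (mkPc code.length (c.pc + 1), Phase.back), Sum.inr (cellOf r c' v), false) := by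
      simp only [simM, phStep, hi, e4]
      rw [h.view_eq v, ← hp, hset]
      rfl
    have s3 : Rch (simM code r A ι) NA ⟨Sum.inl (p, Phase.goInc), T, (v : ℤ)⟩
        ⟨Sum.inl (mkPc code.length (c.pc + 1), Phase.back), T', ((v - 1 : ℕ) : ℤ)⟩ 1 := by
      refine Rch.one rfl ?_
      rw [step_left e5]
      have e6 : (v : ℤ) - 1 = ((v - 1 : ℕ) : ℤ) := by omega
      rw [e6]
    have s4 := back_home (code := code) (ι := ι) hw (mkPc code.length (c.pc + 1)) (v - 1)
    exact ((s1.trans s2).trans s3).trans s4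

/-- Simulation of a decrement. -/
lemma sim_dec {c : CConf} {T : ℤ → Γ ⊕ Cell r} {B : ℕ} (h : TRep r A c T B)
    (p : Fin (code.length + 1)) (hp : p.val = c.pc) {j : ℕ} (hj : j < r)
    (hi : code[p.val]? = some (Instr.dec j)) :
    ∃ t T' B', t ≤ 2 * B + 4 ∧ B' ≤ B + 1 ∧
      Rch (simM code r A ι) NA ⟨Sum.inl (p, Phase.start), T, 0⟩
        ⟨Sum.inl (mkPc code.length (c.pc + 1), Phase.start), T', 0⟩ t ∧
      TRep r A ⟨c.pc + 1, Function.update c.regs j (c.regs j - 1), c.out⟩ T' B' := by
  set c' : CConf := ⟨c.pc + 1, Function.update c.regs j (c.regs j - 1), c.out⟩ with hc'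
  set v := c.regs j with hv
  have hvB : v ≤ B := h.reg_le j hj
  have h1 : ∀ j', j' ≠ j → c'.regs j' = c.regs j' := fun j' hj' => by
    simp [hc', Function.update_of_ne hj']
  have hr : c'.regs j = v - 1 := by simp [hc']
  rcases Nat.eq_zero_or_pos v with hv0 | hvpos
  · have hsame : c'.regs = c.regs := by
      funext j'
      by_cases e : j' = j
      · subst e
        rw [hr, ← hv, hv0]
      · exact h1 _ e
    refine ⟨2, T, B, by omega, by omega, ?_, h.congr hsame rfl⟩
    have e0 : (view (T 0)).tr j = false := by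
      rw [view_tr0 h hj, ← hv, hv0]
      simp
    have e1 : (simM code r A ι).δ (Sum.inl (p, Phase.start)) (T 0) =
        (Sum.inl (mkPc code.length (c.pc + 1), Phase.turn), T 0, true) := by
      simp only [simM, phStep, hi, e0]
      rw [← hp]
      rfl
    have s1 : Rch (simM code r A ι) NA ⟨Sum.inl (p, Phase.start), T, 0⟩
        ⟨Sum.inl (mkPc code.length (c.pc + 1), Phase.turn), T, 1⟩ 1 := by
      refine Rch.one rfl ?_
      rw [step_right e1, Function.update_eq_self]
      rfl
    have s2 : Rch (simM code r A ι) NA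
        ⟨Sum.inl (mkPc code.length (c.pc + 1), Phase.turn), T, 1⟩
        ⟨Sum.inl (mkPc code.length (c.pc + 1), Phase.start), T, 0⟩ 1 := by
      refine Rch.one rfl ?_
      have : (simM code r A ι).δ (Sum.inl (mkPc code.length (c.pc + 1), Phase.turn)) (T 1) =
          (Sum.inl (mkPc code.length (c.pc + 1), Phase.start), T 1, false) := rfl
      rw [step_left this, Function.update_eq_self]
      rfl
    exact s1.trans s2
  · have hw0 := h.write (c' := c') (v - 1) (by omega) (fun i hi' => cellOf_regs_ne h1 rfl (by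
        rw [hr]
        simp only [decide_eq_decide]
        omega)) (fun j' hj' => by
        by_cases e : j' = j
        · subst e
          rw [hr]
          exact le_trans (by omega) (le_max_left _ _)
        · rw [h1 _ e]
          exact le_trans (h.reg_le j' hj') (le_max_left _ _)) (le_trans h.out_le (le_max_left _ _))
    have hBB : max B (v - 1 + 1) = B := by
      rw [max_eq_left]
      omega
    rw [hBB] at hw0
    set T' := Function.update T ((v - 1 : ℕ) : ℤ) (Sum.inr (cellOf r c' (v - 1))) with hT'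
    have hset : (cellOf r c (v - 1)).setTr j false = cellOf r c' (v - 1) :=
      setTr_cellOf h1 rfl (by rw [hr]; simp)
    have e0 : (view (T 0)).tr j = true := by
      rw [view_tr0 h hj, ← hv]
      simpa using hvpos
    have e1 : (simM code r A ι).δ (Sum.inl (p, Phase.start)) (T 0) =
        (Sum.inl (p, Phase.goDec), T 0, true) := by
      simp only [simM, phStep, hi, e0]
      rfl
    have s1 : Rch (simM code r A ι) NA ⟨Sum.inl (p, Phase.start), T, 0⟩
        ⟨Sum.inl (p, Phase.goDec), T, 1⟩ 1 := by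
      refine Rch.one rfl ?_
      rw [step_right e1, Function.update_eq_self]
      rfl
    have s2 : Rch (simM code r A ι) NA ⟨Sum.inl (p, Phase.goDec), T, 1⟩
        ⟨Sum.inl (p, Phase.goDec), T, 1 + ((v - 1 : ℕ) : ℤ)⟩ (v - 1) := by
      refine walkR (M := simM code r A ι) (P := NA) rfl T 1 (v - 1) fun k hk => ?_
      have e : (1 : ℤ) + k = ((k + 1 : ℕ) : ℤ) := by push_cast; ring
      rw [e]
      have e2 : (view (T ((k + 1 : ℕ) : ℤ))).tr j = true := by
        rw [view_tr h hj, ← hv]
        simp only [decide_eq_true_eq]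
        omega
      simp only [simM, phStep, hi, e2]
      rfl
    have e3 : (1 : ℤ) + ((v - 1 : ℕ) : ℤ) = (v : ℤ) := by omega
    rw [e3] at s2
    have e4 : (view (T (v : ℤ))).tr j = false := by
      rw [view_tr h hj, ← hv]
      simp
    have e5 : (simM code r A ι).δ (Sum.inl (p, Phase.goDec)) (T (v : ℤ)) =
        (Sum.inl (p, Phase.clrDec), T (v : ℤ), false) := by
      simp only [simM, phStep, hi, e4]
      rfl
    have s3 : Rch (simM code r A ι) NA ⟨Sum.inl (p, Phase.goDec), T, (v : ℤ)⟩
        ⟨Sum.inl (p, Phase.clrDec), T, ((v - 1 : ℕ) : ℤ)⟩ 1 := by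
      refine Rch.one rfl ?_
      rw [step_left e5, Function.update_eq_self]
      have e6 : (v : ℤ) - 1 = ((v - 1 : ℕ) : ℤ) := by omega
      rw [e6]
    have s12 := (s1.trans s2).trans s3
    by_cases hv1 : v = 1
    · have e7 : (view (T ((v - 1 : ℕ) : ℤ))).org = true := by
        rw [view_org h]
        simp [hv1]
      have e8 : (simM code r A ι).δ (Sum.inl (p, Phase.clrDec)) (T ((v - 1 : ℕ) : ℤ)) =
          (Sum.inl (mkPc code.length (c.pc + 1), Phase.turn), Sum.inr (cellOf r c' (v - 1)), true) := by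
        simp only [simM, phStep, hi, e7]
        rw [h.view_eq (v - 1), ← hp, hset]
        rfl
      have s4 : Rch (simM code r A ι) NA ⟨Sum.inl (p, Phase.clrDec), T, ((v - 1 : ℕ) : ℤ)⟩
          ⟨Sum.inl (mkPc code.length (c.pc + 1), Phase.turn), T', 1⟩ 1 := by
        refine Rch.one rfl ?_
        rw [step_right e8]
        have e9 : ((v - 1 : ℕ) : ℤ) + 1 = 1 := by omega
        rw [e9]
      have s5 : Rch (simM code r A ι) NA
          ⟨Sum.inl (mkPc code.length (c.pc + 1), Phase.turn), T', 1⟩
          ⟨Sum.inl (mkPc code.length (c.pc + 1), Phase.start), T', 0⟩ 1 := by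
        refine Rch.one rfl ?_
        have : (simM code r A ι).δ (Sum.inl (mkPc code.length (c.pc + 1), Phase.turn)) (T' 1) =
            (Sum.inl (mkPc code.length (c.pc + 1), Phase.start), T' 1, false) := rfl
        rw [step_left this, Function.update_eq_self]
        rfl
      refine ⟨_, T', B, ?_, by omega, (s12.trans s4).trans s5, hw0⟩
      omega
    · have e7 : (view (T ((v - 1 : ℕ) : ℤ))).org = false := by
        rw [view_org h]
        simp only [decide_eq_false_iff_not]
        omega
      have e8 : (simM code r A ι).δ (Sum.inl (p, Phase.clrDec)) (T ((v - 1 : ℕ) : ℤ)) =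
          (Sum.inl (mkPc code.length (c.pc + 1), Phase.back), Sum.inr (cellOf r c' (v - 1)), false) := by
        simp only [simM, phStep, hi, e7]
        rw [h.view_eq (v - 1), ← hp, hset]
        rfl
      have s4 : Rch (simM code r A ι) NA ⟨Sum.inl (p, Phase.clrDec), T, ((v - 1 : ℕ) : ℤ)⟩
          ⟨Sum.inl (mkPc code.length (c.pc + 1), Phase.back), T', ((v - 2 : ℕ) : ℤ)⟩ 1 := by
        refine Rch.one rfl ?_
        rw [step_left e8]
        have e9 : ((v - 1 : ℕ) : ℤ) - 1 = ((v - 2 : ℕ) : ℤ) := by omega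
        rw [e9]
      have s5 := back_home (code := code) (ι := ι) hw0 (mkPc code.length (c.pc + 1)) (v - 2)
      refine ⟨_, T', B, ?_, by omega, (s12.trans s4).trans s5, hw0⟩
      omega

end

end Vale.Agent.Lib.P310F
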