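import Vale.Agent.Lib.P310F.Prog2
import Vale.Agent.Lib.P310F.R.TMSize2

/-!
A numeric presentation of the XOR structure: classes and edges are numbers, a node is a class
number with a number whose bits are the values on the edges of the class, and a vertex is a node
with a pendant index.
-/

set_option linter.unusedSectionVars false

namespace Vale.Agent.Lib.P310F

open Finset R

/-- Numeric data of an XOR structure. -/
structure XD where
  Bc : ℕ
  Be : ℕ
  A : ℕ
  vc : ℕ → Prop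
  inE : ℕ → ℕ → Prop
  par : ℕ → ℕ

namespace XD

variable (X : XD)

/-- The number of edges of a class. -/
noncomputable def deg (k : ℕ) : ℕ := cnt (X.inE k) X.Be

/-- The position of an edge among the edges of a class. -/
noncomputable def rkE (k j : ℕ) : ℕ := cnt (X.inE k) j

/-- The number of nodes of a class (capped). -/
noncomputable def nS (k : ℕ) : ℕ := min X.A (2 ^ X.deg k)

/-- The value of a node of class `k` with number `s` on edge `j`. -/
noncomputable def bitE (k s j : ℕ) : ℕ := bt s (X.rkE k j)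

open Classical in
/-- The sum of the values of a node. -/
noncomputable def parSum (k s : ℕ) : ℕ := ∑ j ∈ (range X.Be).filter (X.inE k), X.bitE k s j

/-- The parity condition. -/
def parOK (k s : ℕ) : Prop := X.par k = 2 ∨ X.parSum k s % 2 = X.par k

/-- Adjacency of nodes. -/
def nAdj (k s k' s' : ℕ) : Prop :=
  k ≠ k' ∧ (∃ j, j < X.Be ∧ X.inE k j ∧ X.inE k' j) ∧
    ∀ j, j < X.Be → (X.inE k j ∧ X.inE k' j → X.bitE k s j = X.bitE k' s' j)

/-- The position of a class among the classes. -/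
noncomputable def rkC (k : ℕ) : ℕ := cnt X.vc k

open Classical in
/-- The number of nodes. -/
noncomputable def cN : ℕ := ∑ k ∈ (range X.Bc).filter X.vc, X.nS k

/-- The number of pendant vertices of class `k`. -/
noncomputable def pN (k : ℕ) : ℕ := (X.rkC k + 1) * (X.cN + 2)

/-- The modulus of pendant indices. -/
noncomputable def md : ℕ := X.rkC X.Bc * (X.cN + 2) + 1

/-- The class of a vertex number. -/
noncomputable def vK (u : ℕ) : ℕ := u / X.md / X.A

/-- The node number of a vertex number. -/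
noncomputable def vS (u : ℕ) : ℕ := u / X.md % X.A

/-- The pendant index of a vertex number. -/
noncomputable def vI (u : ℕ) : ℕ := u % X.md

/-- The vertex numbers. -/
def good (u : ℕ) : Prop :=
  X.vc (X.vK u) ∧ X.vS u < X.nS (X.vK u) ∧ X.parOK (X.vK u) (X.vS u) ∧ X.vI u ≤ X.pN (X.vK u)

/-- An upper bound of the vertex numbers. -/
noncomputable def L : ℕ := (X.Bc * X.A + X.A) * X.md

/-- Adjacency of vertex numbers. -/
def adjV (u u' : ℕ) : Prop :=
  (X.vI u = 0 ∧ X.vI u' = 0 ∧ X.nAdj (X.vK u) (X.vS u) (X.vK u') (X.vS u')) ∨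
    (u / X.md = u' / X.md ∧ ((X.vI u = 0 ∧ X.vI u' ≠ 0) ∨ (X.vI u ≠ 0 ∧ X.vI u' = 0)))

end XD

/-- Functions to bits on a numbered set as numbers. -/
noncomputable def bitsEquiv {α : Type} {d : ℕ} (E : α ≃ Fin d) : (α → ZMod 2) ≃ Fin (2 ^ d) where
  toFun σ := finFunctionFinEquiv fun i => (σ (E.symm i) : Fin 2)
  invFun s e := (finFunctionFinEquiv.symm s (E e) : Fin 2)
  left_inv σ := by
    funext e
    have h1 := congrFun (finFunctionFinEquiv.symm_apply_apply
      (fun i => (σ (E.symm i) : Fin 2))) (E e)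
    exact h1.trans (congrArg σ (E.symm_apply_apply e))
  right_inv s := by
    have h1 : (fun i => finFunctionFinEquiv.symm s (E (E.symm i))) = finFunctionFinEquiv.symm s :=
      funext fun i => by rw [E.apply_symm_apply]
    exact (congrArg finFunctionFinEquiv h1).trans (finFunctionFinEquiv.apply_symm_apply s)

lemma bt_bitsEquiv {α : Type} {d : ℕ} (E : α ≃ Fin d) (σ : α → ZMod 2) (e : α) :
    bt (bitsEquiv E σ).val (E e).val = (σ e).val := by
  have h1 := bt_eqv (fun i => (σ (E.symm i) : Fin 2)) (E e)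
  have h2 : (σ (E.symm (E e))) = σ e := congrArg σ (E.symm_apply_apply e)
  exact h1.trans (congrArg (fun z : ZMod 2 => (z : Fin 2).val) h2)

section Pres

variable {BV Pr : Type} [Fintype BV] [DecidableEq BV] [Fintype Pr] [DecidableEq Pr]
  [NumE (BV ⊕ Pr)]
variable (B : SimpleGraph BV) [DecidableRel B.Adj] (Fr : Pr → Finset (Sym2 BV)) (t : BV → ZMod 2)

/-- A numeric presentation of an XOR structure. -/
structure Pres (X : XD) (cd : BV ⊕ Pr → ℕ) (ed : Sym2 BV → ℕ) : Prop where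
  cd_inj : Function.Injective cd
  cd_lt : ∀ c, cd c < X.Bc
  vc_iff : ∀ k, X.vc k ↔ ∃ c, cd c = k
  ed_inj : Function.Injective ed
  ed_lt : ∀ e, ed e < X.Be
  inE_iff : ∀ c j, X.inE (cd c) j ↔ ∃ e ∈ edgesOf B Fr c, ed e = j
  par_inl : ∀ v, X.par (cd (Sum.inl v)) = (t v).val
  par_inr : ∀ p, X.par (cd (Sum.inr p)) = 2
  num : ∀ c, ((NumE.e (α := BV ⊕ Pr)) c : ℕ) = X.rkC (cd c)
  cap : ∀ c, 2 ^ (edgesOf B Fr c).card ≤ X.A

variable {B Fr t} {X : XD} {cd : BV ⊕ Pr → ℕ} {ed : Sym2 BV → ℕ}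

namespace Pres

open Classical

variable (h : Pres B Fr t X cd ed)
include h

lemma filter_eq (c : BV ⊕ Pr) (a : ℕ) (ha : ∀ e, ed e < a) :
    (range a).filter (X.inE (cd c)) = (edgesOf B Fr c).image ed := by
  ext j
  simp only [mem_filter, mem_range, mem_image]
  rw [h.inE_iff]
  constructor
  · exact fun h' => h'.2
  · rintro ⟨e, he, rfl⟩
    exact ⟨ha e, e, he, rfl⟩

lemma deg_eq (c : BV ⊕ Pr) : X.deg (cd c) = (edgesOf B Fr c).card := by
  unfold XD.deg cnt
  rw [h.filter_eq c _ h.ed_lt, card_image_of_injective _ h.ed_inj]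

lemma pos_A (c : BV ⊕ Pr) : 0 < X.A :=
  lt_of_lt_of_le (by positivity) (h.cap c)

lemma nS_eq (c : BV ⊕ Pr) : X.nS (cd c) = 2 ^ (edgesOf B Fr c).card := by
  unfold XD.nS
  rw [h.deg_eq c, min_eq_right (h.cap c)]

/-- Positions of edges are strictly increasing. -/
lemma rkE_lt {c : BV ⊕ Pr} {e e' : Sym2 BV} (he : e ∈ edgesOf B Fr c)
    (hlt : ed e < ed e') : X.rkE (cd c) (ed e) < X.rkE (cd c) (ed e') := by
  unfold XD.rkE cnt
  apply Finset.card_lt_card
  rw [Finset.ssubset_iff_of_subset]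
  · refine ⟨ed e, ?_, ?_⟩
    · rw [mem_filter, mem_range]
      exact ⟨hlt, (h.inE_iff c _).mpr ⟨e, he, rfl⟩⟩
    · simp
  · intro j hj
    rw [mem_filter, mem_range] at hj ⊢
    exact ⟨by omega, hj.2⟩

lemma rkE_lt_deg {c : BV ⊕ Pr} {e : Sym2 BV} (he : e ∈ edgesOf B Fr c) :
    X.rkE (cd c) (ed e) < X.deg (cd c) := by
  unfold XD.rkE XD.deg cnt
  apply Finset.card_lt_card
  rw [Finset.ssubset_iff_of_subset]
  · refine ⟨ed e, ?_, ?_⟩
    · rw [mem_filter, mem_range]
      exact ⟨h.ed_lt e, (h.inE_iff c _).mpr ⟨e, he, rfl⟩⟩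
    · simp
  · intro j hj
    rw [mem_filter, mem_range] at hj ⊢
    exact ⟨lt_trans hj.1 (h.ed_lt e), hj.2⟩

/-- Positions of the edges of a class. -/
noncomputable def rkF (c : BV ⊕ Pr) (e : ↥(edgesOf B Fr c)) : Fin (X.deg (cd c)) :=
  ⟨X.rkE (cd c) (ed e.1), h.rkE_lt_deg e.2⟩

lemma rkF_bij (c : BV ⊕ Pr) : Function.Bijective (h.rkF c) := by
  rw [Fintype.bijective_iff_injective_and_card]
  constructor
  · rintro ⟨e, he⟩ ⟨e', he'⟩ hh
    have hh' : X.rkE (cd c) (ed e) = X.rkE (cd c) (ed e') := congrArg Fin.val hh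
    rcases lt_trichotomy (ed e) (ed e') with h1 | h1 | h1
    · have := h.rkE_lt he h1
      omega
    · exact Subtype.ext (h.ed_inj h1)
    · have := h.rkE_lt he' h1
      omega
  · simp [h.deg_eq c]

/-- Functions on the edges of a class as numbers. -/
noncomputable def eqS (c : BV ⊕ Pr) : (↥(edgesOf B Fr c) → ZMod 2) ≃ Fin (2 ^ X.deg (cd c)) :=
  bitsEquiv (Equiv.ofBijective _ (h.rkF_bij c))

lemma bit_eqS (c : BV ⊕ Pr) (σ : ↥(edgesOf B Fr c) → ZMod 2) (e : ↥(edgesOf B Fr c)) :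
    X.bitE (cd c) (h.eqS c σ).val (ed e.1) = (σ e).val :=
  bt_bitsEquiv (Equiv.ofBijective _ (h.rkF_bij c)) σ e

lemma filter_vc : (range X.Bc).filter X.vc = (univ : Finset (BV ⊕ Pr)).image cd := by
  ext k
  simp only [mem_filter, mem_range, mem_image, mem_univ, true_and]
  rw [h.vc_iff]
  constructor
  · exact fun h' => h'.2
  · rintro ⟨c, rfl⟩
    exact ⟨h.cd_lt c, c, rfl⟩

lemma cN_eq : X.cN = Fintype.card (Node B Fr) := by
  rw [card_Node]
  unfold XD.cN
  rw [h.filter_vc, sum_image (fun _ _ _ _ e => h.cd_inj e)]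
  exact Finset.sum_congr rfl fun c _ => h.nS_eq c

lemma rkC_Bc : X.rkC X.Bc = Fintype.card (BV ⊕ Pr) := by
  unfold XD.rkC cnt
  rw [h.filter_vc, card_image_of_injective _ h.cd_inj, card_univ]

lemma pN_eq (c : BV ⊕ Pr) : X.pN (cd c) = pend B Fr c := by
  unfold XD.pN pend
  rw [← h.num, h.cN_eq]

lemma md_eq : X.md = pendMax B Fr + 1 := by
  unfold XD.md pendMax
  rw [h.rkC_Bc, h.cN_eq]

/-- The number of a node. -/
noncomputable def nodeNum (u : Node B Fr) : ℕ := cd u.1 * X.A + (h.eqS u.1 u.2).val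

lemma eqS_lt (u : Node B Fr) : (h.eqS u.1 u.2).val < X.A := by
  have h1 := (h.eqS u.1 u.2).isLt
  have h2 := h.cap u.1
  have h3 : 2 ^ X.deg (cd u.1) = 2 ^ (edgesOf B Fr u.1).card := by rw [h.deg_eq]
  omega

lemma div_mod_aux {w i m : ℕ} (hi : i < m) : (w * m + i) / m = w ∧ (w * m + i) % m = i := by
  constructor
  · rw [Nat.add_comm, Nat.add_mul_div_right _ _ (by omega), Nat.div_eq_of_lt hi, zero_add]
  · rw [Nat.add_comm, Nat.add_mul_mod_self_right, Nat.mod_eq_of_lt hi]

lemma nodeNum_dec (u : Node B Fr) :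
    h.nodeNum u / X.A = cd u.1 ∧ h.nodeNum u % X.A = (h.eqS u.1 u.2).val :=
  div_mod_aux h (h.eqS_lt u)

lemma nodeNum_inj {u u' : Node B Fr} (e : h.nodeNum u = h.nodeNum u') : u = u' := by
  have h1 := h.nodeNum_dec u
  have h2 := h.nodeNum_dec u'
  rw [e] at h1
  have h3 : u.1 = u'.1 := h.cd_inj (h1.1.symm.trans h2.1)
  obtain ⟨c, σ⟩ := u
  obtain ⟨c', σ'⟩ := u'
  simp only at h3
  subst h3
  have h4 : (h.eqS c σ).val = (h.eqS c σ').val := h1.2.symm.trans h2.2
  rw [(h.eqS c).injective (Fin.ext h4)]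

/-- The number of a vertex. -/
noncomputable def phi (a : VT B Fr t) : ℕ := h.nodeNum a.1.1 * X.md + a.1.2.val

lemma idx_lt (a : VT B Fr t) : a.1.2.val < X.md := by
  rw [h.md_eq]
  exact a.1.2.isLt

lemma phi_dec (a : VT B Fr t) : h.phi a / X.md = h.nodeNum a.1.1 ∧ X.vI (h.phi a) = a.1.2.val :=
  div_mod_aux h (h.idx_lt a)

lemma vK_phi (a : VT B Fr t) : X.vK (h.phi a) = cd a.1.1.1 := by
  unfold XD.vK
  rw [(h.phi_dec a).1, (h.nodeNum_dec a.1.1).1]

lemma vS_phi (a : VT B Fr t) : X.vS (h.phi a) = (h.eqS a.1.1.1 a.1.1.2).val := by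
  unfold XD.vS
  rw [(h.phi_dec a).1, (h.nodeNum_dec a.1.1).2]

lemma phi_inj : Function.Injective (h.phi (B := B) (Fr := Fr) (t := t)) := by
  intro a b e
  have h1 := h.phi_dec a
  have h2 := h.phi_dec b
  rw [e] at h1
  apply Subtype.ext
  apply Prod.ext
  · exact h.nodeNum_inj (h1.1.symm.trans h2.1)
  · exact Fin.ext (h1.2.symm.trans h2.2)

lemma parSum_eq (u : Node B Fr) :
    X.parSum (cd u.1) (h.eqS u.1 u.2).val = ∑ e, (u.2 e).val := by
  unfold XD.parSum
  rw [h.filter_eq u.1 _ h.ed_lt, sum_image (fun _ _ _ _ e => h.ed_inj e),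
    ← Finset.sum_coe_sort]
  exact Finset.sum_congr rfl fun e _ => h.bit_eqS u.1 u.2 e

lemma parOK_iff (u : Node B Fr) :
    X.parOK (cd u.1) (h.eqS u.1 u.2).val ↔ parityOK B Fr t u := by
  unfold XD.parOK
  rw [h.parSum_eq]
  obtain ⟨c, σ⟩ := u
  rcases c with v | p
  · simp only [parityOK]
    rw [h.par_inl]
    have h1 : (t v).val < 2 := (t v).isLt
    have h2 : ((∑ e, (σ e).val : ℕ) : ZMod 2) = ∑ e, σ e := by
      push_cast
      simp [ZMod.natCast_zmod_val]
    constructor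
    · rintro (h3 | h3)
      · omega
      · apply ZMod.val_injective
        rw [← h2, ZMod.val_natCast]
        exact h3
    · intro h3
      right
      rw [← h3, ← h2, ZMod.val_natCast]
  · simp only [parityOK, iff_true]
    exact Or.inl (h.par_inr p)

lemma nAdj_iff (u u' : Node B Fr) :
    X.nAdj (cd u.1) (h.eqS u.1 u.2).val (cd u'.1) (h.eqS u'.1 u'.2).val ↔ nodeAdj B Fr u u' := by
  unfold XD.nAdj nodeAdj
  refine and_congr (not_congr h.cd_inj.eq_iff) (and_congr ?_ ?_)
  · constructor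
    · rintro ⟨j, -, h1, h2⟩
      obtain ⟨e, he, rfl⟩ := (h.inE_iff _ _).mp h1
      obtain ⟨e', he', e2⟩ := (h.inE_iff _ _).mp h2
      rw [h.ed_inj e2] at he'
      exact ⟨e, he, he'⟩
    · rintro ⟨e, h1, h2⟩
      exact ⟨ed e, h.ed_lt e, (h.inE_iff _ _).mpr ⟨e, h1, rfl⟩, (h.inE_iff _ _).mpr ⟨e, h2, rfl⟩⟩
  · constructor
    · intro hall e he he'
      have h1 := hall (ed e) (h.ed_lt e) ⟨(h.inE_iff _ _).mpr ⟨e, he, rfl⟩,
        (h.inE_iff _ _).mpr ⟨e, he', rfl⟩⟩
      have h2 := h.bit_eqS u.1 u.2 ⟨e, he⟩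
      have h3 := h.bit_eqS u'.1 u'.2 ⟨e, he'⟩
      simp only at h2 h3
      rw [h2, h3] at h1
      exact ZMod.val_injective _ h1
    · rintro hall j - ⟨h1, h2⟩
      obtain ⟨e, he, rfl⟩ := (h.inE_iff _ _).mp h1
      obtain ⟨e', he', e2⟩ := (h.inE_iff _ _).mp h2
      have := h.ed_inj e2
      subst this
      have h3 := h.bit_eqS u.1 u.2 ⟨e', he⟩
      have h4 := h.bit_eqS u'.1 u'.2 ⟨e', he'⟩
      simp only at h3 h4
      rw [h3, h4, hall e' he he']

lemma adj_iff (a b : VT B Fr t) : (vtGraph B Fr t).Adj a b ↔ X.adjV (h.phi a) (h.phi b) := by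
  unfold XD.adjV
  rw [(h.phi_dec a).1, (h.phi_dec b).1, (h.phi_dec a).2, (h.phi_dec b).2, h.vK_phi, h.vK_phi,
    h.vS_phi, h.vS_phi, h.nAdj_iff]
  have e : h.nodeNum a.1.1 = h.nodeNum b.1.1 ↔ a.1.1 = b.1.1 :=
    ⟨fun e => h.nodeNum_inj e, fun e => by rw [e]⟩
  rw [e]
  exact Iff.rfl

lemma good_phi (a : VT B Fr t) : X.good (h.phi a) := by
  unfold XD.good
  rw [h.vK_phi, h.vS_phi, (h.phi_dec a).2]
  refine ⟨(h.vc_iff _).mpr ⟨_, rfl⟩, ?_, (h.parOK_iff _).mpr a.2.1, ?_⟩
  · rw [h.nS_eq]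
    have h1 := (h.eqS a.1.1.1 a.1.1.2).isLt
    have h3 : 2 ^ X.deg (cd a.1.1.1) = 2 ^ (edgesOf B Fr a.1.1.1).card := by rw [h.deg_eq]
    omega
  · rw [h.pN_eq]
    exact a.2.2

lemma phi_lt (a : VT B Fr t) : h.phi a < X.L := by
  unfold XD.L phi
  have h1 := h.idx_lt a
  have h2 := h.eqS_lt a.1.1
  have h3 := h.cd_lt a.1.1.1
  have h4 : h.nodeNum a.1.1 + 1 ≤ X.Bc * X.A + X.A := by
    unfold nodeNum
    have : cd a.1.1.1 * X.A ≤ X.Bc * X.A := Nat.mul_le_mul_right _ h3.le
    omega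
  calc h.nodeNum a.1.1 * X.md + a.1.2.val < (h.nodeNum a.1.1 + 1) * X.md := by
        rw [add_mul, one_mul]
        omega
    _ ≤ _ := Nat.mul_le_mul_right _ h4

lemma exists_phi {u : ℕ} (hu : X.good u) : ∃ a : VT B Fr t, h.phi a = u := by
  obtain ⟨h1, h2, h3, h4⟩ := hu
  obtain ⟨c, hc⟩ := (h.vc_iff _).mp h1
  rw [← hc] at h2 h3 h4
  have hA := h.pos_A c
  have hm : 0 < X.md := by unfold XD.md; omega
  have hs : X.vS u < 2 ^ X.deg (cd c) := by
    rw [h.deg_eq, ← h.nS_eq]
    exact h2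
  let σ := (h.eqS c).symm ⟨X.vS u, hs⟩
  have hσ : (h.eqS c σ).val = X.vS u := by
    simp [σ]
  have hi : X.vI u < pendMax B Fr + 1 := by
    rw [← h.md_eq]
    exact Nat.mod_lt _ hm
  refine ⟨⟨(⟨c, σ⟩, ⟨X.vI u, hi⟩), ?_, ?_⟩, ?_⟩
  · apply (h.parOK_iff _).mp
    simp only
    rw [hσ]
    exact h3
  · show X.vI u ≤ pend B Fr c
    rw [← h.pN_eq]
    exact h4
  · unfold phi nodeNum
    simp only
    rw [hσ]
    have e1 : cd c * X.A + X.vS u = u / X.md := by
      rw [hc]
      exact Nat.div_add_mod' _ _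
    rw [e1]
    exact Nat.div_add_mod' _ _

/-- The main theorem on numeric presentations. -/
theorem main : ∃ φ : VT B Fr t → ℕ, Function.Injective φ ∧
    (∀ u, (∃ a, φ a = u) ↔ u < X.L ∧ X.good u) ∧
    ∀ a b, (vtGraph B Fr t).Adj a b ↔ X.adjV (φ a) (φ b) := by
  refine ⟨h.phi, h.phi_inj, fun u => ⟨?_, ?_⟩, h.adj_iff⟩
  · rintro ⟨a, rfl⟩
    exact ⟨h.phi_lt a, h.good_phi a⟩
  · exact fun hu => h.exists_phi hu.2

end Pres

end Pres

section Word

open Classical

/-- The bits of the adjacency matrix of a numeric graph. -/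
noncomputable def wordOf (L : ℕ) (good : ℕ → Prop) (adj : ℕ → ℕ → Prop) : List Bool :=
  (List.range L).flatMap fun u => if good u then
    (List.range L).flatMap fun w => if good w then [decide (adj u w)] else [] else []

lemma flatMap_ite_filter (l : List ℕ) (P : ℕ → Prop) (g : ℕ → List Bool) :
    (l.flatMap fun u => if P u then g u else []) = (l.filter fun u => decide (P u)).flatMap g := by
  induction l with
  | nil => rfl
  | cons a l ih =>
    by_cases h : P a <;> simp [List.flatMap_cons, h, ih]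

lemma flatMap_ite_single (l : List ℕ) (P : ℕ → Prop) (g : ℕ → Bool) :
    (l.flatMap fun u => if P u then [g u] else []) = (l.filter fun u => decide (P u)).map g := by
  induction l with
  | nil => rfl
  | cons a l ih =>
    by_cases h : P a <;> simp [List.flatMap_cons, h, ih]

lemma finRange_flat_eq (l : List ℕ) (F : ℕ → ℕ → Bool) :
    (List.finRange l.length).flatMap (fun i => (List.finRange l.length).map
      (fun j => F (l.get i) (l.get j))) = l.flatMap (fun u => l.map (F u)) := by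
  have e2 : (List.finRange l.length).map l.get = l := List.map_get_finRange l
  have e3 : ∀ i : Fin l.length, (List.finRange l.length).map (fun j => F (l.get i) (l.get j)) =
      (fun u => l.map (F u)) (l.get i) := by
    intro i
    have : (fun j => F (l.get i) (l.get j)) = F (l.get i) ∘ l.get := rfl
    rw [this, ← List.map_map, e2]
  calc _ = (List.finRange l.length).flatMap (fun i => (fun u => l.map (F u)) (l.get i)) :=
        List.flatMap_congr fun i _ => e3 i
    _ = ((List.finRange l.length).map l.get).flatMap (fun u => l.map (F u)) := by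
        rw [List.flatMap_map]
    _ = _ := by rw [e2]

/-- A graph with a numeric presentation is isomorphic to a graph on `Fin m` whose matrix is the
numeric word. -/
theorem exists_fin_graph {V : Type} [Fintype V] (G : SimpleGraph V) (φ : V → ℕ)
    (hinj : Function.Injective φ) {L : ℕ} {good : ℕ → Prop} {adj : ℕ → ℕ → Prop}
    (hr : ∀ u, (∃ a, φ a = u) ↔ u < L ∧ good u) (ha : ∀ a b, G.Adj a b ↔ adj (φ a) (φ b)) :
    ∃ m, m = Fintype.card V ∧ ∃ H : SimpleGraph (Fin m), Nonempty (H ≃g G) ∧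
      graphBits H = wordOf L good adj := by
  set l := (List.range L).filter fun u => decide (good u) with hl
  have hnd : l.Nodup := (List.nodup_range).filter _
  have hmem : ∀ u, u ∈ l ↔ ∃ a, φ a = u := by
    intro u
    rw [hr, hl, List.mem_filter, List.mem_range, decide_eq_true_eq]
  have hex : ∀ i : Fin l.length, ∃ a, φ a = l.get i := fun i =>
    (hmem _).mp (List.get_mem _ _)
  choose f hf using hex
  have hbij : Function.Bijective f := by
    constructor
    · intro i j e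
      have : l.get i = l.get j := by rw [← hf, ← hf, e]
      exact (List.Nodup.get_inj_iff hnd).mp this
    · intro a
      obtain ⟨i, hi⟩ := List.get_of_mem ((hmem (φ a)).mpr ⟨a, rfl⟩)
      exact ⟨i, hinj ((hf i).trans hi)⟩
  let E : Fin l.length ≃ V := Equiv.ofBijective f hbij
  have hm : l.length = Fintype.card V := by
    rw [← Fintype.card_fin l.length]
    exact Fintype.card_congr E
  refine ⟨l.length, hm, G.comap E, ⟨SimpleGraph.Iso.comap E G⟩, ?_⟩
  unfold graphBits wordOf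
  rw [flatMap_ite_filter, ← hl]
  have e1 : (fun u => (List.range L).flatMap fun w => if good w then [decide (adj u w)] else []) =
      fun u => l.map fun w => decide (adj u w) := by
    funext u
    rw [flatMap_ite_single]
  rw [e1]
  rw [← finRange_flat_eq]
  refine List.flatMap_congr fun i _ => List.map_congr_left fun j _ => ?_
  apply decide_eq_decide.mpr
  show G.Adj (f i) (f j) ↔ _
  rw [ha, hf, hf]

end Word

end Vale.Agent.Lib.P310F
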